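import Crest.Agent.R251.Defs

/-! R251: the algebra.  `G ∋ x, t` with `x⁶ = 1`, `[ι, v] = 1`, where `ι = x³`, `v = t x² t⁻¹`.

`exists_s`: the map `λ (a, b) = a + b * lam` is left linear, so `I = map λ (span {sT, sA, sB})` is a left
ideal of `R = ℤG`; we show `1 ∈ I`.  It contains `λ sT = x - 1`, `λ sA = v + ι` (because
`(1 + ι) (1 - ι) = 1 - ι² = 0`) and `λ sB = (1 - ι) t + N - N (1 - ι) t`, `N = 1 + v + v²`.  Work in the
module `Q = R ⧸ I` with `y` the class of `1` (so `a • y = 0 ↔ a ∈ I`): `x y = y`, hence `ι y = y` and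
`u y = y` for `u = x²`; `v y = - ι y = - y`; `v³ = 1` gives `y = - y`, i.e. `2 y = 0`;
`N y = y - y + y = y`; `N (1 - ι) t = (1 - ι) N t = (1 - ι) t (1 + u + u²)` (`ι v = v ι`, `v t = t u`), so
`0 = (1 - ι) t y + y - (1 - ι) t (3 y) = y - (1 - ι) t (2 y) = y`.
`span_snd`: `Submodule.span_induction`. -/

set_option autoImplicit false

namespace Crest.Agent.R251

variable {G : Type} [Group G]

/-- The group element as an element of the group ring. -/
noncomputable abbrev og (g : G) : MonoidAlgebra ℤ G := MonoidAlgebra.of ℤ G g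

noncomputable def sT (x : G) : MonoidAlgebra ℤ G × MonoidAlgebra ℤ G := (og x - 1, 0)

noncomputable def sA (x t : G) : MonoidAlgebra ℤ G × MonoidAlgebra ℤ G :=
  (og (t * x ^ 2 * t⁻¹) - 1, 1 + og (x ^ 3))

noncomputable def sB (x t : G) : MonoidAlgebra ℤ G × MonoidAlgebra ℤ G :=
  (og t - og (x ^ 3 * t), 1 + og (t * x ^ 2 * t⁻¹) + og ((t * x ^ 2 * t⁻¹) ^ 2))

noncomputable def lam (x t : G) : MonoidAlgebra ℤ G := 1 - (1 - og (x ^ 3)) * og t

theorem alg_core {R Q : Type} [Ring R] [AddCommGroup Q] [Module R Q] (y : Q) (X T V : R)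
    (hι : X ^ 3 * X ^ 3 = 1) (hVT : V * T = T * X ^ 2) (hc : X ^ 3 * V = V * X ^ 3) (hV : V ^ 3 = 1)
    (h1 : (X - 1) • y = 0) (h2 : (V - 1 + (1 + X ^ 3) * (1 - (1 - X ^ 3) * T)) • y = 0)
    (h3 : (T - X ^ 3 * T + (1 + V + V ^ 2) * (1 - (1 - X ^ 3) * T)) • y = 0) : y = 0 := by
  have hx : X • y = y := by rwa [sub_smul, one_smul, sub_eq_zero] at h1
  have hxn : ∀ n : ℕ, X ^ n • y = y := fun n => by
    induction n with
    | zero => rw [pow_zero, one_smul]
    | succ n ih => rw [pow_succ, mul_smul, hx, ih]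
  have e2 : V - 1 + (1 + X ^ 3) * (1 - (1 - X ^ 3) * T) = V + X ^ 3 := by
    have : (1 + X ^ 3) * ((1 - X ^ 3) * T) = 0 := by
      rw [← mul_assoc, add_mul, one_mul, mul_sub, hι, mul_one]
      simp
    rw [mul_sub, this, mul_one]
    abel
  have hv : V • y = -y := by rwa [e2, add_smul, hxn, add_eq_zero_iff_eq_neg] at h2
  have hv2 : V ^ 2 • y = y := by rw [pow_two, mul_smul, hv, smul_neg, hv, neg_neg]
  have hy : y + y = 0 := by
    have : V ^ 3 • y = -y := by rw [pow_succ', mul_smul, hv2, hv]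
    rwa [hV, one_smul, ← add_eq_zero_iff_eq_neg] at this
  obtain ⟨W, hW⟩ : ∃ W, W = (1 - X ^ 3) * T := ⟨_, rfl⟩
  have hVW : V * W = W * X ^ 2 := by
    rw [hW, ← mul_assoc, mul_sub, mul_one, ← hc, mul_assoc, ← hVT, sub_mul, sub_mul, one_mul,
      mul_assoc]
  have hw : V • W • y = W • y := by rw [← mul_smul, hVW, mul_smul, hxn]
  have hw2 : V ^ 2 • W • y = W • y := by rw [pow_two, mul_smul, hw, hw]
  have hww : W • y + W • y = 0 := by rw [← smul_add, hy, smul_zero]
  have e3 : T - X ^ 3 * T = W := by rw [hW, sub_mul, one_mul]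
  rw [e3, ← hW, add_smul, mul_smul, sub_smul, one_smul, add_smul, add_smul, one_smul, smul_sub,
    smul_sub, hv, hv2, hw, hw2] at h3
  rw [← h3, ← sub_eq_zero, ← hww]
  abel

theorem exists_s {x t : G} (hx : x ^ 6 = 1) (hc : wc x t = 1) :
    ∃ s ∈ Submodule.span (MonoidAlgebra ℤ G) {sT x, sA x t, sB x t}, s.1 + s.2 * lam x t = 1 := by
  let l : (MonoidAlgebra ℤ G × MonoidAlgebra ℤ G) →ₗ[MonoidAlgebra ℤ G] MonoidAlgebra ℤ G :=
    LinearMap.fst _ _ _ + (LinearMap.toSpanSingleton _ _ (lam x t)).comp (LinearMap.snd _ _ _)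
  have hl : ∀ s, l s = s.1 + s.2 * lam x t := fun s => rfl
  let I := (Submodule.span (MonoidAlgebra ℤ G) {sT x, sA x t, sB x t}).map l
  have key : ∀ s ∈ ({sT x, sA x t, sB x t} : Set _), (s.1 + s.2 * lam x t) • I.mkQ 1 = 0 := by
    intro s hs
    rw [← map_smul, smul_eq_mul, mul_one, Submodule.mkQ_apply, Submodule.Quotient.mk_eq_zero]
    exact ⟨s, Submodule.subset_span hs, hl s⟩
  have hp : ∀ (g : G) (n : ℕ), og (g ^ n) = og g ^ n := fun g n => map_pow _ g n
  have hm : ∀ g h : G, og (g * h) = og g * og h := fun g h => map_mul _ g h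
  have h : I.mkQ 1 = 0 := by
    refine alg_core _ (og x) (og t) (og (t * x ^ 2 * t⁻¹)) ?_ ?_ ?_ ?_ ?_ ?_ ?_
    · rw [← pow_add, ← map_pow, hx, map_one]
    · simp only [← map_pow, ← map_mul]
      congr 1
      group
    · simp only [← map_pow, ← map_mul]
      congr 1
      rwa [wc, mul_inv_eq_one, mul_inv_eq_iff_eq_mul] at hc
    · rw [← map_pow, conj_pow, ← pow_mul, hx, mul_one, mul_inv_cancel, map_one]
    · simpa [sT] using key (sT x) (by simp)
    · have := key (sA x t) (by simp)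
      rwa [sA, lam, hp] at this
    · have := key (sB x t) (by simp)
      rwa [sB, lam, hm (x ^ 3), hp, hp] at this
  rw [Submodule.mkQ_apply, Submodule.Quotient.mk_eq_zero] at h
  obtain ⟨s, hs, h⟩ := h
  exact ⟨s, hs, h⟩

theorem span_snd {x t : G} {R : Type} [Ring R] (φ : MonoidAlgebra ℤ G →+* R)
    (h1 : φ (sA x t).2 = 0) (h2 : φ (sB x t).2 = 0) {s : MonoidAlgebra ℤ G × MonoidAlgebra ℤ G}
    (hs : s ∈ Submodule.span (MonoidAlgebra ℤ G) {sT x, sA x t, sB x t}) : φ s.2 = 0 := by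
  induction hs using Submodule.span_induction with
  | mem s hs =>
    rcases hs with rfl | rfl | rfl
    · exact map_zero φ
    · exact h1
    · exact h2
  | zero => exact map_zero φ
  | add a b _ _ ha hb => rw [Prod.snd_add, map_add, ha, hb, add_zero]
  | smul r a _ ha => rw [Prod.smul_snd, smul_eq_mul, map_mul, ha, mul_zero]

/-- The unit `3` of `ZMod 7`, a primitive sixth root of unity. -/
def ζ : (ZMod 7)ˣ := ⟨3, 5, by decide, by decide⟩

theorem ζ_ne_one : ζ ≠ 1 := by decide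

theorem ζ_pow : ζ ^ 6 = 1 := by decide

/-- In the character `x ↦ ζ`, `t ↦ 1` the second components of the identities act as zero. -/
theorem act_snd {x t : G} (m : G →* (ZMod 7)ˣ) (hx : m x = ζ) (ht : m t = 1)
    {s : MonoidAlgebra ℤ G × MonoidAlgebra ℤ G}
    (hs : s ∈ Submodule.span (MonoidAlgebra ℤ G) {sT x, sA x t, sB x t}) :
    act m (ZMod 7) s.2 = 0 := by
  refine span_snd _ ?_ ?_ hs
  · refine LinearMap.ext fun a => ?_
    simp only [sA, map_add, map_one, LinearMap.add_apply, act_of, map_pow m, hx]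
    revert a
    decide
  · refine LinearMap.ext fun a => ?_
    simp only [sB, map_add, map_one, LinearMap.add_apply, act_of, map_pow m, map_mul m, map_inv m,
      hx, ht]
    revert a
    decide

/-- Fox derivatives of the two relators in this character. -/
theorem fox_X : ((⟨0, ζ⟩ : SD (ZMod 7)ˣ (ZMod 7)) ^ 6).m = 0 := by
  decide

theorem fox_c (a : ZMod 7) : (wc (⟨0, ζ⟩ : SD (ZMod 7)ˣ (ZMod 7)) ⟨a, 1⟩).m = 2 * a := by
  revert a
  decide

end Crest.Agent.R251
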