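import Crest.Agent.R251.Defs

/-! R251: attaching finitely many cells to a compact metric space.

Embed `K` isometrically in `W = lp (fun _ : ℕ => ℝ) ⊤` (`kuratowskiEmbedding`,
`kuratowskiEmbedding.isometry`; a compact metric space is separable), `e : K → W`.  In the normed space
`V = (ι → ℝ × (Fin n → ℝ)) × W` (`Fintype.ofFinite`) put `j₀ y = (0, e y)` and
`Φ₀ i x = (Pi.single i ((1 - ‖x‖) • (1, x)), ‖x‖ • e (a i (‖x‖⁻¹ • x)))`.  Let
`T = range j₀ ∪ ⋃ i, Φ₀ i '' closedBall 0 1`, `K' = ↥T`, and `Φ i x = ⟨Φ₀ i x, _⟩` for `x` in the closed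
ball (for other `x`: the value at `0`).  `Φ₀ i` is continuous on the closed ball: away from `0` by
composition (`‖x‖⁻¹ • x` lies on the sphere), at `0` because `e` is bounded (`K` compact; if `n = 0` or
in general use `squeeze_zero_norm`: `‖‖x‖ • e _‖ ≤ ‖x‖ * C`, `isCompact_range`,
`Bornology.IsBounded.exists_norm_le`).  So `T` is compact (`isCompact_iff_compactSpace`).  On the
sphere `Φ₀ i x = j₀ (a i x)`.  On the open ball the `i`-th block has first entry `1 - ‖x‖ ≠ 0`, all other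
blocks vanish, and `((1 - ‖x‖), (1 - ‖x‖) • x)` determines `x`. -/

set_option autoImplicit false

namespace Crest.Agent.R251

open Set Metric Topology

section aux

variable {K W : Type} [MetricSpace K] [CompactSpace K] [NormedAddCommGroup W] [NormedSpace ℝ W]
  {n : ℕ}

private theorem att_cone_cont (e : K → W) (he : Continuous e) (a : (Fin n → ℝ) → K)
    (ha : ContinuousOn a (sphere 0 1)) :
    Continuous fun x : Fin n → ℝ => ‖x‖ • e (a (‖x‖⁻¹ • x)) := by
  obtain ⟨C, hC⟩ := (isCompact_range he).isBounded.exists_norm_le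
  rw [continuous_iff_continuousAt]
  intro x
  by_cases hx : x = 0
  · subst hx
    rw [ContinuousAt]
    simp only [norm_zero, zero_smul]
    refine squeeze_zero_norm (a := fun x : Fin n → ℝ => ‖x‖ * C) (fun x => ?_) ?_
    · rw [norm_smul, norm_norm]
      exact mul_le_mul_of_nonneg_left (hC _ (mem_range_self _)) (norm_nonneg _)
    · have h : Continuous fun x : Fin n → ℝ => ‖x‖ * C := by fun_prop
      simpa using h.tendsto 0
  · have hO : IsOpen ({0}ᶜ : Set (Fin n → ℝ)) := isOpen_compl_singleton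
    have h1 : ContinuousOn (fun x : Fin n → ℝ => ‖x‖⁻¹ • x) {0}ᶜ :=
      (continuous_norm.continuousOn.inv₀ fun y hy => norm_ne_zero_iff.2 hy).smul continuousOn_id
    have h2 : MapsTo (fun x : Fin n → ℝ => ‖x‖⁻¹ • x) {0}ᶜ (sphere 0 1) := fun y hy => by
      have : ‖y‖ ≠ 0 := norm_ne_zero_iff.2 hy
      simp [norm_smul, this]
    have h3 : ContinuousOn (fun x : Fin n → ℝ => ‖x‖ • e (a (‖x‖⁻¹ • x))) {0}ᶜ :=
      continuous_norm.continuousOn.smul (he.comp_continuousOn (ha.comp h1 h2))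
    exact h3.continuousAt (hO.mem_nhds hx)

end aux

theorem exists_attach (K : Type) [MetricSpace K] [CompactSpace K] (n : ℕ) (ι : Type) [Finite ι]
    (a : ι → (Fin n → ℝ) → K) (ha : ∀ i, ContinuousOn (a i) (sphere 0 1)) :
    ∃ (K' : Type) (_ : MetricSpace K') (_ : CompactSpace K') (j : K → K')
      (Φ : ι → (Fin n → ℝ) → K'), Continuous j ∧ Function.Injective j ∧
      (∀ i, ContinuousOn (Φ i) (closedBall 0 1)) ∧
      (∀ i, ∀ z ∈ sphere (0 : Fin n → ℝ) 1, Φ i z = j (a i z)) ∧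
      (∀ i i', ∀ z ∈ ball (0 : Fin n → ℝ) 1, ∀ z' ∈ ball (0 : Fin n → ℝ) 1,
        Φ i z = Φ i' z' → i = i' ∧ z = z') ∧
      (∀ i, ∀ z ∈ ball (0 : Fin n → ℝ) 1, ∀ y, Φ i z ≠ j y) ∧
      ∀ y', y' ∈ range j ∨ ∃ i, ∃ z ∈ ball (0 : Fin n → ℝ) 1, Φ i z = y' := by
  classical
  have := Fintype.ofFinite ι
  let e := kuratowskiEmbedding K
  have he : Isometry e := kuratowskiEmbedding.isometry K
  let j₀ : K → (ι → ℝ × (Fin n → ℝ)) × lp (fun _ : ℕ => ℝ) ⊤ := fun y => (0, e y)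
  let Φ₀ : ι → (Fin n → ℝ) → (ι → ℝ × (Fin n → ℝ)) × lp (fun _ : ℕ => ℝ) ⊤ := fun i x =>
    (Pi.single i ((1 - ‖x‖) • ((1 : ℝ), x)), ‖x‖ • e (a i (‖x‖⁻¹ • x)))
  have hj₀ : Continuous j₀ := continuous_const.prodMk he.continuous
  have hΦ₀ : ∀ i, Continuous (Φ₀ i) := fun i => by
    refine Continuous.prodMk ?_ (att_cone_cont e he.continuous (a i) (ha i))
    refine (continuous_single (A := fun _ : ι => ℝ × (Fin n → ℝ)) i).comp ?_
    fun_prop
  have hsph : ∀ i, ∀ z ∈ sphere (0 : Fin n → ℝ) 1, Φ₀ i z = j₀ (a i z) := fun i z hz => by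
    have hz' : ‖z‖ = 1 := by simpa using hz
    simp [Φ₀, j₀, hz']
  have hfst : ∀ i z, ((Φ₀ i z).1 i).1 = 1 - ‖z‖ := fun i z => by simp [Φ₀]
  have hsnd : ∀ i z, ((Φ₀ i z).1 i).2 = (1 - ‖z‖) • z := fun i z => by simp [Φ₀]
  have hne : ∀ i i' z, i ≠ i' → ((Φ₀ i' z).1 i).1 = 0 := fun i i' z h => by
    simp [Φ₀, Pi.single_eq_of_ne h]
  have hlt : ∀ z ∈ ball (0 : Fin n → ℝ) 1, 1 - ‖z‖ ≠ 0 := fun z hz => by
    have : ‖z‖ < 1 := by simpa using hz
    linarith
  let T : Set ((ι → ℝ × (Fin n → ℝ)) × lp (fun _ : ℕ => ℝ) ⊤) :=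
    range j₀ ∪ ⋃ i, Φ₀ i '' closedBall 0 1
  have hT : IsCompact T :=
    (isCompact_range hj₀).union
      (isCompact_iUnion fun i => (isCompact_closedBall 0 1).image (hΦ₀ i))
  have hm : ∀ i, ∀ x ∈ closedBall (0 : Fin n → ℝ) 1, Φ₀ i x ∈ T := fun i x hx =>
    Or.inr (mem_iUnion.2 ⟨i, x, hx, rfl⟩)
  let Φ : ι → (Fin n → ℝ) → T := fun i x =>
    if h : x ∈ closedBall (0 : Fin n → ℝ) 1 then ⟨Φ₀ i x, hm i x h⟩
    else ⟨Φ₀ i 0, hm i 0 (mem_closedBall_self zero_le_one)⟩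
  have hΦ : ∀ i, ∀ x ∈ closedBall (0 : Fin n → ℝ) 1, (Φ i x).1 = Φ₀ i x := fun i x hx => by
    simp only [Φ, dif_pos hx]
  refine ⟨T, inferInstance, isCompact_iff_compactSpace.1 hT, fun y => ⟨j₀ y, Or.inl ⟨y, rfl⟩⟩, Φ,
    hj₀.subtype_mk _, ?_, ?_, ?_, ?_, ?_, ?_⟩
  · intro y y' h
    exact he.injective (congrArg (fun p : T => p.1.2) h)
  · intro i
    rw [IsInducing.subtypeVal.continuousOn_iff]
    exact (hΦ₀ i).continuousOn.congr fun x hx => hΦ i x hx
  · intro i z hz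
    exact Subtype.ext ((hΦ i z (sphere_subset_closedBall hz)).trans (hsph i z hz))
  · intro i i' z hz z' hz' h
    have h' : Φ₀ i z = Φ₀ i' z' := by
      rw [← hΦ i z (ball_subset_closedBall hz), ← hΦ i' z' (ball_subset_closedBall hz'), h]
    have hii : i = i' := by
      by_contra hii
      have h1 := hfst i z
      rw [h', hne i i' z' hii] at h1
      exact hlt z hz h1.symm
    subst hii
    refine ⟨rfl, ?_⟩
    have h1 := hfst i z
    have h2 := hsnd i z
    rw [h', hfst] at h1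
    rw [h', hsnd, h1] at h2
    exact (smul_right_injective _ (hlt z hz) h2).symm
  · intro i z hz y h
    have h' : Φ₀ i z = j₀ y := by
      rw [← hΦ i z (ball_subset_closedBall hz), h]
    have h1 := hfst i z
    rw [h'] at h1
    exact hlt z hz h1.symm
  · rintro ⟨y', hy' | hy'⟩
    · obtain ⟨y, rfl⟩ := hy'
      exact Or.inl ⟨y, rfl⟩
    · obtain ⟨i, z, hz, rfl⟩ := mem_iUnion.1 hy'
      by_cases hb : z ∈ ball (0 : Fin n → ℝ) 1
      · exact Or.inr ⟨i, z, hb, Subtype.ext (hΦ i z hz)⟩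
      · have hs : z ∈ sphere (0 : Fin n → ℝ) 1 := by
          rw [mem_sphere]
          exact le_antisymm hz (not_lt.1 hb)
        exact Or.inl ⟨a i z, Subtype.ext (hsph i z hs).symm⟩

end Crest.Agent.R251
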