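import Crest.Agent.R251.Defs

/-! R251: elementary facts on lifts, cochains and affine simplices. -/

set_option autoImplicit false
set_option linter.unusedSectionVars false

namespace Crest.Agent.R251

open Set Metric Topology Crest.Agent.R197

/-! ### affine simplices -/

theorem continuous_face {k : ℕ} (i : Fin (k + 2)) : Continuous (face (k := k) i) :=
  stdSimplex.continuous_map _

theorem face_val {k : ℕ} (i : Fin (k + 2)) (x : Δ k) : (face i x).1 = fl i x.1 := rfl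

section affine

variable {W W' : Type} [AddCommGroup W] [Module ℝ W] [AddCommGroup W'] [Module ℝ W']

theorem cmb_map {k l : ℕ} (v : Fin (l + 1) → W) (g : Fin (k + 1) → Fin (l + 1)) (x : Δ k) :
    cmb v (stdSimplex.map g x) = cmb (fun j => v (g j)) x := by
  unfold cmb
  have : ∀ i, (stdSimplex.map g x).1 i = ∑ j with g j = i, x.1 j := fun i => by
    change (FunOnFinite.linearMap ℝ ℝ g x) i = _
    rw [FunOnFinite.linearMap_apply_apply]; rfl
  simp_rw [this, Finset.sum_smul]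
  rw [← Finset.sum_fiberwise (s := Finset.univ) (g := g)]
  refine Finset.sum_congr rfl fun i _ => Finset.sum_congr rfl fun j hj => ?_
  rw [(Finset.mem_filter.1 hj).2]

theorem cmb_face {k : ℕ} (v : Fin (k + 2) → W) (i : Fin (k + 2)) (x : Δ k) :
    cmb v (face i x) = cmb (fun j => v (i.succAbove j)) x := cmb_map v _ x

theorem cmb_mem {k : ℕ} {C : Set W} (hC : Convex ℝ C) {v : Fin (k + 1) → W} (hv : ∀ i, v i ∈ C)
    (x : Δ k) : cmb v x ∈ C :=
  hC.sum_mem (fun i _ => x.2.1 i) x.2.2 fun i _ => hv i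

theorem cmb_linear {k : ℕ} (f : W →ₗ[ℝ] W') (v : Fin (k + 1) → W) (x : Δ k) :
    f (cmb v x) = cmb (fun i => f (v i)) x := by
  simp [cmb, map_sum]

theorem cmb_const {k : ℕ} (a : W) (x : Δ k) : cmb (fun _ => a) x = a := by
  rw [cmb, ← Finset.sum_smul, x.2.2, one_smul]

theorem cmb_add {k : ℕ} (v w : Fin (k + 1) → W) (x : Δ k) :
    cmb (fun i => v i + w i) x = cmb v x + cmb w x := by
  simp [cmb, Finset.sum_add_distrib]

/-- Affine maps commute with `cmb`. -/
theorem cmb_affine {k : ℕ} (f : W →ₗ[ℝ] W') (b : W') (v : Fin (k + 1) → W) (x : Δ k) :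
    f (cmb v x) + b = cmb (fun i => f (v i) + b) x := by
  rw [cmb_add, cmb_const, cmb_linear]

theorem cmb_prod {k : ℕ} (v : Fin (k + 1) → W) (w : Fin (k + 1) → W') (x : Δ k) :
    cmb (fun i => (v i, w i)) x = (cmb v x, cmb w x) := by
  ext <;> simp [cmb, Prod.fst_sum, Prod.snd_sum]

theorem cmb_stdv {k : ℕ} (x : Δ k) : cmb (stdv k) x = x.1 := by
  funext j
  simp [cmb, stdv, Finset.sum_apply, Pi.single_apply]

theorem cmb_v0 {k : ℕ} (v : Fin (k + 1) → W) : cmb v (v0 k) = v 0 := by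
  have : ∀ i, (v0 k).1 i = (Pi.single (0 : Fin (k + 1)) (1 : ℝ) : Fin (k + 1) → ℝ) i :=
    fun _ => rfl
  simp [cmb, this, Pi.single_apply]

theorem cmb_one (a b : W) (x : Δ 1) : cmb ![a, b] x = seg a b (x.1 1) := by
  have h := x.2.2
  rw [Fin.sum_univ_two] at h
  have h0 : x.1 0 = 1 - x.1 1 := by linarith
  have e : cmb ![a, b] x = x.1 0 • a + x.1 1 • b := by
    unfold cmb
    exact Fin.sum_univ_two _
  rw [e, h0, seg]
  module

theorem cmb_two (a b c : W) (x : Δ 2) :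
    cmb ![a, b, c] x = x.1 0 • a + x.1 1 • b + x.1 2 • c := by
  simp [cmb, Fin.sum_univ_three]

theorem par_val {t : ℝ} (ht : t ∈ Icc (0 : ℝ) 1) : (par t).1 = ![1 - t, t] := by
  simp [par, projIcc_of_mem _ ht]

theorem continuous_par : Continuous par := by
  refine Continuous.subtype_mk (continuous_pi fun i => ?_) _
  have h : Continuous fun t : ℝ => (projIcc (0 : ℝ) 1 zero_le_one t : ℝ) :=
    continuous_subtype_val.comp continuous_projIcc
  fin_cases i
  · exact continuous_const.sub h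
  · exact h

theorem par_zero : par 0 = v0 1 := by
  apply Subtype.ext
  rw [par_val (left_mem_Icc.2 zero_le_one)]
  funext i
  fin_cases i <;> simp [v0]

theorem cmb_par (a b : W) {t : ℝ} (ht : t ∈ Icc (0 : ℝ) 1) : cmb ![a, b] (par t) = seg a b t := by
  rw [cmb_one, par_val ht]; rfl

theorem stdv_mem (k : ℕ) (i : Fin (k + 1)) : stdv k i ∈ stdSimplex ℝ (Fin (k + 1)) :=
  single_mem_stdSimplex ℝ i

theorem fl_stdv {k : ℕ} (i : Fin (k + 2)) (j : Fin (k + 1)) :
    fl i (stdv k j) = stdv (k + 1) (i.succAbove j) := by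
  have := congrArg Subtype.val (stdSimplex.map_vertex (S := ℝ) i.succAbove j)
  exact this

theorem ext_val {P : Type} {k : ℕ} (τ : Δ k → P) (x : Δ k) : ext τ x.1 = τ x := by
  simp [ext, x.2]

theorem sx_ext_stdv {P : Type} {k : ℕ} (τ : Δ k → P) : sx (ext τ) (stdv k) = τ := by
  funext x
  rw [sx, cmb_stdv, ext_val]

theorem ext_face {P : Type} {k : ℕ} (τ : Δ (k + 1) → P) (i : Fin (k + 2)) {y : Fin (k + 1) → ℝ}
    (hy : y ∈ stdSimplex ℝ (Fin (k + 1))) :
    ext (fun x => τ (face i x)) y = ext τ (fl i y) := by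
  rw [ext_val (fun x => τ (face i x)) ⟨y, hy⟩, ← ext_val τ]
  rfl

theorem sx_congr {P : Type} {k : ℕ} {C : Set W} (hC : Convex ℝ C) {K K' : W → P}
    (h : EqOn K K' C) {v : Fin (k + 1) → W} (hv : ∀ i, v i ∈ C) : sx K v = sx K' v :=
  funext fun x => h (cmb_mem hC hv x)

theorem sx_face {P : Type} {k : ℕ} (K : W → P) (v : Fin (k + 2) → W) (i : Fin (k + 2)) :
    (fun x => sx K v (face i x)) = sx K fun j => v (i.succAbove j) :=
  funext fun x => by simp only [sx, cmb_face]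

end affine

theorem continuous_cmb {W : Type} [NormedAddCommGroup W] [NormedSpace ℝ W] {k : ℕ}
    (v : Fin (k + 1) → W) : Continuous (cmb v) := by
  unfold cmb
  refine continuous_finsetSum _ fun i _ => Continuous.smul ?_ continuous_const
  exact (continuous_apply i).comp continuous_subtype_val

theorem convex_Sq : Convex ℝ Sq := (convex_Icc 0 1).prod (convex_Icc 0 1)

/-! ### the coboundary -/

section cob

variable {P M : Type} [AddCommGroup M] {k : ℕ}

theorem cob_add (φ ψ : Co P M k) : cob (φ + ψ) = cob φ + cob ψ := by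
  funext τ; simp [cob, Finset.sum_add_distrib]

theorem cob_neg (φ : Co P M k) : cob (-φ) = -cob φ := by
  funext τ; simp [cob]

theorem cob_sub (φ ψ : Co P M k) : cob (φ - ψ) = cob φ - cob ψ := by
  funext τ; simp [cob, smul_sub, Finset.sum_sub_distrib]

theorem cob_zero : cob (0 : Co P M k) = 0 := by
  funext τ; simp [cob]

variable {W : Type} [AddCommGroup W] [Module ℝ W]

theorem cob_sx (φ : Co P M k) (K : W → P) (v : Fin (k + 2) → W) :
    cob φ (sx K v) = ∑ i : Fin (k + 2), (-1 : ℤ) ^ (i : ℕ) • φ (sx K fun j => v (i.succAbove j)) := by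
  simp only [cob, sx_face]

theorem sgm_cob (ε : Co P M 0) (K : W → P) (a b : W) :
    sgm (cob ε) K a b = ε (fun _ => K b) - ε (fun _ => K a) := by
  have h : ∀ c : W, sx K (k := 0) (fun _ => c) = fun _ => K c := fun c =>
    funext fun x => by rw [sx, cmb_const]
  have e0 : (fun j : Fin 1 => ![a, b] ((0 : Fin 2).succAbove j)) = fun _ => b := by
    funext j; fin_cases j; rfl
  have e1 : (fun j : Fin 1 => ![a, b] ((1 : Fin 2).succAbove j)) = fun _ => a := by
    funext j; fin_cases j; rfl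
  rw [sgm, cob_sx, Fin.sum_univ_two, e0, e1, h, h]
  simp [sub_eq_add_neg]

theorem tri_cob (β : Co P M 1) (K : W → P) (a b c : W) :
    tri (cob β) K a b c = sgm β K b c - sgm β K a c + sgm β K a b := by
  have e0 : (fun j : Fin 2 => ![a, b, c] ((0 : Fin 3).succAbove j)) = ![b, c] := by
    funext j; fin_cases j <;> rfl
  have e1 : (fun j : Fin 2 => ![a, b, c] ((1 : Fin 3).succAbove j)) = ![a, c] := by
    funext j; fin_cases j <;> rfl
  have e2 : (fun j : Fin 2 => ![a, b, c] ((2 : Fin 3).succAbove j)) = ![a, b] := by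
    funext j; fin_cases j <;> rfl
  rw [tri, cob_sx, Fin.sum_univ_three, e0, e1, e2]
  simp [sgm, sub_eq_add_neg]

theorem cob_tet (θ : Co P M 2) (K : W → P) (a b c d : W) :
    cob θ (sx K ![a, b, c, d]) =
      tri θ K b c d - tri θ K a c d + tri θ K a b d - tri θ K a b c := by
  have e0 : (fun j : Fin 3 => ![a, b, c, d] ((0 : Fin 4).succAbove j)) = ![b, c, d] := by
    funext j; fin_cases j <;> rfl
  have e1 : (fun j : Fin 3 => ![a, b, c, d] ((1 : Fin 4).succAbove j)) = ![a, c, d] := by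
    funext j; fin_cases j <;> rfl
  have e2 : (fun j : Fin 3 => ![a, b, c, d] ((2 : Fin 4).succAbove j)) = ![a, b, d] := by
    funext j; fin_cases j <;> rfl
  have e3 : (fun j : Fin 3 => ![a, b, c, d] ((3 : Fin 4).succAbove j)) = ![a, b, c] := by
    funext j; fin_cases j <;> rfl
  rw [cob_sx, Fin.sum_univ_four, e0, e1, e2, e3]
  have h3 : ((3 : Fin 4) : ℕ) = 3 := rfl
  have h2 : ((2 : Fin 4) : ℕ) = 2 := rfl
  simp only [tri, h3, h2, Fin.val_zero, Fin.val_one]
  norm_num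
  abel

theorem tri_sub (θ θ' : Co P M 2) (K : W → P) (a b c : W) :
    tri (θ - θ') K a b c = tri θ K a b c - tri θ' K a b c := rfl

theorem sgm_sub (β β' : Co P M 1) (K : W → P) (a b : W) :
    sgm (β - β') K a b = sgm β K a b - sgm β' K a b := rfl

end cob

/-! ### lifts -/

variable {Z : Type} [TopologicalSpace Z] {G : Type} [Group G] {μ : PF (univ : Set Z) G}
  {S : Set Z}

section lift

variable {W W' : Type} [TopologicalSpace W] [TopologicalSpace W'] {C : Set W} {K : W → Z × G}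

theorem Lift.comp (h : Lift μ S C K) {C' : Set W'} {f : W' → W} (hf : ContinuousOn f C')
    (hm : MapsTo f C' C) : Lift μ S C' fun w => K (f w) :=
  ⟨h.cont.comp hf hm, h.maps.comp hm, fun γ hγ => h.val (fun t => f (γ t)) (hγ.comp hf hm)⟩

theorem Lift.mono (h : Lift μ S C K) {S' : Set Z} (hS : S ⊆ S') : Lift μ S' C K :=
  ⟨h.cont, h.maps.mono_right hS, h.val⟩

theorem Lift.mono_left (h : Lift μ S C K) {C' : Set W} (hC : C' ⊆ C) : Lift μ S C' K :=
  ⟨h.cont.mono hC, h.maps.mono_left hC, fun γ hγ => h.val γ (hγ.mono hC)⟩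

theorem Lift.of_maps (h : Lift μ S C K) {S' : Set Z} (hS : MapsTo (fun w => (K w).1) C S') :
    Lift μ S' C K := ⟨h.cont, hS, h.val⟩

theorem Lift.congr (h : Lift μ S C K) {K' : W → Z × G} (e : EqOn K K' C) : Lift μ S C K' := by
  refine ⟨h.cont.congr fun w hw => by simp only [e hw], fun w hw => ?_, fun γ hγ => ?_⟩
  · have := h.maps hw
    simp only at this ⊢
    rwa [← e hw]
  · rw [← e hγ.zero_mem, ← e hγ.one_mem, ← h.val γ hγ]
    exact μ.congr fun t ht => by simp only [e (hγ.2 ht)]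

theorem Lift.tl (h : Lift μ S C K) (g : G) : Lift μ S C (tl g K) :=
  ⟨h.cont, h.maps, fun γ hγ => by
    have := h.val γ hγ
    simp only [R251.tl] at this ⊢
    rw [this]; group⟩

theorem lift_tl_iff (g : G) : Lift μ S C (tl g K) ↔ Lift μ S C K := by
  refine ⟨fun h => ?_, fun h => h.tl g⟩
  have := h.tl g⁻¹
  refine this.congr fun w _ => ?_
  simp [R251.tl]

theorem lift_const {z : Z} (hz : z ∈ S) (g : G) : Lift μ S C fun _ => (z, g) :=
  ⟨continuousOn_const, fun _ _ => hz, fun _ _ => by simpa using μ.const z (mem_univ _)⟩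

theorem Lift.face {k : ℕ} {τ : Δ (k + 1) → Z × G} (h : Good μ S τ) (i : Fin (k + 2)) :
    Good μ S fun x => τ (face i x) :=
  Lift.comp h (continuous_face i).continuousOn (mapsTo_univ _ _)

theorem Lift.ext {k : ℕ} {τ : Δ k → Z × G} (h : Good μ S τ) :
    Lift μ S (stdSimplex ℝ (Fin (k + 1))) (ext τ) := by
  classical
  have hc : ContinuousOn (fun y : Fin (k + 1) → ℝ =>
      if h : y ∈ stdSimplex ℝ (Fin (k + 1)) then (⟨y, h⟩ : Δ k) else v0 k)
      (stdSimplex ℝ (Fin (k + 1))) := by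
    rw [continuousOn_iff_continuous_domRestrict]
    convert continuous_id using 1
    funext y
    simp [y.2]
  refine (Lift.comp h hc (mapsTo_univ _ _)).congr fun y hy => ?_
  simp [R251.ext, hy]

theorem Lift.gm {Z' : Type} [TopologicalSpace Z'] {μ' : PF (univ : Set Z') G} {S' : Set Z'}
    {f : Z' → Z} {c : Z' → G} (hf : GM μ' S' μ S f c) {K : W → Z' × G} (h : Lift μ' S' C K) :
    Lift μ S C fun w => gm f c (K w) :=
  ⟨hf.cont.comp h.cont h.maps, hf.maps.comp h.maps, fun γ hγ => by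
    have h1 := hf.val (fun t => (K (γ t)).1) (hγ.comp h.cont h.maps)
    simp only [R251.gm]
    rw [h1, h.val γ hγ]; group⟩

end lift

section normed

variable {W : Type} [NormedAddCommGroup W] [NormedSpace ℝ W] {C : Set W} {K : W → Z × G}

theorem Lift.sx' (h : Lift μ S C K) {k : ℕ} {v : Fin (k + 1) → W} (hv : ∀ x, cmb v x ∈ C) :
    Good μ S (sx K v) :=
  h.comp (continuous_cmb v).continuousOn fun x _ => hv x

theorem Lift.sx (h : Lift μ S C K) (hC : Convex ℝ C) {k : ℕ} {v : Fin (k + 1) → W}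
    (hv : ∀ i, v i ∈ C) : Good μ S (sx K v) := h.sx' (cmb_mem hC hv)

theorem lift_lft (hC : Convex ℝ C) {F : W → Z} (hF : ContinuousOn F C) (hS : MapsTo F C S)
    {a : W} (ha : a ∈ C) (g : G) : Lift μ S C (lft μ F a g) :=
  ⟨hF, hS, fun γ hγ => by
    simp only [lft]
    rw [μ.pot_of_convex hC hF (mapsTo_univ _ _) ha hγ]; group⟩

theorem lft_base {F : W → Z} (a : W) (g : G) : lft μ F a g a = (F a, g) := by
  simp only [lft, seg_self]
  rw [μ.const _ (mem_univ _), mul_one]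

theorem lft_tl {F : W → Z} (a : W) (g h : G) : lft μ F a (g * h) = tl g (lft μ F a h) := by
  funext z; simp [lft, tl, mul_assoc]

/-- Uniqueness of lifts on convex sets. -/
theorem Lift.eq_lft (h : Lift μ S C K) (hC : Convex ℝ C) {a : W} (ha : a ∈ C) :
    EqOn K (lft μ (fun w => (K w).1) a (K a).2) C := by
  intro z hz
  have := h.val _ (isPath_seg hC ha hz)
  simp only [lft]
  rw [this]
  simp

/-- The labels of a good simplex for the trivial path function are constant. -/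
theorem Lift.label_triv {k : ℕ} {τ : Δ k → Z × G} (h : Good (triv Z G) S τ) (x : Δ k) :
    (τ x).2 = (τ (v0 k)).2 := by
  have h1 := (Lift.ext h).val _ (isPath_seg (convex_stdSimplex ℝ _) (v0 k).2 x.2)
  simp only [seg_zero, seg_one, ext_val] at h1
  have h2 : (1 : G) = (τ (v0 k)).2⁻¹ * (τ x).2 := h1
  exact (eq_of_inv_mul_eq_one h2.symm).symm

end normed

/-! ### cochains -/

variable {M : Type} [AddCommGroup M] [DistribMulAction G M] {k : ℕ}

theorem eqv_zero {Z : Type} : Eqv (0 : Co (Z × G) M k) := fun g τ => by simp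

theorem Eqv.add {Z : Type} {φ ψ : Co (Z × G) M k} (h : Eqv φ) (h' : Eqv ψ) : Eqv (φ + ψ) :=
  fun g τ => by simp [h g τ, h' g τ]

theorem Eqv.neg {Z : Type} {φ : Co (Z × G) M k} (h : Eqv φ) : Eqv (-φ) :=
  fun g τ => by simp [h g τ]

theorem Eqv.sub {Z : Type} {φ ψ : Co (Z × G) M k} (h : Eqv φ) (h' : Eqv ψ) : Eqv (φ - ψ) :=
  fun g τ => by simp [h g τ, h' g τ, smul_sub]

theorem Eqv.cob {Z : Type} {φ : Co (Z × G) M k} (h : Eqv φ) : Eqv (cob φ) := fun g τ => by
  simp only [R251.cob, Finset.smul_sum]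
  refine Finset.sum_congr rfl fun i _ => ?_
  rw [smul_comm g, ← h g]
  rfl

theorem Eqv.pb {Z Z' : Type} {φ : Co (Z × G) M k} (h : Eqv φ) (f : Z' → Z) (c : Z' → G) :
    Eqv (pb f c φ) := fun g τ => by
  simp only [R251.pb]
  rw [← h g]
  congr 1
  funext x
  simp [gm, tl, mul_assoc]

theorem z0_zero : Z0 μ S (0 : Co (Z × G) M k) := fun _ _ => rfl

theorem z0_empty (φ : Co (Z × G) M k) : Z0 μ ∅ φ := fun _ h => (h.maps (mem_univ (v0 k))).elim

theorem Z0.mono {φ : Co (Z × G) M k} (h : Z0 μ S φ) {S' : Set Z} (hS : S' ⊆ S) : Z0 μ S' φ :=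
  fun τ hτ => h τ (hτ.mono hS)

theorem Z0.add {φ ψ : Co (Z × G) M k} (h : Z0 μ S φ) (h' : Z0 μ S ψ) : Z0 μ S (φ + ψ) :=
  fun τ hτ => by simp [h τ hτ, h' τ hτ]

theorem Z0.neg {φ : Co (Z × G) M k} (h : Z0 μ S φ) : Z0 μ S (-φ) :=
  fun τ hτ => by simp [h τ hτ]

theorem Z0.sub {φ ψ : Co (Z × G) M k} (h : Z0 μ S φ) (h' : Z0 μ S ψ) : Z0 μ S (φ - ψ) :=
  fun τ hτ => by simp [h τ hτ, h' τ hτ]

theorem Z0.cob {φ : Co (Z × G) M k} (h : Z0 μ S φ) : Z0 μ S (cob φ) := fun τ hτ => by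
  simp only [R251.cob]
  exact Finset.sum_eq_zero fun i _ => by rw [h _ (Lift.face hτ i), smul_zero]

/-- Change of a vanishing cochain along an identity of cochains. -/
theorem Z0.of_eq {φ ψ : Co (Z × G) M k} (h : Z0 μ S φ) (e : ψ = φ) : Z0 μ S ψ := e ▸ h

theorem Z0.eq {φ ψ : Co (Z × G) M k} (h : Z0 μ S (φ - ψ)) {τ : Δ k → Z × G} (hτ : Good μ S τ) :
    φ τ = ψ τ := sub_eq_zero.1 (h τ hτ)

theorem pb_cob {Z Z' : Type} (f : Z' → Z) (c : Z' → G) (φ : Co (Z × G) M k) :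
    pb f c (cob φ) = cob (pb f c φ) := rfl

theorem pb_sub {Z Z' : Type} (f : Z' → Z) (c : Z' → G) (φ ψ : Co (Z × G) M k) :
    pb f c (φ - ψ) = pb f c φ - pb f c ψ := rfl

theorem pb_add {Z Z' : Type} (f : Z' → Z) (c : Z' → G) (φ ψ : Co (Z × G) M k) :
    pb f c (φ + ψ) = pb f c φ + pb f c ψ := rfl

theorem Z0.pb {Z' : Type} [TopologicalSpace Z'] {μ' : PF (univ : Set Z') G} {S' : Set Z'}
    {f : Z' → Z} {c : Z' → G} (hf : GM μ' S' μ S f c) {φ : Co (Z × G) M k} (h : Z0 μ S φ) :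
    Z0 μ' S' (pb f c φ) := fun _ hτ => h _ (hτ.gm hf)

theorem Cobd.pb {Z' : Type} [TopologicalSpace Z'] {μ' : PF (univ : Set Z') G} {S' : Set Z'}
    {f : Z' → Z} {c : Z' → G} (hf : GM μ' S' μ S f c) {φ : Co (Z × G) M (k + 1)}
    (h : Cobd μ S φ) : Cobd μ' S' (pb f c φ) := by
  obtain ⟨β, h1, h2⟩ := h
  exact ⟨R251.pb f c β, h1.pb f c, h2.pb hf⟩

theorem Cobd.mono {φ : Co (Z × G) M (k + 1)} (h : Cobd μ S φ) {S' : Set Z} (hS : S' ⊆ S) :
    Cobd μ S' φ := by
  obtain ⟨β, h1, h2⟩ := h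
  exact ⟨β, h1, h2.mono hS⟩

theorem Z0.cobd {φ : Co (Z × G) M (k + 1)} (h : Z0 μ S φ) : Cobd μ S φ :=
  ⟨0, eqv_zero, by rwa [cob_zero, sub_zero]⟩

theorem cobd_cob {β : Co (Z × G) M k} (h : Eqv β) : Cobd μ S (cob β) :=
  ⟨β, h, by rw [sub_self]; exact z0_zero⟩

theorem Cobd.add {φ ψ : Co (Z × G) M (k + 1)} (h : Cobd μ S φ) (h' : Cobd μ S ψ) :
    Cobd μ S (φ + ψ) := by
  obtain ⟨β, h1, h2⟩ := h
  obtain ⟨β', h1', h2'⟩ := h'
  exact ⟨β + β', h1.add h1', (h2.add h2').of_eq (by rw [cob_add]; abel)⟩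

theorem Cobd.neg {φ : Co (Z × G) M (k + 1)} (h : Cobd μ S φ) : Cobd μ S (-φ) := by
  obtain ⟨β, h1, h2⟩ := h
  exact ⟨-β, h1.neg, h2.neg.of_eq (by rw [cob_neg]; abel)⟩

theorem Cobd.sub {φ ψ : Co (Z × G) M (k + 1)} (h : Cobd μ S φ) (h' : Cobd μ S ψ) :
    Cobd μ S (φ - ψ) := by
  rw [sub_eq_add_neg]; exact h.add h'.neg

theorem Cobd.of_eq {φ ψ : Co (Z × G) M (k + 1)} (h : Cobd μ S φ) (e : ψ = φ) : Cobd μ S ψ := e ▸ h

theorem van_empty : Van M μ ∅ k := fun φ _ _ => (z0_empty φ).cobd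

theorem GM.mono {Z' : Type} [TopologicalSpace Z'] {μ' : PF (univ : Set Z') G} {S' : Set Z'}
    {f : Z' → Z} {c : Z' → G} (hf : GM μ' S' μ S f c) {T' : Set Z'} {T : Set Z} (h' : T' ⊆ S')
    (h : MapsTo f T' T) : GM μ' T' μ T f c :=
  ⟨hf.cont.mono h', h, fun γ hγ => hf.val γ (hγ.mono h')⟩

theorem gm_id : GM μ S μ S id fun _ => 1 :=
  ⟨continuousOn_id, mapsTo_id _, fun γ _ => by simp⟩

theorem gm_cmp {Z' : Type} [TopologicalSpace Z'] {f : Z' → Z} (hf : Continuous f) {S' : Set Z'}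
    (h : MapsTo f S' S) : GM (cmp μ f hf) S' μ S f fun _ => 1 :=
  ⟨hf.continuousOn, h, fun γ _ => by simp [cmp]⟩

@[simp] theorem cmp_val {Z' : Type} [TopologicalSpace Z'] {f : Z' → Z} (hf : Continuous f)
    (γ : ℝ → Z') : (cmp μ f hf).val γ = μ.val fun t => f (γ t) := rfl

/-- The lift of a map defined on a convex set, as an equivariant map from the trivial covering. -/
theorem gm_convex {W : Type} [NormedAddCommGroup W] [NormedSpace ℝ W] {C : Set W}
    (hC : Convex ℝ C) {F : W → Z} (hF : ContinuousOn F C) {a : W} (ha : a ∈ C) {O : Set W}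
    (hO : O ⊆ C) (hS : MapsTo F O S) :
    GM (triv W G) O μ S F fun z => μ.val fun t => F (seg a z t) :=
  ⟨hF.mono hO, hS, fun γ hγ => by
    rw [μ.pot_of_convex hC hF (mapsTo_univ _ _) ha (hγ.mono hO)]
    simp [triv, pfbTriv]⟩

/-- The four-term identity of a cocycle on a convex set. -/
theorem tri_four {W : Type} [NormedAddCommGroup W] [NormedSpace ℝ W] {C : Set W} (hC : Convex ℝ C)
    {K : W → Z × G} (hK : Lift μ S C K) {θ : Co (Z × G) M 2} (hθ : Z0 μ S (cob θ)) {o a b c : W}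
    (ho : o ∈ C) (ha : a ∈ C) (hb : b ∈ C) (hc : c ∈ C) :
    tri θ K a b c = tri θ K o b c - tri θ K o a c + tri θ K o a b := by
  have h := hθ _ (hK.sx hC (v := ![o, a, b, c]) (by intro i; fin_cases i <;> assumption))
  rw [cob_tet] at h
  rw [← sub_eq_zero, ← h]
  abel

theorem tri_zero {W : Type} [NormedAddCommGroup W] [NormedSpace ℝ W] {C : Set W} (hC : Convex ℝ C)
    {K : W → Z × G} (hK : Lift μ S C K) {θ : Co (Z × G) M 2} (hθ : Z0 μ S θ) {a b c : W}
    (ha : a ∈ C) (hb : b ∈ C) (hc : c ∈ C) : tri θ K a b c = 0 :=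
  hθ _ (hK.sx hC (v := ![a, b, c]) (by intro i; fin_cases i <;> assumption))

theorem tri_tl {W : Type} [AddCommGroup W] [Module ℝ W] {θ : Co (Z × G) M 2} (hθ : Eqv θ)
    (g : G) (K : W → Z × G) (a b c : W) : tri θ (tl g K) a b c = g • tri θ K a b c :=
  hθ g (sx K ![a, b, c])

theorem per_smul {θ : Co (Z × G) M 2} (hθ : Eqv θ) (K : ℝ × ℝ → Z) (g : G) :
    per μ θ K g = g • per μ θ K 1 := by
  rw [per, per, ← mul_one g, lft_tl, tri_tl hθ, tri_tl hθ, smul_sub, mul_one]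

theorem per_sub (θ θ' : Co (Z × G) M 2) (K : ℝ × ℝ → Z) (g : G) :
    per μ (θ - θ') K g = per μ θ K g - per μ θ' K g := by
  simp only [per, tri_sub]; abel

theorem Rel.sub {θ θ' : Co (Z × G) M 2} (h : Rel μ S θ) (h' : Rel μ S θ') : Rel μ S (θ - θ') :=
  ⟨h.eqv.sub h'.eqv, (h.coc.sub h'.coc).of_eq (cob_sub _ _), h.zero.sub h'.zero⟩

end Crest.Agent.R251
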