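import Crest.Agent.R251.Punc
import Crest.Agent.R197.Hol1

/-! R251: cells of a CW complex; cohomology vanishes above the dimension.

`nhds_cell`: with `B j = ball \ (if j = i then O else ∅)` the set `Sk Z n ∪ ⋃ j, chr n j '' B j` is closed
(`isClosed_Sk_union`, compare `isOpen_chr_image` in `R197/CWRad`), does not contain `chr n i z` for
`z ∈ O` (`chr_not_mem_Sk`, `cell_eq_of_chr_eq`), and its complement meets `Sk Z (n+1)` inside
`chr n i '' O` (`mem_Sk_succ`).  `cov_Sk`: a point that is not a centre has the neighbourhood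
`(ctr Z n)ᶜ` (`isClosed_ctr`); otherwise `nhds_cell`.
`retr_cell`: constant homotopy, `continuousOn_chr_symm`, `chr_symm_chr`.
`van_cell`: `van_of_retract (gm_chr ..) (retr_cell ..)` and `van_star` for the ball.
`retr_rad`: `continuousOn_rad`, `rad_mem`, `rad_one_mem`, `rad_zero`.
`van_Sk`: induction on `n` (`Sk Z 0 = ∅`).  For `Sk Z (n+1)` and `n + 1 ≤ k + 1`: `cov_Sk`; the piece
`Sk Z (n+1) \ ctr Z n` by `van_of_retract` (`gm_id` restricted: `GM.mono`, `retr_rad`); the cells by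
`van_cell`; the overlaps are `chr n i '' Pn n` (`Sk_diff_inter`): empty for `n = 0` (`mv_van_empty`;
`Fin 0 → ℝ` is a subsingleton), and for `n = n' + 1`, `k = k' + 1` use `mv_van`, `van_cell_of`,
`van_Pn n' k'`. -/

set_option autoImplicit false

namespace Crest.Agent.R251

open Set Metric Topology Crest.Agent.R197

variable {Z : Type} [TopologicalSpace Z] [CWComplex (univ : Set Z)] [T2Space Z]

theorem Sk_zero : Sk Z 0 = ∅ := by
  simp [Sk]

theorem Sk_eq_univ {n : ℕ} (h : ∀ m, n ≤ m → IsEmpty (Cell Z m)) : Sk Z n = univ := by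
  refine eq_univ_of_forall fun x => ?_
  have hx : x ∈ ⋃ (n : ℕ) (j : Cell Z n), RelCWComplex.openCell n j := by
    rw [CWComplex.iUnion_openCell_eq_complex]; trivial
  simp only [mem_iUnion] at hx
  obtain ⟨m, j, z, hz, e⟩ := hx
  refine cwrad_mem_Sk.2 ⟨m, ?_, j, z, hz, e⟩
  by_contra hn
  exact (h m (by omega)).false j

theorem nhds_cell {n : ℕ} (i : Cell Z n) {O : Set (Fin n → ℝ)} (hO : IsOpen O) (hOb : O ⊆ ball 0 1)
    {z : Fin n → ℝ} (hz : z ∈ O) : chr n i '' O ∈ 𝓝[Sk Z (n + 1)] (chr n i z) := by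
  classical
  have h1 := isClosed_Sk_union (X := Z) n (fun j => ball 0 1 \ if j = i then O else ∅)
    (fun _ => sdiff_subset) (fun j => by
      have e : (ball 0 1 \ if j = i then O else ∅) ∪ sphere (0 : Fin n → ℝ) 1 =
          closedBall 0 1 \ if j = i then O else ∅ := by
        rw [← sphere_union_ball, union_sdiff_distrib, union_comm,
          (sdiff_eq_left (x := sphere (0 : Fin n → ℝ) 1)).2]
        split_ifs
        · exact sphere_disjoint_ball.mono_right hOb
        · exact disjoint_empty _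
      rw [e]
      refine isClosed_closedBall.sdiff ?_
      split_ifs
      exacts [hO, isOpen_empty])
  refine mem_nhdsWithin.2 ⟨_, h1.isOpen_compl, ?_, ?_⟩
  · rintro (hx | hx)
    · exact chr_not_mem_Sk le_rfl i (hOb hz) hx
    · obtain ⟨j, z', hz', e⟩ := mem_iUnion.1 hx
      obtain ⟨rfl, rfl⟩ := cell_eq_of_chr_eq hz'.1 (hOb hz) e
      exact hz'.2 (by simpa using hz)
  · rintro x ⟨hx, h3⟩
    rcases mem_Sk_succ.1 h3 with h3 | ⟨j, w, hw, rfl⟩
    · exact absurd (Or.inl h3) hx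
    · by_contra hc
      refine hx (Or.inr (mem_iUnion.2 ⟨j, w, ⟨hw, ?_⟩, rfl⟩))
      split_ifs with hj
      · subst hj
        exact fun hO => hc ⟨w, hO, rfl⟩
      · exact notMem_empty _

theorem cov_Sk (n : ℕ) :
    Cov (Sk Z (n + 1)) (Sk Z (n + 1) \ ctr Z n) fun i : Cell Z n => chr n i '' ball 0 1 := by
  refine ⟨sdiff_subset, fun i x hx => mem_Sk_succ.2 (Or.inr ⟨i, hx⟩), fun x hx => ?_, ?_⟩
  · by_cases h : x ∈ ctr Z n
    · obtain ⟨i, rfl⟩ := h
      exact Or.inr ⟨i, nhds_cell i isOpen_ball subset_rfl (mem_ball_self one_pos)⟩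
    · exact Or.inl (inter_mem_nhdsWithin _ ((isClosed_ctr n).isOpen_compl.mem_nhds h))
  · rintro i j _ ⟨z, hz, rfl⟩ ⟨z', hz', e⟩
    exact (cell_eq_of_chr_eq hz' hz e).1.symm

theorem Sk_diff_inter {n : ℕ} (i : Cell Z n) :
    (Sk Z (n + 1) \ ctr Z n) ∩ chr n i '' ball 0 1 = chr n i '' Pn n := by
  ext x
  constructor
  · rintro ⟨hx, z, hz, rfl⟩
    refine ⟨z, ⟨hz, ?_⟩, rfl⟩
    rintro rfl
    exact hx.2 ⟨i, rfl⟩
  · rintro ⟨z, hz, rfl⟩
    exact ⟨cwrad_chr_mem_diff i ⟨ball_subset_closedBall hz.1, hz.2⟩, z, hz.1, rfl⟩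

theorem retr_cell {n : ℕ} (i : Cell Z n) {O : Set (Fin n → ℝ)} (hO : O ⊆ ball 0 1) :
    Retr (chr n i '' O) O (chr n i) (chr n i).symm fun p => p.1 := by
  refine ⟨(continuousOn_chr_symm n i).mono (image_mono hO), ?_, continuousOn_fst,
    fun p hp => hp.1, fun _ _ => rfl, ?_⟩
  · rintro _ ⟨z, hz, rfl⟩
    rwa [chr_symm_chr n i (hO hz)]
  · rintro _ ⟨z, hz, rfl⟩
    rw [chr_symm_chr n i (hO hz)]

theorem retr_rad (n : ℕ) : Retr (Sk Z (n + 1) \ ctr Z n) (Sk Z n) id (fun z => rad n z 1)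
    fun p => rad n p.1 p.2 := by
  exact ⟨(continuousOn_rad n).comp (f := fun x : Z => (x, (1 : ℝ))) (by fun_prop)
      fun x hx => ⟨hx, right_mem_Icc.2 zero_le_one⟩, fun _ hz => rad_one_mem hz,
    continuousOn_rad n, fun p hp => rad_mem hp.1 hp.2, fun z _ => rad_zero n z, fun _ _ => rfl⟩

variable {G : Type} [Group G] {μ : PF (univ : Set Z) G} {M : Type} [AddCommGroup M]
  [DistribMulAction G M]

/-- The labels of the lift of a characteristic map that is `1` at `a`. -/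
noncomputable def clab (μ : PF (univ : Set Z) G) {n : ℕ} (i : Cell Z n) (a z : Fin n → ℝ) : G :=
  μ.val fun t => chr n i (seg a z t)

omit [T2Space Z] in
theorem gm_chr {n : ℕ} (i : Cell Z n) {a : Fin n → ℝ} (ha : a ∈ closedBall (0 : Fin n → ℝ) 1)
    {O : Set (Fin n → ℝ)} (hO : O ⊆ ball 0 1) :
    GM (triv (Fin n → ℝ) G) O μ (chr n i '' O) (chr n i) (clab μ i a) :=
  gm_convex (convex_closedBall 0 1) (continuousOn_chr n i) ha (hO.trans ball_subset_closedBall)
    (mapsTo_image _ _)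

theorem cobd_cell {n k : ℕ} (i : Cell Z n) {a : Fin n → ℝ} (ha : a ∈ closedBall (0 : Fin n → ℝ) 1)
    {O : Set (Fin n → ℝ)} (hO : O ⊆ ball 0 1) {φ : Co (Z × G) M (k + 1)} (hφ : Eqv φ)
    (hδ : Z0 μ (chr n i '' O) (cob φ))
    (h : Cobd (triv (Fin n → ℝ) G) O (pb (chr n i) (clab μ i a) φ)) : Cobd μ (chr n i '' O) φ :=
  cobd_of_retract (gm_chr i ha hO) (retr_cell i hO) hφ hδ h

theorem van_cell_of {n k : ℕ} (i : Cell Z n) {O : Set (Fin n → ℝ)} (hO : O ⊆ ball 0 1)
    (h : Van M (triv (Fin n → ℝ) G) O k) : Van M μ (chr n i '' O) k :=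
  van_of_retract (gm_chr i (mem_closedBall_self zero_le_one) hO) (retr_cell i hO) h

theorem van_cell {n : ℕ} (i : Cell Z n) (k : ℕ) : Van M μ (chr n i '' ball 0 1) k := by
  exact van_cell_of i subset_rfl (van_star (mem_ball_self one_pos) fun z hz s hs =>
    (convex_ball _ _).add_smul_sub_mem hz (mem_ball_self one_pos) hs)

/-- `H^(k+1)` of the `(n-1)`-skeleton `Sk Z n` vanishes for `k + 1 ≥ n`. -/
theorem van_Sk (n k : ℕ) (h : n ≤ k + 1) : Van M μ (Sk Z n) k := by
  induction n generalizing k with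
  | zero =>
    rw [Sk_zero]
    exact fun φ _ _ => (z0_empty φ).cobd
  | succ n ih =>
    have hA : Van M μ (Sk Z (n + 1) \ ctr Z n) k :=
      van_of_retract (i := id) (ci := fun _ => 1)
        ((gm_id (μ := μ) (S := univ)).mono (subset_univ _) fun z hz =>
          ⟨mem_Sk_succ.2 (Or.inl hz), h1_not_ctr hz⟩) (retr_rad n) (ih k (by omega))
    cases n with
    | zero =>
      refine mv_van_empty (cov_Sk 0) hA (fun i => van_cell i k) fun i => ?_
      rw [Sk_diff_inter, image_eq_empty]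
      exact eq_empty_of_forall_notMem fun z hz => hz.2 (Subsingleton.elim _ _)
    | succ n =>
      obtain ⟨k', rfl⟩ : ∃ k', k = k' + 1 := ⟨k - 1, by omega⟩
      refine mv_van (cov_Sk (n + 1)) hA (fun i => van_cell i _) fun i => ?_
      rw [Sk_diff_inter]
      exact van_cell_of i sdiff_subset (van_Pn n k' (by omega))

theorem van_Sk_diff (n k : ℕ) (h : n ≤ k + 1) : Van M μ (Sk Z (n + 1) \ ctr Z n) k :=
  van_of_retract (i := id) (ci := fun _ => 1)
    ((gm_id (μ := μ) (S := univ)).mono (subset_univ _) fun z hz =>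
      ⟨mem_Sk_succ.2 (Or.inl hz), h1_not_ctr hz⟩) (retr_rad n) (van_Sk n k h)

theorem van_univ {n k : ℕ} (h : ∀ m, n < m → IsEmpty (Cell Z m)) (hk : n ≤ k) :
    Van M μ univ k := by
  rw [← Sk_eq_univ (n := n + 1) fun m hm => h m hm]
  exact van_Sk _ _ (by omega)

theorem van_Sp (h : Dim2 Z) : Van M μ (Sp Z) 1 := by
  rw [h1_Sp_eq h]
  exact van_Sk_diff 2 1 le_rfl

theorem cov_Sp (h : Dim2 Z) : Cov univ (Sp Z) fun r : Cell Z 2 => chr 2 r '' ball 0 1 := by
  have := cov_Sk (Z := Z) 2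
  rwa [← h1_Sp_eq h, show Sk Z (2 + 1) = univ from Sk_three h] at this

theorem Sp_inter (h : Dim2 Z) (r : Cell Z 2) : Sp Z ∩ chr 2 r '' ball 0 1 = chr 2 r '' Punct := by
  rw [h1_Sp_eq h]
  exact Sk_diff_inter r

end Crest.Agent.R251
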