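import Crest.Agent.R251.Basic

/-! R251: formal chains of vertex tuples.

All identities between linear maps on `LC W n` are checked on `Finsupp.single v 1`
(`lc_ext`).  `bd_cone`: `Fin.sum_univ_succ`, `Fin.succAbove_zero`/`Fin.cons_succ` for the face `0`,
and `(Fin.cons a v) ∘ (i.succ).succAbove = Fin.cons a (v ∘ i.succAbove)` (`Fin.cons_succ`,
`Fin.succ_succAbove_zero`, `Fin.succ_succAbove_succ`, `Fin.cases`).  `bd_bd`: induction on `n`; write
`single v 1 = cone (v 0) (single (Fin.tail v) 1)`, so `bd (bd (cone a c)) = bd c - bd (cone a (bd c))`,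
which is `cone a (bd (bd c)) = 0` (or `bd c - bd c` when `bd c` has degree `0`).
`In C n = Finsupp.supported ..`: use `Finsupp.supported_eq_span_single` and `Submodule.span_le` /
`Submodule.span_induction` (`In_le`).
`bd_hty`: induction on `n`; for `x = D v - hty (bd v)` one has `bd x = 0` by the induction hypothesis
applied to `bd v` and `bd_bd` (for `n = 0`: `bd (D 1 v) = D 0 (bd v) = 0` and `hty D b 0 = 0`), so
`bd (cone b x) = x`.  `cob_cob`: `τ = sx (ext τ) (stdv _)` (`sx_ext_stdv`), so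
`cob (cob φ) τ = ev φ (ext τ) (bd (bd (single (stdv _) 1))) = 0`. -/

set_option autoImplicit false

namespace Crest.Agent.R251

open Set Metric Topology Crest.Agent.R197 Finsupp

variable {W W' : Type}

theorem lc_ext {n : ℕ} {N : Type} [AddCommGroup N] {f g : LC W n →ₗ[ℤ] N}
    (h : ∀ v, f (single v 1) = g (single v 1)) (c : LC W n) : f c = g c := by
  have : f = g := Finsupp.lhom_ext' fun b => LinearMap.ext_ring (by simpa using h b)
  rw [this]

theorem cone_single {n : ℕ} (a : W) (v : Fin n → W) :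
    cone a (single v 1) = single (Fin.cons a v : Fin (n + 1) → W) 1 := by
  simp [cone]

theorem lmap_single (f : W → W') {n : ℕ} (v : Fin n → W) :
    lmap f (single v 1) = single (fun j => f (v j)) 1 := by
  simp [lmap]

theorem bd_single {n : ℕ} (v : Fin (n + 1) → W) :
    bd (single v 1) =
      ∑ i : Fin (n + 1), (-1 : ℤ) ^ (i : ℕ) • single (fun j => v (i.succAbove j)) (1 : ℤ) := by
  simp [bd]

theorem hty_zero (D : ∀ n, LC W n →ₗ[ℤ] LC W' n) (b : ∀ n, (Fin (n + 1) → W) → W') :
    hty D b 0 = 0 := rfl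

theorem hty_single (D : ∀ n, LC W n →ₗ[ℤ] LC W' n) (b : ∀ n, (Fin (n + 1) → W) → W') {n : ℕ}
    (v : Fin (n + 1) → W) : hty D b (n + 1) (single v 1) =
      cone (b n v) (D (n + 1) (single v 1) - hty D b n (bd (single v 1))) := by
  rw [hty, linearCombination_single, one_smul]

theorem bd_cone_zero (a : W) (c : LC W 0) : bd (cone a c) = c := by
  refine lc_ext (f := bd ∘ₗ cone a) (g := LinearMap.id) (fun v => ?_) c
  rw [LinearMap.comp_apply, cone_single, bd_single, Fin.sum_univ_succ]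
  simp only [Finset.univ_eq_empty, Finset.sum_empty, add_zero, Fin.val_zero, pow_zero, one_smul,
    LinearMap.id_apply]
  congr 1

theorem bd_cone {n : ℕ} (a : W) (c : LC W (n + 1)) : bd (cone a c) = c - cone a (bd c) := by
  refine lc_ext (f := bd ∘ₗ cone a) (g := LinearMap.id - cone a ∘ₗ bd) (fun v => ?_) c
  rw [LinearMap.comp_apply, cone_single, bd_single, Fin.sum_univ_succ, LinearMap.sub_apply,
    LinearMap.id_apply, LinearMap.comp_apply, bd_single, map_sum, sub_eq_add_neg,
    ← Finset.sum_neg_distrib]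
  congr 1
  · simp
  · refine Finset.sum_congr rfl fun i _ => ?_
    rw [map_smul, cone_single, Fin.val_succ, pow_succ, mul_neg, mul_one, neg_smul]
    congr 3
    funext j
    refine Fin.cases ?_ (fun j => ?_) j
    · simp
    · simp

theorem bd_bd {n : ℕ} (c : LC W (n + 2)) : bd (bd c) = 0 := by
  induction n with
  | zero =>
    refine lc_ext (f := bd ∘ₗ bd) (g := 0) (fun v => ?_) c
    rw [← Fin.cons_self_tail v, ← cone_single, LinearMap.comp_apply, bd_cone, map_sub,
      bd_cone_zero, sub_self, LinearMap.zero_apply]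
  | succ n ih =>
    refine lc_ext (f := bd ∘ₗ bd) (g := 0) (fun v => ?_) c
    rw [← Fin.cons_self_tail v, ← cone_single, LinearMap.comp_apply, bd_cone, map_sub,
      bd_cone, ih, map_zero, sub_zero, sub_self, LinearMap.zero_apply]

theorem lmap_zero_deg (f : W → W') (g : W → W') (c : LC W 0) : lmap f c = lmap g c := by
  refine lc_ext (fun v => ?_) c
  rw [lmap_single, lmap_single]
  congr 1
  exact Subsingleton.elim _ _

theorem lmap_bd (f : W → W') {n : ℕ} (c : LC W (n + 1)) : lmap f (bd c) = bd (lmap f c) := by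
  refine lc_ext (f := lmap f ∘ₗ bd) (g := bd ∘ₗ lmap f) (fun v => ?_) c
  simp only [LinearMap.comp_apply, lmap_single, bd_single, map_sum, map_smul]

theorem lmap_cone (f : W → W') {n : ℕ} (a : W) (c : LC W n) :
    lmap f (cone a c) = cone (f a) (lmap f c) := by
  refine lc_ext (f := lmap f ∘ₗ cone a) (g := cone (f a) ∘ₗ lmap f) (fun v => ?_) c
  simp only [LinearMap.comp_apply, lmap_single, cone_single]
  congr 1
  funext j
  refine Fin.cases ?_ (fun j => ?_) j
  · simp
  · simp

theorem lmap_lmap {W'' : Type} (f : W → W') (g : W' → W'') {n : ℕ} (c : LC W n) :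
    lmap g (lmap f c) = lmap (fun w => g (f w)) c := by
  refine lc_ext (f := lmap g ∘ₗ lmap f) (g := lmap fun w => g (f w)) (fun v => ?_) c
  simp only [LinearMap.comp_apply, lmap_single]

theorem single_mem_In {C : Set W} {n : ℕ} {v : Fin n → W} (hv : ∀ i, v i ∈ C) :
    single v (1 : ℤ) ∈ In C n := by
  exact single_mem_supported ℤ 1 hv

/-- A linear map sends chains supported on `s` into `N` if it does so for the generators. -/
theorem supported_le {n : ℕ} {s : Set (Fin n → W)} {N : Type} [AddCommGroup N]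
    (f : LC W n →ₗ[ℤ] N) (Q : Submodule ℤ N) (h : ∀ v ∈ s, f (single v 1) ∈ Q) {c : LC W n}
    (hc : c ∈ supported ℤ ℤ s) : f c ∈ Q := by
  rw [supported_eq_span_single] at hc
  have : Submodule.span ℤ ((fun i => single i (1 : ℤ)) '' s) ≤ Q.comap f := by
    rw [Submodule.span_le]
    rintro _ ⟨v, hv, rfl⟩
    exact h v hv
  exact this hc

theorem In_le {C : Set W} {n : ℕ} {N : Type} [AddCommGroup N] (f : LC W n →ₗ[ℤ] N)
    (Q : Submodule ℤ N) (h : ∀ v : Fin n → W, (∀ i, v i ∈ C) → f (single v 1) ∈ Q) {c : LC W n}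
    (hc : c ∈ In C n) : f c ∈ Q := supported_le f Q h hc

theorem In_mono {C C' : Set W} (h : C ⊆ C') {n : ℕ} {c : LC W n} (hc : c ∈ In C n) :
    c ∈ In C' n := by
  exact In_le LinearMap.id (In C' n) (fun v hv => single_mem_In fun i => h (hv i)) hc

theorem mem_In_zero (C : Set W) (c : LC W 0) : c ∈ In C 0 := by
  exact fun v _ i => i.elim0

theorem bd_mem_In {C : Set W} {n : ℕ} {c : LC W (n + 1)} (hc : c ∈ In C (n + 1)) :
    bd c ∈ In C n := by
  refine In_le bd _ (fun v hv => ?_) hc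
  rw [bd_single]
  exact Submodule.sum_mem _ fun i _ => Submodule.smul_mem _ _ (single_mem_In fun j => hv _)

theorem cone_mem_In {C : Set W} {n : ℕ} {a : W} (ha : a ∈ C) {c : LC W n} (hc : c ∈ In C n) :
    cone a c ∈ In C (n + 1) := by
  refine In_le (cone a) _ (fun v hv => ?_) hc
  rw [cone_single]
  exact single_mem_In fun j => Fin.cases (by simpa using ha) (fun j => by simpa using hv j) j

theorem lmap_mem_In {C : Set W} {C' : Set W'} {f : W → W'} (hf : MapsTo f C C') {n : ℕ}
    {c : LC W n} (hc : c ∈ In C n) : lmap f c ∈ In C' n := by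
  refine In_le (lmap f) _ (fun v hv => ?_) hc
  rw [lmap_single]
  exact single_mem_In fun j => hf (hv j)

theorem bd_hty {D : ∀ n, LC W n →ₗ[ℤ] LC W' n} (b : ∀ n, (Fin (n + 1) → W) → W')
    (h0 : ∀ c, D 0 c = 0) (hD : ∀ n c, bd (D (n + 1) c) = D n (bd c)) (n : ℕ) (c : LC W (n + 1)) :
    bd (hty D b (n + 1) c) + hty D b n (bd c) = D (n + 1) c := by
  induction n with
  | zero =>
    refine lc_ext (f := bd ∘ₗ hty D b 1 + hty D b 0 ∘ₗ bd) (g := D 1) (fun v => ?_) c
    rw [LinearMap.add_apply, LinearMap.comp_apply, LinearMap.comp_apply, hty_single, bd_cone,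
      hty_zero, LinearMap.zero_apply, sub_zero, hD, h0, map_zero, sub_zero, add_zero]
  | succ n ih =>
    refine lc_ext (f := bd ∘ₗ hty D b (n + 2) + hty D b (n + 1) ∘ₗ bd) (g := D (n + 2))
      (fun v => ?_) c
    have h1 := ih (bd (single v 1))
    rw [bd_bd, map_zero, add_zero] at h1
    rw [LinearMap.add_apply, LinearMap.comp_apply, LinearMap.comp_apply, hty_single, bd_cone,
      map_sub bd, hD, h1, sub_self, map_zero, sub_zero, sub_add_cancel]

theorem hty_mem_In {D : ∀ n, LC W n →ₗ[ℤ] LC W' n} {b : ∀ n, (Fin (n + 1) → W) → W'} {C : Set W}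
    {C' : Set W'} (hD : ∀ n, ∀ c ∈ In C n, D n c ∈ In C' n)
    (hb : ∀ n v, (∀ i, v i ∈ C) → b n v ∈ C') (n : ℕ) {c : LC W n} (hc : c ∈ In C n) :
    hty D b n c ∈ In C' (n + 1) := by
  induction n with
  | zero => exact Submodule.zero_mem _
  | succ n ih =>
    refine In_le (hty D b (n + 1)) _ (fun v hv => ?_) hc
    rw [hty_single]
    exact cone_mem_In (hb n v hv) (Submodule.sub_mem _ (hD _ _ (single_mem_In hv))
      (ih (bd_mem_In (single_mem_In hv))))

theorem hty_nat {W₂ W₂' : Type} {D : ∀ n, LC W n →ₗ[ℤ] LC W' n}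
    {b : ∀ n, (Fin (n + 1) → W) → W'} {D₂ : ∀ n, LC W₂ n →ₗ[ℤ] LC W₂' n}
    {b₂ : ∀ n, (Fin (n + 1) → W₂) → W₂'} (f : W → W₂) (f' : W' → W₂')
    (hD : ∀ n c, lmap f' (D n c) = D₂ n (lmap f c))
    (hb : ∀ n v, f' (b n v) = b₂ n fun i => f (v i)) (n : ℕ) (c : LC W n) :
    lmap f' (hty D b n c) = hty D₂ b₂ n (lmap f c) := by
  induction n with
  | zero => rw [hty_zero, hty_zero, LinearMap.zero_apply, LinearMap.zero_apply, map_zero]
  | succ n ih =>
    refine lc_ext (f := lmap f' ∘ₗ hty D b (n + 1)) (g := hty D₂ b₂ (n + 1) ∘ₗ lmap f)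
      (fun v => ?_) c
    rw [LinearMap.comp_apply, LinearMap.comp_apply, hty_single, lmap_cone, map_sub, hD, ih,
      lmap_bd, lmap_single, hty_single, hb]

theorem bd_stdv (k : ℕ) : bd (single (stdv (k + 1)) (1 : ℤ)) =
    ∑ i : Fin (k + 2), (-1 : ℤ) ^ (i : ℕ) • lmap (fl i) (single (stdv k) 1) := by
  simp only [bd_single, lmap_single, fl_stdv]

section ev

variable [AddCommGroup W] [Module ℝ W] [AddCommGroup W'] [Module ℝ W'] {P M : Type}
  [AddCommGroup M] {k : ℕ}

theorem ev_single (φ : Co P M k) (K : W → P) (v : Fin (k + 1) → W) :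
    ev φ K (single v 1) = φ (sx K v) := by
  simp [ev]

theorem ev_sub (φ ψ : Co P M k) (K : W → P) (c : LC W (k + 1)) :
    ev (φ - ψ) K c = ev φ K c - ev ψ K c := by
  refine lc_ext (f := ev (φ - ψ) K) (g := ev φ K - ev ψ K) (fun v => ?_) c
  rw [LinearMap.sub_apply, ev_single, ev_single, ev_single, Pi.sub_apply]

theorem ev_bd (φ : Co P M k) (K : W → P) (c : LC W (k + 2)) :
    ev φ K (bd c) = ev (cob φ) K c := by
  refine lc_ext (f := ev φ K ∘ₗ bd) (g := ev (cob φ) K) (fun v => ?_) c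
  simp only [LinearMap.comp_apply, bd_single, map_sum, map_smul, ev_single, cob_sx]

/-- `f` is affine in the sense of `hf` (`cmb_linear`, `cmb_affine`, `cmb_prod`). -/
theorem ev_lmap (φ : Co P M k) (K : W' → P) {f : W → W'}
    (hf : ∀ (v : Fin (k + 1) → W) x, f (cmb v x) = cmb (fun i => f (v i)) x) (c : LC W (k + 1)) :
    ev φ K (lmap f c) = ev φ (fun w => K (f w)) c := by
  refine lc_ext (f := ev φ K ∘ₗ lmap f) (g := ev φ fun w => K (f w)) (fun v => ?_) c
  rw [LinearMap.comp_apply, lmap_single, ev_single, ev_single]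
  congr 1
  funext x
  simp only [sx, hf]

theorem ev_congr (φ : Co P M k) {C : Set W} (hC : Convex ℝ C) {K K' : W → P} (h : EqOn K K' C)
    {c : LC W (k + 1)} (hc : c ∈ In C (k + 1)) : ev φ K c = ev φ K' c := by
  have := In_le (ev φ K - ev φ K') ⊥ (fun v hv => by
    rw [LinearMap.sub_apply, ev_single, ev_single, sx_congr hC h hv, sub_self]
    exact Submodule.zero_mem _) hc
  rwa [Submodule.mem_bot, LinearMap.sub_apply, sub_eq_zero] at this

theorem ev_tl {Z G : Type} [Group G] [DistribMulAction G M] {φ : Co (Z × G) M k} (hφ : Eqv φ)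
    (g : G) (K : W → Z × G) (c : LC W (k + 1)) : ev φ (tl g K) c = g • ev φ K c := by
  refine lc_ext (f := ev φ (tl g K)) (g := DistribSMul.toLinearMap ℤ M g ∘ₗ ev φ K)
    (fun v => ?_) c
  rw [LinearMap.comp_apply, ev_single, ev_single]
  exact hφ g (sx K v)

end ev

theorem ev_eq_zero {W : Type} [NormedAddCommGroup W] [NormedSpace ℝ W] {Z G M : Type}
    [TopologicalSpace Z] [Group G] [AddCommGroup M] {μ : PF (univ : Set Z) G} {S : Set Z} {k : ℕ}
    {φ : Co (Z × G) M k} (hφ : Z0 μ S φ) {C : Set W} (hC : Convex ℝ C) {K : W → Z × G}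
    (hK : Lift μ S C K) {c : LC W (k + 1)} (hc : c ∈ In C (k + 1)) : ev φ K c = 0 := by
  exact (Submodule.mem_bot ℤ).1 (In_le (ev φ K) ⊥ (fun v hv => by
    rw [ev_single, hφ _ (hK.sx hC hv)]
    exact Submodule.zero_mem _) hc)

theorem cob_cob {P M : Type} [AddCommGroup M] {k : ℕ} (φ : Co P M k) : cob (cob φ) = 0 := by
  funext τ
  rw [← sx_ext_stdv τ, ← ev_single (cob (cob φ)), ← ev_bd, ← ev_bd, bd_bd, map_zero, Pi.zero_apply]

end Crest.Agent.R251
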