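import Crest.Agent.R251.Basic
import Crest.Prelude.Def_DeckCochains

/-! R251: the covering space defined by a path function with an atlas.

`Tot A = Z × G`; `sec A i e z = (z, e.2 * (f i e.1)⁻¹ * f i z)` is the local section through `e` over
`U i`.  A set `O` is open when for all `e ∈ O` and all charts `i` at `e.1` the section through `e` is
eventually in `O`.
`nhds_eq`: `𝓝 e = map (sec A i e) (𝓝 e.1)` for `e.1 ∈ U i`.  `≥` is the definition
(`mem_nhds_iff`).  `≤`: for an open `V ⊆ U i` the set `sec A i e '' V` is open: at `e' = sec A i e z'`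
and a chart `j ∋ z'`, eventually `f i z * (f j z)⁻¹ = f i z' * (f j z')⁻¹` (`compat`), which says
`sec A j e' z = sec A i e z`.
`isQuot`: `prj` is continuous and open (`nhds_eq`, `prj ∘ sec = id`), onto; `g • sec i e z = sec i (g • e) z`;
fibres are orbits; `sec A i e '' U i` is disjoint from its translates.
`lift_of_continuous`: on the space `Tot A` the path functions `cmp μ prj _` and
`(pfbTriv univ G).gauge (fun e => e.2)` agree on paths in `sec A i e '' U i` (`A.pot`), hence on all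
paths (`PF.ext_of_cover`).  `continuous_of_lift`: at `w₀` take a chart `i` at `(K w₀).1` and a path
connected neighbourhood `N ⊆ (fst ∘ K) ⁻¹' U i` (`LocallyPathConnectedSpace`,
`path_connected_basis`/`pathConnected_subset_basis`); for `w ∈ N` a path `γ` in `N` from `w₀` to `w`
(`JoinedIn`, `Path.extend`) gives `K w = sec A i (K w₀) (K w).1`; use `nhds_eq`.
`deck_surj`: if `d e₀ = g • e₀` then `d = g • ·` by `IsCoveringMap.eq_of_comp_eq`. -/

set_option autoImplicit false

namespace Crest.Agent.R251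

open Set Metric Topology Crest.Agent.R197 Crest.GeometryTopology.DeckCochains

variable {Z : Type} [TopologicalSpace Z] {G : Type} [Group G] {μ : PF (univ : Set Z) G}

/-- The total space. -/
def Tot (_A : Atlas μ) : Type := Z × G

variable (A : Atlas μ)

/-- The projection. -/
def prj (e : Tot A) : Z := e.1

/-- Local sections. -/
def sec (i : A.κ) (e : Tot A) (z : Z) : Tot A := (z, e.2 * (A.f i e.1)⁻¹ * A.f i z)

instance : TopologicalSpace (Tot A) where
  IsOpen O := ∀ e ∈ O, ∀ i, e.1 ∈ A.U i → ∀ᶠ z in 𝓝 e.1, sec A i e z ∈ O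
  isOpen_univ _ _ _ _ := Filter.Eventually.of_forall fun _ => mem_univ _
  isOpen_inter _ _ h h' e he i hi := (h e he.1 i hi).and (h' e he.2 i hi)
  isOpen_sUnion _ h e he i hi := by
    obtain ⟨O, hO, heO⟩ := he
    exact (h O hO e heO i hi).mono fun z hz => ⟨O, hO, hz⟩

instance : MulAction G (Tot A) where
  smul g e := (e.1, g * e.2)
  one_smul e := Prod.ext rfl (one_mul _)
  mul_smul g h e := Prod.ext rfl (mul_assoc _ _ _)

theorem smul_def (g : G) (e : Tot A) : g • e = ((e.1, g * e.2) : Z × G) := rfl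

theorem cover_isOpen_iff {O : Set (Tot A)} :
    IsOpen O ↔ ∀ e ∈ O, ∀ i, e.1 ∈ A.U i → ∀ᶠ z in 𝓝 e.1, sec A i e z ∈ O := Iff.rfl

theorem cover_sec_fst (i : A.κ) (e : Tot A) (z : Z) : (sec A i e z).1 = z := rfl

theorem cover_sec_snd (i : A.κ) (e : Tot A) (z : Z) :
    (sec A i e z).2 = e.2 * (A.f i e.1)⁻¹ * A.f i z := rfl

theorem cover_sec_self (i : A.κ) (e : Tot A) : sec A i e e.1 = e := by
  refine Prod.ext rfl ?_
  rw [cover_sec_snd]
  group

theorem cover_isOpen_sec {i : A.κ} (e : Tot A) {V : Set Z} (hV : IsOpen V) (hVU : V ⊆ A.U i) :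
    IsOpen (sec A i e '' V) := by
  rw [cover_isOpen_iff]
  rintro _ ⟨z', hz', rfl⟩ j hj
  have hj' : z' ∈ A.U j := hj
  have h1 := A.compat i j z' ⟨hVU hz', hj'⟩
  show ∀ᶠ z in 𝓝 z', _
  filter_upwards [h1, hV.mem_nhds hz'] with z hz hzV
  refine ⟨z, hzV, Prod.ext rfl ?_⟩
  rw [cover_sec_snd, cover_sec_snd, cover_sec_snd, cover_sec_fst]
  have h2 : A.f i z = A.f i z' * (A.f j z')⁻¹ * A.f j z := by rw [← hz]; group
  rw [h2]
  group

theorem nhds_eq {i : A.κ} {e : Tot A} (h : e.1 ∈ A.U i) : 𝓝 e = Filter.map (sec A i e) (𝓝 e.1) := by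
  apply le_antisymm
  · intro s hs
    rw [Filter.mem_map] at hs
    obtain ⟨V, hVs, hV, heV⟩ := mem_nhds_iff.1 (Filter.inter_mem hs ((A.isOpen i).mem_nhds h))
    refine mem_nhds_iff.2 ⟨sec A i e '' V, ?_, cover_isOpen_sec A e hV fun z hz => (hVs hz).2,
      e.1, heV, cover_sec_self A i e⟩
    rintro _ ⟨z, hz, rfl⟩
    exact (hVs hz).1
  · intro s hs
    obtain ⟨O, hOs, hO, heO⟩ := mem_nhds_iff.1 hs
    rw [Filter.mem_map]
    exact ((cover_isOpen_iff A).1 hO e heO i h).mono fun z hz => hOs hz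

theorem cover_map_prj (e : Tot A) : Filter.map (prj A) (𝓝 e) = 𝓝 (prj A e) := by
  obtain ⟨i, hi⟩ := A.cover e.1
  rw [nhds_eq A hi, Filter.map_map]
  exact Filter.map_id

theorem cover_continuous_prj : Continuous (prj A) :=
  continuous_iff_continuousAt.2 fun e => (cover_map_prj A e).le

theorem cover_isOpenMap_prj : IsOpenMap (prj A) :=
  isOpenMap_iff_nhds_le.2 fun e => (cover_map_prj A e).ge

theorem cover_smul_sec (g : G) (i : A.κ) (e : Tot A) (z : Z) :
    g • sec A i e z = sec A i (g • e) z := by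
  refine Prod.ext rfl ?_
  show g * (e.2 * (A.f i e.1)⁻¹ * A.f i z) = g * e.2 * (A.f i e.1)⁻¹ * A.f i z
  group

theorem isQuot : IsQuotientCoveringMap (prj A) G where
  toIsQuotientMap := (cover_isOpenMap_prj A).isQuotientMap (cover_continuous_prj A)
    fun z => ⟨(z, 1), rfl⟩
  continuous_const_smul g := by
    refine continuous_iff_continuousAt.2 fun e => ?_
    obtain ⟨i, hi⟩ := A.cover e.1
    have hi' : (g • e).1 ∈ A.U i := hi
    show Filter.map _ (𝓝 e) ≤ 𝓝 (g • e)
    rw [nhds_eq A hi, nhds_eq A hi', Filter.map_map]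
    refine le_of_eq ?_
    congr 1
    funext z
    exact cover_smul_sec A g i e z
  apply_eq_iff_mem_orbit {e₁ e₂} := by
    constructor
    · intro h
      refine ⟨e₁.2 * e₂.2⁻¹, Prod.ext (Eq.symm h) ?_⟩
      show e₁.2 * e₂.2⁻¹ * e₂.2 = e₁.2
      group
    · rintro ⟨g, rfl⟩
      rfl
  disjoint e := by
    obtain ⟨i, hi⟩ := A.cover e.1
    refine ⟨sec A i e '' A.U i, (cover_isOpen_sec A e (A.isOpen i) Subset.rfl).mem_nhds
      ⟨e.1, hi, cover_sec_self A i e⟩, ?_⟩
    rintro g ⟨_, ⟨_, ⟨z, -, rfl⟩, rfl⟩, z', -, h⟩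
    have h1 : z' = z := congrArg Prod.fst h
    subst h1
    have h2 : e.2 * (A.f i e.1)⁻¹ * A.f i z' = g * (e.2 * (A.f i e.1)⁻¹ * A.f i z') :=
      congrArg Prod.snd h
    exact (mul_eq_right.1 h2.symm)

theorem isCoveringMap_prj : IsCoveringMap (prj A) := (isQuot A).isCoveringMap

theorem surjective_prj : Function.Surjective (prj A) := fun z => ⟨(z, 1), rfl⟩

instance : ContinuousConstSMul G (Tot A) := (isQuot A).toContinuousConstSMul

theorem lift_of_continuousOn {W : Type} [TopologicalSpace W] {C : Set W} {K : W → Tot A}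
    (h : ContinuousOn K C) : Lift μ univ C (K : W → Z × G) := by
  refine ⟨(cover_continuous_prj A).comp_continuousOn h, mapsTo_univ _ _, fun γ hγ => ?_⟩
  have hp : IsPath (univ : Set (Tot A)) fun t => K (γ t) := hγ.comp h (mapsTo_univ _ _)
  have key := PF.ext_of_cover (cmp μ (prj A) (cover_continuous_prj A))
    ((pfbTriv (univ : Set (Tot A)) G).gauge fun e => e.2)
    (κ := {p : A.κ × Tot A // p.2.1 ∈ A.U p.1}) (fun p => sec A p.1.1 p.1.2 '' A.U p.1.1) ?_ ?_ hp
  · simpa [pfbTriv, prj] using key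
  · intro e _
    obtain ⟨i, hi⟩ := A.cover e.1
    exact ⟨⟨(i, e), hi⟩, mem_nhdsWithin_of_mem_nhds
      ((cover_isOpen_sec A e (A.isOpen i) Subset.rfl).mem_nhds ⟨e.1, hi, cover_sec_self A i e⟩)⟩
  · rintro ⟨⟨i, e⟩, hi⟩ δ hδ
    have hm : MapsTo (prj A) (univ ∩ sec A i e '' A.U i) (A.U i) := by
      rintro _ ⟨-, z, hz, rfl⟩
      exact hz
    have h1 := A.pot i _ (hδ.comp (cover_continuous_prj A).continuousOn hm)
    have h2 : ∀ x ∈ univ ∩ sec A i e '' A.U i,
        x.2 = e.2 * (A.f i e.1)⁻¹ * A.f i (prj A x) := by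
      rintro _ ⟨-, z, -, rfl⟩
      rfl
    rw [cmp_val, h1, PF.gauge_val, h2 _ hδ.zero_mem, h2 _ hδ.one_mem]
    show _ = _ * (1 : G) * _
    group

theorem continuous_of_lift {W : Type} [TopologicalSpace W] [LocallyPathConnectedSpace W]
    {K : W → Tot A} (h : Lift μ univ univ (K : W → Z × G)) : Continuous K := by
  refine continuous_iff_continuousAt.2 fun w₀ => ?_
  obtain ⟨i, hi⟩ := A.cover (K w₀).1
  have hc : Continuous fun w => (K w).1 := continuousOn_univ.1 h.cont
  have hN : (fun w => (K w).1) ⁻¹' A.U i ∈ 𝓝 w₀ :=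
    hc.continuousAt.preimage_mem_nhds ((A.isOpen i).mem_nhds hi)
  obtain ⟨N, ⟨hN1, hN2⟩, hNs⟩ := (path_connected_basis w₀).mem_iff.1 hN
  have key : ∀ w ∈ N, K w = sec A i (K w₀) (K w).1 := by
    intro w hw
    obtain ⟨p, hp⟩ := hN2.joinedIn w₀ (mem_of_mem_nhds hN1) w hw
    have hγ : IsPath N p.extend := ⟨p.continuous_extend.continuousOn, fun t ht => by
      rw [p.extend_apply ht]; exact hp _⟩
    have h1 := h.val _ (hγ.mono (subset_univ _))
    have h2 := A.pot i _ (hγ.comp hc.continuousOn hNs)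
    rw [h1] at h2
    simp only [Path.extend_zero, Path.extend_one] at h2
    refine Prod.ext rfl ?_
    rw [cover_sec_snd, mul_assoc, ← h2]
    group
  show Filter.map K (𝓝 w₀) ≤ 𝓝 (K w₀)
  rw [nhds_eq A hi]
  have e1 : K =ᶠ[𝓝 w₀] fun w => sec A i (K w₀) (K w).1 := Filter.mem_of_superset hN1 key
  rw [Filter.map_congr e1]
  exact (Filter.map_map (m := fun w => (K w).1) (m' := sec A i (K w₀))).symm.le.trans
    (Filter.map_mono hc.continuousAt)

theorem continuous_iff_good {k : ℕ} (τ : Δ k → Tot A) :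
    Continuous τ ↔ Good μ univ (τ : Δ k → Z × G) := by
  have := (convex_stdSimplex ℝ (Fin (k + 1))).locallyPathConnectedSpace
  exact ⟨fun h => lift_of_continuousOn A h.continuousOn, continuous_of_lift A⟩

/-- The group acts by deck transformations. -/
def toDeck : G →* deckGroup (prj A) where
  toFun g := ⟨Homeomorph.smul g, fun _ => rfl⟩
  map_one' := Subtype.ext (Homeomorph.ext fun e => one_smul G e)
  map_mul' g h := Subtype.ext (Homeomorph.ext fun e => mul_smul g h e)

theorem toDeck_apply (g : G) (e : Tot A) : (toDeck A g : Tot A ≃ₜ Tot A) e = g • e := rfl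

theorem toDeck_injective [Nonempty Z] : Function.Injective (toDeck A) := by
  intro g g' h
  obtain ⟨z⟩ := ‹Nonempty Z›
  have h1 : g • (show Tot A from (z, 1)) = g' • (show Tot A from (z, 1)) := by
    rw [← toDeck_apply, ← toDeck_apply, h]
  have h2 : g * 1 = g' * 1 := congrArg Prod.snd h1
  simpa using h2

theorem toDeck_surjective [ConnectedSpace (Tot A)] : Function.Surjective (toDeck A) := by
  rintro ⟨d, hd⟩
  obtain ⟨e₀⟩ : Nonempty (Tot A) := inferInstance
  obtain ⟨g, hg⟩ := (isQuot A).apply_eq_iff_mem_orbit.1 (hd e₀)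
  refine ⟨g, Subtype.ext (Homeomorph.ext fun e => ?_)⟩
  have := (isCoveringMap_prj A).eq_of_comp_eq (g₁ := fun e : Tot A => g • e) (g₂ := d)
    (continuous_const_smul g) d.continuous (funext fun e => (hd e).symm) e₀ hg
  exact congrFun this e

end Crest.Agent.R251
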