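import Crest.Agent.R197.CWDefs
import Crest.Agent.R197.PFBasic

/-! R251 (S0388, Wall's D(2) problem): definitions.

Cohomology with local coefficients is computed on *labelled* simplices.  `μ : PF univ G` is a
`G`-valued path function on the space `Z` (see `R197/PFDefs`); a map `K : W → Z × G` is a `Lift` on
`C` when its first component is continuous and the label (second component) is a potential of `μ`
along it (this says that `K` is continuous into the covering space `Z × G` defined by `μ`, but no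
topology on `Z × G` is used).  A cochain is a function on *all* maps `Δ k → Z × G`; only its values
on `Good` simplices matter. -/

set_option autoImplicit false

namespace Crest.Agent.R251

open Set Metric Topology Crest.Agent.R197

/-- The standard simplex. -/
abbrev Δ (k : ℕ) : Type := stdSimplex ℝ (Fin (k + 1))

/-- The `i`-th face inclusion. -/
noncomputable def face {k : ℕ} (i : Fin (k + 2)) : Δ k → Δ (k + 1) := stdSimplex.map i.succAbove

/-- The vertex `0` of the standard simplex. -/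
noncomputable def v0 (k : ℕ) : Δ k := stdSimplex.vertex 0

/-- Cochains. -/
abbrev Co (P M : Type) (k : ℕ) : Type := (Δ k → P) → M

/-- The coboundary. -/
noncomputable def cob {P M : Type} [AddCommGroup M] {k : ℕ} (φ : Co P M k) : Co P M (k + 1) :=
  fun τ => ∑ i : Fin (k + 2), (-1 : ℤ) ^ (i : ℕ) • φ fun x => τ (face i x)

section lifts

variable {Z : Type} [TopologicalSpace Z] {G : Type} [Group G]

/-- `K` is a labelled map on `C` with values over `S`. -/
structure Lift (μ : PF (univ : Set Z) G) (S : Set Z) {W : Type} [TopologicalSpace W] (C : Set W)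
    (K : W → Z × G) : Prop where
  cont : ContinuousOn (fun w => (K w).1) C
  maps : MapsTo (fun w => (K w).1) C S
  val : ∀ γ : ℝ → W, IsPath C γ →
    μ.val (fun t => (K (γ t)).1) = (K (γ 0)).2⁻¹ * (K (γ 1)).2

/-- Admissible simplices over `S`. -/
abbrev Good (μ : PF (univ : Set Z) G) (S : Set Z) {k : ℕ} (τ : Δ k → Z × G) : Prop :=
  Lift μ S univ τ

/-- Translation of labels. -/
def tl {W Z G : Type} [Group G] (g : G) (K : W → Z × G) : W → Z × G :=
  fun w => ((K w).1, g * (K w).2)

/-- The lift of `F` (on a convex set containing `a`) with label `g` at `a`. -/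
noncomputable def lft (μ : PF (univ : Set Z) G) {W : Type} [AddCommGroup W] [Module ℝ W]
    (F : W → Z) (a : W) (g : G) : W → Z × G :=
  fun z => (F z, g * μ.val fun t => F (seg a z t))

variable {M : Type} [AddCommGroup M] [DistribMulAction G M]

/-- Equivariant cochains. -/
def Eqv {Z : Type} {k : ℕ} (φ : Co (Z × G) M k) : Prop := ∀ (g : G) τ, φ (tl g τ) = g • φ τ

omit [DistribMulAction G M] in
/-- `φ` vanishes on the admissible simplices over `S`. -/
def Z0 (μ : PF (univ : Set Z) G) (S : Set Z) {k : ℕ} (φ : Co (Z × G) M k) : Prop :=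
  ∀ τ, Good μ S τ → φ τ = 0

/-- `φ` is an equivariant coboundary over `S`. -/
def Cobd (μ : PF (univ : Set Z) G) (S : Set Z) {k : ℕ} (φ : Co (Z × G) M (k + 1)) : Prop :=
  ∃ β : Co (Z × G) M k, Eqv β ∧ Z0 μ S (φ - cob β)

variable (M) in
/-- `H^(k+1)(S; M) = 0`. -/
def Van (μ : PF (univ : Set Z) G) (S : Set Z) (k : ℕ) : Prop :=
  ∀ φ : Co (Z × G) M (k + 1), Eqv φ → Z0 μ S (cob φ) → Cobd μ S φ

/-- `(z, g) ↦ (f z, g * c z)` is an equivariant map of the coverings over `S'` and `S`. -/
structure GM {Z' : Type} [TopologicalSpace Z'] (μ' : PF (univ : Set Z') G) (S' : Set Z')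
    (μ : PF (univ : Set Z) G) (S : Set Z) (f : Z' → Z) (c : Z' → G) : Prop where
  cont : ContinuousOn f S'
  maps : MapsTo f S' S
  val : ∀ γ : ℝ → Z', IsPath S' γ →
    μ.val (fun t => f (γ t)) = (c (γ 0))⁻¹ * μ'.val γ * c (γ 1)

/-- The map `(z, g) ↦ (f z, g * c z)`. -/
def gm {Z Z' G : Type} [Group G] (f : Z' → Z) (c : Z' → G) (p : Z' × G) : Z × G :=
  (f p.1, p.2 * c p.1)

/-- Pull-back of cochains. -/
def pb {Z Z' G M : Type} [Group G] (f : Z' → Z) (c : Z' → G) {k : ℕ} (φ : Co (Z × G) M k) :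
    Co (Z' × G) M k := fun τ => φ fun x => gm f c (τ x)

/-- The trivial path function. -/
abbrev triv (Z : Type) [TopologicalSpace Z] (G : Type) [Group G] : PF (univ : Set Z) G :=
  pfbTriv univ G

/-- Pull-back of a path function along a continuous map. -/
def cmp {Z' : Type} [TopologicalSpace Z'] (μ : PF (univ : Set Z) G) (f : Z' → Z)
    (hf : Continuous f) : PF (univ : Set Z') G :=
  μ.comap univ f hf.continuousOn (mapsTo_univ _ _)

/-- An atlas of local potentials. -/
structure Atlas (μ : PF (univ : Set Z) G) where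
  κ : Type
  U : κ → Set Z
  f : κ → Z → G
  isOpen : ∀ i, IsOpen (U i)
  cover : ∀ z, ∃ i, z ∈ U i
  compat : ∀ i j, ∀ y ∈ U i ∩ U j, ∀ᶠ y' in 𝓝 y, f i y' * (f j y')⁻¹ = f i y * (f j y)⁻¹
  pot : ∀ i, μ.Pot (U i) (f i)

end lifts

section affine

variable {W : Type} [AddCommGroup W] [Module ℝ W] {P M : Type}

/-- The affine simplex with vertices `v`. -/
noncomputable def cmb {k : ℕ} (v : Fin (k + 1) → W) (x : Δ k) : W := ∑ i, x.1 i • v i

/-- The image under `K` of the affine simplex with vertices `v`. -/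
noncomputable def sx (K : W → P) {k : ℕ} (v : Fin (k + 1) → W) : Δ k → P := fun x => K (cmb v x)

/-- Value on a segment. -/
noncomputable def sgm (β : Co P M 1) (K : W → P) (a b : W) : M := β (sx K ![a, b])

/-- Value on a triangle. -/
noncomputable def tri (θ : Co P M 2) (K : W → P) (a b c : W) : M := θ (sx K ![a, b, c])

end affine

section chains

variable {W W' : Type}

/-- Formal chains of ordered `n`-tuples of vertices (augmented: `n = 0` is allowed). -/
abbrev LC (W : Type) (n : ℕ) : Type := (Fin n → W) →₀ ℤ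

/-- The cone with apex `a`. -/
noncomputable def cone {n : ℕ} (a : W) : LC W n →ₗ[ℤ] LC W (n + 1) :=
  Finsupp.lmapDomain ℤ ℤ fun v => Fin.cons a v

/-- The boundary. -/
noncomputable def bd {n : ℕ} : LC W (n + 1) →ₗ[ℤ] LC W n :=
  Finsupp.linearCombination ℤ fun v =>
    ∑ i : Fin (n + 1), (-1 : ℤ) ^ (i : ℕ) • Finsupp.single (fun j => v (i.succAbove j)) 1

/-- The chain map of a map of vertices. -/
noncomputable def lmap (f : W → W') {n : ℕ} : LC W n →ₗ[ℤ] LC W' n :=
  Finsupp.lmapDomain ℤ ℤ fun v j => f (v j)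

/-- Chains all of whose vertices lie in `C`. -/
def In (C : Set W) (n : ℕ) : Submodule ℤ (LC W n) := Finsupp.supported ℤ ℤ {v | ∀ i, v i ∈ C}

/-- The chain homotopy from a chain map `D` (zero in degree `0`) to `0`, by cones. -/
noncomputable def hty (D : ∀ n, LC W n →ₗ[ℤ] LC W' n) (b : ∀ n, (Fin (n + 1) → W) → W') :
    ∀ n, LC W n →ₗ[ℤ] LC W' (n + 1)
  | 0 => 0
  | n + 1 => Finsupp.linearCombination ℤ fun v =>
      cone (b n v) (D (n + 1) (Finsupp.single v 1) - hty D b n (bd (Finsupp.single v 1)))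

/-- The prism operator. -/
noncomputable def Pr (n : ℕ) : LC W n →ₗ[ℤ] LC (W × ℝ) (n + 1) :=
  hty (fun _ => lmap (fun w => (w, (1 : ℝ))) - lmap fun w => (w, (0 : ℝ)))
    (fun _ v => (v 0, 0)) n

variable [AddCommGroup W] [Module ℝ W]

/-- Evaluation of a cochain on the image under `K` of a chain of affine simplices. -/
noncomputable def ev {P M : Type} [AddCommGroup M] {k : ℕ} (φ : Co P M k) (K : W → P) :
    LC W (k + 1) →ₗ[ℤ] M :=
  Finsupp.linearCombination ℤ fun v => φ (sx K v)

/-- The barycentre. -/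
noncomputable def bary {n : ℕ} (v : Fin (n + 1) → W) : W := ∑ i, ((n : ℝ) + 1)⁻¹ • v i

/-- Barycentric subdivision. -/
noncomputable def Sd : ∀ n, LC W n →ₗ[ℤ] LC W n
  | 0 => LinearMap.id
  | n + 1 => Finsupp.linearCombination ℤ fun v =>
      cone (bary v) (Sd n (bd (Finsupp.single v 1)))

/-- The chain homotopy from the identity to `Sd`. -/
noncomputable def TT (n : ℕ) : LC W n →ₗ[ℤ] LC W (n + 1) :=
  hty (fun n => LinearMap.id - Sd n) (fun _ => bary) n

/-- The vertices of the standard simplex. -/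
def stdv (k : ℕ) : Fin (k + 1) → Fin (k + 1) → ℝ := fun i => Pi.single i 1

/-- The face inclusion as a linear map. -/
noncomputable def fl {k : ℕ} (i : Fin (k + 2)) : (Fin (k + 1) → ℝ) →ₗ[ℝ] (Fin (k + 2) → ℝ) :=
  FunOnFinite.linearMap ℝ ℝ i.succAbove

open Classical in
/-- Extension of a simplex to the ambient vector space (by a junk value). -/
noncomputable def ext {P : Type} {k : ℕ} (τ : Δ k → P) : (Fin (k + 1) → ℝ) → P :=
  fun y => if h : y ∈ stdSimplex ℝ (Fin (k + 1)) then τ ⟨y, h⟩ else τ (v0 k)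

end chains

section semidirect

/-- The semidirect product `M ⋊ G`. -/
@[ext] structure SD (G M : Type) where
  m : M
  g : G

namespace SD

variable {G M : Type} [Group G] [AddCommGroup M] [DistribMulAction G M]

instance : Mul (SD G M) := ⟨fun a b => ⟨a.m + a.g • b.m, a.g * b.g⟩⟩
instance : One (SD G M) := ⟨⟨0, 1⟩⟩
instance : Inv (SD G M) := ⟨fun a => ⟨-(a.g⁻¹ • a.m), a.g⁻¹⟩⟩

@[simp] theorem mul_m (a b : SD G M) : (a * b).m = a.m + a.g • b.m := rfl
@[simp] theorem mul_g (a b : SD G M) : (a * b).g = a.g * b.g := rfl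
@[simp] theorem one_m : (1 : SD G M).m = 0 := rfl
@[simp] theorem one_g : (1 : SD G M).g = 1 := rfl
@[simp] theorem inv_m (a : SD G M) : a⁻¹.m = -(a.g⁻¹ • a.m) := rfl
@[simp] theorem inv_g (a : SD G M) : a⁻¹.g = a.g⁻¹ := rfl

instance : Group (SD G M) where
  mul_assoc a b c := by ext <;> simp [mul_smul, add_assoc, mul_assoc]
  one_mul a := by ext <;> simp
  mul_one a := by ext <;> simp
  inv_mul_cancel a := by ext <;> simp

/-- The projection to `G`. -/
def proj : SD G M →* G where
  toFun a := a.g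
  map_one' := rfl
  map_mul' _ _ := rfl

@[simp] theorem proj_apply (a : SD G M) : proj a = a.g := rfl

end SD

/-- The parametrisation of the standard `1`-simplex. -/
noncomputable def par (t : ℝ) : Δ 1 :=
  ⟨![1 - projIcc (0 : ℝ) 1 zero_le_one t, projIcc (0 : ℝ) 1 zero_le_one t], by
    constructor
    · intro i
      have h := (projIcc (0 : ℝ) 1 zero_le_one t).2
      fin_cases i
      · simpa using h.2
      · simpa using h.1
    · simp⟩

/-- The `1`-cochain `β` is given over `S` by the path function `ω` with values in `M ⋊ G`. -/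
structure Rel1 {Z G M : Type} [TopologicalSpace Z] [Group G] [AddCommGroup M]
    [DistribMulAction G M] (μ : PF (univ : Set Z) G) (S : Set Z) (β : Co (Z × G) M 1)
    (ω : PF S (SD G M)) : Prop where
  g : ∀ γ, IsPath S γ → (ω.val γ).g = μ.val γ
  m : ∀ τ, Good μ S τ → β τ = (τ (v0 1)).2 • (ω.val fun t => (τ (par t)).1).m

end semidirect

section periods

variable {Z : Type} [TopologicalSpace Z] {G : Type} [Group G] {P M : Type} [AddCommGroup M]

/-- The punctured open cube (`Pn 2` is `Punct`). -/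
def Pn (n : ℕ) : Set (Fin n → ℝ) := ball 0 1 \ {0}

/-- The plane `z 0 = 0`. -/
def up (z : Fin 2 → ℝ) : Fin 3 → ℝ := Fin.cons 0 z

/-- The two apexes of the bipyramid. -/
noncomputable def ep : Fin 3 → ℝ := ![1 / 2, 0, 0]
noncomputable def em : Fin 3 → ℝ := ![-1 / 2, 0, 0]

/-- The value on the cone with apex `e` over the square `d0 d1 d2 d3`. -/
noncomputable def pyr (ξ : Co P M 2) (K : (Fin 3 → ℝ) → P) (e : Fin 3 → ℝ) : M :=
  tri ξ K e (up d0) (up d1) + tri ξ K e (up d1) (up d2) + tri ξ K e (up d2) (up d3) +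
    tri ξ K e (up d3) (up d0)

/-- The value on the bipyramid, a cycle generating `H₂` of the punctured cube. -/
noncomputable def oct (ξ : Co P M 2) (K : (Fin 3 → ℝ) → P) : M := pyr ξ K ep - pyr ξ K em

/-- The period of a `2`-cochain on a map `K` of the unit square (label `g` at `(0,0)`). -/
noncomputable def per (μ : PF (univ : Set Z) G) (θ : Co (Z × G) M 2) (K : ℝ × ℝ → Z) (g : G) : M :=
  tri θ (lft μ K (0, 0) g) (0, 0) (1, 0) (1, 1) - tri θ (lft μ K (0, 0) g) (0, 0) (0, 1) (1, 1)

/-- `K` is a homotopy with fixed end points `x₀` from `p` (bottom) to `q` (top). -/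
structure Sqr (x₀ : Z) (p q : ℝ → Z) (K : ℝ × ℝ → Z) : Prop where
  cont : ContinuousOn K Sq
  bot : ∀ s ∈ Icc (0 : ℝ) 1, K (s, 0) = p s
  top : ∀ s ∈ Icc (0 : ℝ) 1, K (s, 1) = q s
  left : ∀ t ∈ Icc (0 : ℝ) 1, K (0, t) = x₀
  right : ∀ t ∈ Icc (0 : ℝ) 1, K (1, t) = x₀

/-- `p` is a loop at `x₀` in `S`. -/
structure Loop (S : Set Z) (x₀ : Z) (p : ℝ → Z) : Prop where
  path : IsPath S p
  zero : p 0 = x₀
  one : p 1 = x₀

open Classical in
/-- Concatenation of paths. -/
noncomputable def cat {Z : Type} (p q : ℝ → Z) (s : ℝ) : Z :=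
  if s ≤ 1 / 2 then p (2 * s) else q (2 * s - 1)

variable [DistribMulAction G M]

/-- Equivariant `2`-cocycles on `Z` that vanish over `S`. -/
structure Rel (μ : PF (univ : Set Z) G) (S : Set Z) (θ : Co (Z × G) M 2) : Prop where
  eqv : Eqv θ
  coc : Z0 μ univ (cob θ)
  zero : Z0 μ S θ

variable [CWComplex (univ : Set Z)]

/-- The value of a `2`-cochain on the small square in the `2`-cell `r`. -/
noncomputable def val (μ : PF (univ : Set Z) G) (θ : Co (Z × G) M 2) (r : Cell Z 2) : M :=
  tri θ (lft μ (chr 2 r) d0 1) d0 d1 d2 + tri θ (lft μ (chr 2 r) d0 1) d0 d2 d3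

/-- The characteristic map of a `2`-cell on the unit square. -/
noncomputable def cq (r : Cell Z 2) (p : ℝ × ℝ) : Z := chr 2 r ![2 * p.1 - 1, 2 * p.2 - 1]

/-- The value of a `2`-cochain on the closed `2`-cell `r`. -/
noncomputable def vq (μ : PF (univ : Set Z) G) (θ : Co (Z × G) M 2) (r : Cell Z 2) : M :=
  per μ θ (cq r) 1

end periods

section model

/-- The relator `[x³, t x² t⁻¹]`. -/
def wc {H : Type} [Group H] (x t : H) : H :=
  x ^ 3 * (t * x ^ 2 * t⁻¹) * (x ^ 3)⁻¹ * (t * x ^ 2 * t⁻¹)⁻¹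

/-- The presentation complex of `⟨x, t | x⁶, [x³, t x² t⁻¹]⟩`. -/
structure M2 (Z : Type) [TopologicalSpace Z] [CWComplex (univ : Set Z)] where
  dim : Dim2 Z
  x₀ : Z
  sk : Sk Z 1 = {x₀}
  ex : Cell Z 1
  et : Cell Z 1
  ene : ex ≠ et
  eall : ∀ e, e = ex ∨ e = et
  rX : Cell Z 2
  rc : Cell Z 2
  rne : rX ≠ rc
  rall : ∀ r, r = rX ∨ r = rc
  sqr : ∀ r, Sqr x₀ (fun s => cq r (s, 0)) (fun _ => x₀) (cq r)
  botX : ∀ (H : Type) [Group H] (ω : PF (Sp Z) H),
    ω.val (fun s => cq rX (s, 0)) = ω.val (ed ex) ^ 6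
  botc : ∀ (H : Type) [Group H] (ω : PF (Sp Z) H),
    ω.val (fun s => cq rc (s, 0)) = wc (ω.val (ed ex)) (ω.val (ed et))

open Classical in
/-- The attaching map of the `3`-cell defined by a homotopy `K` from the constant loop to itself. -/
noncomputable def sph {Z : Type} (x₀ : Z) (K : ℝ × ℝ → Z) (z : Fin 3 → ℝ) : Z :=
  if 0 ≤ z 0 then
    K (1 / 2 + z 1 / (2 * (z 0 + max |z 1| |z 2|)), 1 / 2 + z 2 / (2 * (z 0 + max |z 1| |z 2|)))
  else x₀

/-- `X` is obtained from `Z` by attaching one `3`-cell along `a`. -/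
structure M3 (Z X : Type) [TopologicalSpace Z] [TopologicalSpace X] [CWComplex (univ : Set X)]
    (a : (Fin 3 → ℝ) → Z) where
  j : Z → X
  cont : Continuous j
  emb : IsEmbedding j
  range : range j = Sk X 3
  top : ∀ m, 3 < m → IsEmpty (Cell X m)
  r3 : Cell X 3
  all : ∀ r, r = r3
  att : ∀ z ∈ sphere (0 : Fin 3 → ℝ) 1, chr 3 r3 z = j (a z)

/-- The action of the group ring through a homomorphism `m`. -/
noncomputable def act {G₀ H : Type} [Group G₀] [Group H] (m : G₀ →* H) (M : Type) [AddCommGroup M]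
    [DistribMulAction H M] : MonoidAlgebra ℤ G₀ →+* Module.End ℤ M :=
  (MonoidAlgebra.lift ℤ (Module.End ℤ M) G₀
    ((DistribMulAction.toModuleEnd ℤ M).comp m)).toRingHom

@[simp] theorem act_of {G₀ H : Type} [Group G₀] [Group H] (m : G₀ →* H) (M : Type)
    [AddCommGroup M] [DistribMulAction H M] (g : G₀) (a : M) :
    act m M (MonoidAlgebra.of ℤ G₀ g) a = m g • a := by
  simp [act]

end model

end Crest.Agent.R251
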