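import Crest.Agent.R251.Basic

/-! R251: `1`-cocycles are path functions with values in `M ⋊ G`.

For a path `γ` let `pth γ g : Δ 1 → Z × G := sx (lft μ γ 0 g) ![0, 1]` (vertices in `ℝ`; it is good
over `S` if `IsPath S γ`: `lift_lft (convex_Icc 0 1)`, `Lift.sx`).
`exists_pf_of_cocycle`: `ω.val γ = ⟨β (pth γ 1), μ.val γ⟩`.  `congr`: `cmb ![0,1] x ∈ Icc 0 1`, and
`seg 0 z t ∈ Icc 0 1`.  `const`: `pth (fun _ => y) 1` is the constant simplex `(y, 1)` and
`cob β (fun _ => p) = β (fun _ => p)` (three terms).  `sq`: for `L = lft μ K (0,0) 1` (a lift on `Sq`),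
`tri_cob` and `hδ` on the triangles `(0,0),(1,0),(1,1)` and `(0,0),(0,1),(1,1)` give
`sgm 00 10 + sgm 10 11 = sgm 00 01 + sgm 01 11`, and for `a, b ∈ Sq`
`sgm β L a b = (L a).2 • β (pth (K ∘ seg a b) 1)` because `sx L ![a,b] = tl (L a).2 (pth ..)`
(`cmb_one`, `Lift.eq_lft` for the lift `L ∘ seg a b` on `Icc 0 1`); `(L (1,0)).2 = μ.val (K (·,0))` etc. by
`μ.congr`.  `m`: a good `τ` equals `tl (τ (v0 1)).2 (pth (fst ∘ τ ∘ par) 1)`, since `par (x.1 1) = x` and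
`τ ∘ par` is a lift on `Icc 0 1` (`Lift.eq_lft`, `par_zero`).
`exists_cocycle_of_pf`: `β τ = (τ (v0 1)).2 • (ω.val (fst ∘ τ ∘ par)).m`.  Cocycle: for good
`σ : Δ 2 → Z × G` the faces composed with `par` are `ext σ ∘ seg (stdv 2 a) (stdv 2 b)` on `Icc 0 1`
(`sx_ext_stdv`, `sx_face`, `cmb_par`), `ω.tri (convex_stdSimplex ..)` gives `ω₀₁ * ω₁₂ = ω₀₂`; take `.m`
and use `(σ e₁).2 = (σ e₀).2 * ω₀₁.g` (`hg`, `Lift.val`).
`Rel1.cobd`: `ε τ = (τ (v0 0)).2 • (f (τ (v0 0)).1).g⁻¹ • (f (τ (v0 0)).1).m`; for good `τ` with end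
points `p₀ = τ (par 0)`, `p₁ = τ (par 1)`: `cob ε τ = ε (fun _ => p₁) - ε (fun _ => p₀)`,
`p₁.2 = p₀.2 * μ γ` and `(f p₁.1).g = (f p₀.1).g * μ γ`.
`Rel1.sgm`: apply `h.m` to `sx K ![a,b]` (`Lift.sx'`, `cmb_one`, `cmb_v0`, `cmb_par`, `ω.congr`).
`Rel1.loop`: `Rel1.sgm` four times; `(K d1).2 = (K d0).2 * (ω side₀).g` etc. -/

set_option autoImplicit false

namespace Crest.Agent.R251

open Set Metric Topology Crest.Agent.R197

variable {Z : Type} [TopologicalSpace Z] {G : Type} [Group G] {μ : PF (univ : Set Z) G}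
  {S : Set Z} {M : Type} [AddCommGroup M] [DistribMulAction G M]

theorem one_x_mem (x : Δ 1) : x.1 1 ∈ Icc (0 : ℝ) 1 := by
  have h := x.2.2
  rw [Fin.sum_univ_two] at h
  exact ⟨x.2.1 1, by linarith [x.2.1 0]⟩

theorem one_par_coord (x : Δ 1) : par (x.1 1) = x := by
  apply Subtype.ext
  rw [par_val (one_x_mem x)]
  have h := x.2.2
  rw [Fin.sum_univ_two] at h
  funext i
  fin_cases i
  · change 1 - x.1 1 = x.1 0
    linarith
  · rfl

theorem one_cmb01 (x : Δ 1) : cmb ![(0 : ℝ), 1] x = x.1 1 := by rw [cmb_one, pfb_seg01]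

variable (μ) in
/-- The labelled `1`-simplex of a path, with label `1` at the start. -/
noncomputable def onePth (γ : ℝ → Z) : Δ 1 → Z × G := sx (lft μ γ 0 1) ![0, 1]

theorem onePth_congr {γ γ' : ℝ → Z} (h : EqOn γ γ' (Icc 0 1)) : onePth μ γ = onePth μ γ' := by
  funext x
  simp only [onePth, sx, one_cmb01, lft]
  rw [h (one_x_mem x), μ.congr (γ' := fun t => γ' (seg 0 (x.1 1) t)) fun t ht =>
    h ((isPath_seg (convex_Icc (0 : ℝ) 1) (left_mem_Icc.2 zero_le_one) (one_x_mem x)).2 ht)]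

theorem one_lift_eq {L : ℝ → Z × G} (hL : Lift μ S (Icc 0 1) L) :
    (fun x : Δ 1 => L (x.1 1)) = tl (L 0).2 (onePth μ fun t => (L t).1) := by
  funext x
  rw [hL.eq_lft (convex_Icc 0 1) (left_mem_Icc.2 zero_le_one) (one_x_mem x)]
  simp only [tl, onePth, sx, one_cmb01, lft, one_mul]

theorem one_lift_par {τ : Δ 1 → Z × G} (hτ : Good μ S τ) :
    Lift μ S (Icc (0 : ℝ) 1) fun t => τ (par t) :=
  Lift.comp hτ continuous_par.continuousOn (mapsTo_univ _ _)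

theorem one_good_eq {τ : Δ 1 → Z × G} (hτ : Good μ S τ) :
    τ = tl (τ (v0 1)).2 (onePth μ fun t => (τ (par t)).1) := by
  have h := one_lift_eq (one_lift_par hτ)
  simp only [one_par_coord, par_zero] at h
  exact h

theorem one_sx_eq {W : Type} [NormedAddCommGroup W] [NormedSpace ℝ W] {C : Set W}
    {K : W → Z × G} (hK : Lift μ S C K) {a b : W} (hab : IsPath C (seg a b)) :
    sx K ![a, b] = tl (K a).2 (onePth μ fun t => (K (seg a b t)).1) := by
  have h := one_lift_eq (hK.comp hab.1 hab.2)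
  simp only [seg_zero] at h
  rw [← h]
  funext x
  rw [sx, cmb_one]

theorem one_sgm {β : Co (Z × G) M 1} {ω : PF S (SD G M)} (h : Rel1 μ S β ω) {W : Type}
    [NormedAddCommGroup W] [NormedSpace ℝ W] {C : Set W} {K : W → Z × G} (hK : Lift μ S C K)
    {a b : W} (hab : IsPath C (seg a b)) :
    sgm β K a b = (K a).2 • (ω.val fun t => (K (seg a b t)).1).m := by
  rw [sgm, h.m _ (hK.sx' fun x => by rw [cmb_one]; exact hab.2 (one_x_mem x)),
    ω.congr (γ' := fun t => (K (seg a b t)).1) fun t ht => by simp only [sx, cmb_par a b ht]]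
  simp only [sx, cmb_v0, Matrix.cons_val_zero]

theorem one_g_seg {β : Co (Z × G) M 1} {ω : PF S (SD G M)} (h : Rel1 μ S β ω) {W : Type}
    [NormedAddCommGroup W] [NormedSpace ℝ W] {C : Set W} {K : W → Z × G} (hK : Lift μ S C K)
    {a b : W} (hab : IsPath C (seg a b)) :
    (ω.val fun t => (K (seg a b t)).1).g = (K a).2⁻¹ * (K b).2 := by
  rw [h.g _ (hab.comp hK.cont hK.maps), hK.val _ hab, seg_zero, seg_one]

theorem exists_pf_of_cocycle {β : Co (Z × G) M 1} (hβ : Eqv β) (hδ : Z0 μ S (cob β)) :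
    ∃ ω : PF S (SD G M), Rel1 μ S β ω := by
  refine ⟨⟨fun γ => ⟨β (onePth μ γ), μ.val γ⟩, fun h => ?_, fun y hy => ?_, fun K hK hS => ?_⟩,
    fun _ _ => rfl, fun τ hτ => ?_⟩
  · rw [onePth_congr h, μ.congr h]
  · have e : onePth μ (fun _ => y) = fun _ => (y, 1) := by
      funext x
      simp only [onePth, sx, lft, μ.const y (mem_univ _), one_mul]
    have h0 := hδ (fun _ => (y, 1)) (lift_const hy 1)
    rw [cob, Fin.sum_univ_three] at h0
    refine SD.ext ?_ (μ.const y (mem_univ _))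
    change β (onePth μ fun _ => y) = 0
    rw [e]
    simpa using h0
  · have i0 : (0 : ℝ) ∈ Icc (0 : ℝ) 1 := left_mem_Icc.2 zero_le_one
    have i1 : (1 : ℝ) ∈ Icc (0 : ℝ) 1 := right_mem_Icc.2 zero_le_one
    have h00 : ((0, 0) : ℝ × ℝ) ∈ Sq := ⟨i0, i0⟩
    have h10 : ((1, 0) : ℝ × ℝ) ∈ Sq := ⟨i1, i0⟩
    have h01 : ((0, 1) : ℝ × ℝ) ∈ Sq := ⟨i0, i1⟩
    have h11 : ((1, 1) : ℝ × ℝ) ∈ Sq := ⟨i1, i1⟩
    have hL : Lift μ S Sq (lft μ K (0, 0) 1) := lift_lft convex_Sq hK hS h00 1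
    have key : ∀ {a b : ℝ × ℝ}, a ∈ Sq → b ∈ Sq → sgm β (lft μ K (0, 0) 1) a b =
        (μ.val fun t => K (seg (0, 0) a t)) • β (onePth μ fun t => K (seg a b t)) := by
      intro a b ha hb
      rw [sgm, one_sx_eq hL (isPath_seg convex_Sq ha hb), hβ]
      simp only [lft, one_mul]
    have s1 : ∀ t : ℝ, seg ((0, 0) : ℝ × ℝ) (1, 0) t = (t, 0) := fun t => by simp [seg]
    have s2 : ∀ t : ℝ, seg ((1, 0) : ℝ × ℝ) (1, 1) t = (1, t) := fun t => by simp [seg]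
    have s3 : ∀ t : ℝ, seg ((0, 0) : ℝ × ℝ) (0, 1) t = (0, t) := fun t => by simp [seg]
    have s4 : ∀ t : ℝ, seg ((0, 1) : ℝ × ℝ) (1, 1) t = (t, 1) := fun t => by simp [seg]
    have t1 := tri_zero convex_Sq hL hδ h00 h10 h11
    have t2 := tri_zero convex_Sq hL hδ h00 h01 h11
    rw [tri_cob, key h10 h11, key h00 h10] at t1
    rw [tri_cob, key h01 h11, key h00 h01] at t2
    simp only [s1, s2, s3, s4, seg_self, μ.const _ (mem_univ _), one_smul] at t1 t2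
    refine SD.ext ?_ (μ.sq K hK (mapsTo_univ _ _))
    simp only [SD.mul_m]
    rw [← sub_eq_zero, ← sub_eq_zero.2 (t1.trans t2.symm)]
    abel
  · conv_lhs => rw [one_good_eq hτ]
    exact hβ _ _

theorem exists_cocycle_of_pf (ω : PF S (SD G M)) (hg : ∀ γ, IsPath S γ → (ω.val γ).g = μ.val γ) :
    ∃ β : Co (Z × G) M 1, Eqv β ∧ Z0 μ S (cob β) ∧ Rel1 μ S β ω := by
  let β : Co (Z × G) M 1 := fun τ => (τ (v0 1)).2 • (ω.val fun t => (τ (par t)).1).m
  have hR : Rel1 μ S β ω := ⟨hg, fun _ _ => rfl⟩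
  refine ⟨β, fun g τ => mul_smul _ _ _, fun σ hσ => ?_, hR⟩
  have hC := convex_stdSimplex ℝ (Fin (2 + 1))
  have hK := Lift.ext hσ
  have e : stdv 2 = ![stdv 2 0, stdv 2 1, stdv 2 2] := by
    funext i
    fin_cases i <;> rfl
  have h0 := stdv_mem 2 0
  have h1 := stdv_mem 2 1
  have h2 := stdv_mem 2 2
  rw [← sx_ext_stdv σ, e]
  change tri (cob β) (ext σ) _ _ _ = 0
  rw [tri_cob, one_sgm hR hK (isPath_seg hC h1 h2), one_sgm hR hK (isPath_seg hC h0 h2),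
    one_sgm hR hK (isPath_seg hC h0 h1), ← ω.tri hC hK.cont hK.maps h0 h1 h2, SD.mul_m,
    one_g_seg hR hK (isPath_seg hC h0 h1), smul_add, ← mul_smul, mul_inv_cancel_left]
  abel

theorem Rel1.cobd {β : Co (Z × G) M 1} {ω : PF S (SD G M)} (h : Rel1 μ S β ω) {f : Z → SD G M}
    (hf : ω.Pot S f) : Cobd μ S β := by
  refine ⟨fun τ => (τ (v0 0)).2 • (f (τ (v0 0)).1).g⁻¹ • (f (τ (v0 0)).1).m,
    fun g τ => mul_smul _ _ _, fun τ hτ => ?_⟩
  have hL := one_lift_par hτ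
  have hs : IsPath (Icc (0 : ℝ) 1) (seg 0 1) :=
    isPath_seg (convex_Icc 0 1) (left_mem_Icc.2 zero_le_one) (right_mem_Icc.2 zero_le_one)
  have e : τ = sx (fun t => τ (par t)) ![(0 : ℝ), 1] := by
    funext x
    rw [sx, one_cmb01, one_par_coord]
  have hp := hf _ (hs.comp hL.cont hL.maps)
  have hg := one_g_seg h hL hs
  have hm := one_sgm h hL hs
  rw [hp] at hg hm
  simp only [seg_zero, seg_one, SD.mul_g, SD.inv_g, SD.mul_m, SD.inv_m] at hg hm
  rw [e]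
  change sgm β _ _ _ - sgm (cob _) _ _ _ = 0
  rw [sgm_cob, hm]
  have h2 : (τ (par 1)).2 = (τ (par 0)).2 * ((f (τ (par 0)).1).g⁻¹ * (f (τ (par 1)).1).g) := by
    rw [hg, mul_inv_cancel_left]
  simp only [h2, smul_add, smul_neg, mul_smul, smul_inv_smul]
  abel

theorem Rel1.sgm {β : Co (Z × G) M 1} {ω : PF S (SD G M)} (h : Rel1 μ S β ω) {W : Type}
    [NormedAddCommGroup W] [NormedSpace ℝ W] {C : Set W} {K : W → Z × G} (hK : Lift μ S C K)
    {a b : W} (hab : IsPath C (seg a b)) :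
    sgm β K a b = (K a).2 • (ω.val fun t => (K (seg a b t)).1).m := by
  exact one_sgm h hK hab

theorem Rel1.loop {β : Co (Z × G) M 1} {ω : PF S (SD G M)} (h : Rel1 μ S β ω)
    {K : (Fin 2 → ℝ) → Z × G} (hK : Lift μ S Punct K) :
    R251.sgm β K d0 d1 + R251.sgm β K d1 d2 + R251.sgm β K d2 d3 + R251.sgm β K d3 d0 =
      (K d0).2 • (loopVal ω fun z => (K z).1).m := by
  obtain ⟨p0, p1, p2, p3⟩ := isPath_side
  rw [one_sgm h hK p0, one_sgm h hK p1, one_sgm h hK p2, one_sgm h hK p3, loopVal]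
  simp only [SD.mul_m, SD.mul_g, one_g_seg h hK p0, one_g_seg h hK p1, one_g_seg h hK p2,
    smul_add, mul_smul, smul_inv_smul]

/-- A `1`-cocycle is antisymmetric on segments. -/
theorem sgm_antisymm {β : Co (Z × G) M 1} (hδ : Z0 μ S (cob β)) {W : Type}
    [NormedAddCommGroup W] [NormedSpace ℝ W] {C : Set W} (hC : Convex ℝ C) {K : W → Z × G}
    (hK : Lift μ S C K) {a b : W} (ha : a ∈ C) (hb : b ∈ C) : sgm β K b a = -sgm β K a b := by
  have h1 := tri_zero hC hK hδ ha hb ha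
  have h2 := tri_zero hC hK hδ ha ha ha
  rw [tri_cob] at h1 h2
  rw [sub_self, zero_add] at h2
  rw [h2, sub_zero] at h1
  exact eq_neg_of_add_eq_zero_left h1

end Crest.Agent.R251
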