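import Crest.Agent.R251.Punc
import Crest.Agent.R251.One
import Crest.Agent.R197.PFEx

/-! R251: the punctured square and the punctured `3`-cube.

`pot_star`: `f z = ω.val (F ∘ seg a z)`; for a path `δ` in `C` apply `ω.sq` to
`(s, t) ↦ F (seg a (δ s) t)` (note `seg a z t = seg z a (1 - t)`); the bottom is constant.
`pot_P3`: potentials `fp`, `fm` on `Up 2`, `Um 2`; `fp * fm⁻¹` has the same value at the end points of
any path in `Mid 2`, and any two points of `Mid 2` are joined by three paths in `Mid 2`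
(`z ↦ cons 0 (tail z)` by `retr_Mid`, then `exists_path_punct` composed with `Fin.cons 0`).  So
`fp = c * fm` on `Mid 2`; put `f = fp` on `Up 2` and `c * fm` elsewhere, and use `PF.ext_of_cover` for
`ω.comap (Pn 3) F ..` and `(pfbTriv _ _).gauge f` with the cover by `Up 2`, `Um 2`.
`exists_path_P3`: `Up 2` and `Um 2` are star-shaped, hence path connected, and meet
(`IsPathConnected.union`; compare `exists_path_punct`).
`van_P3_zero`: `exists_pf_of_cocycle`, `pot_P3` with `F = id`, `Rel1.cobd`.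
`cobd_punct`: `exists_pf_of_cocycle`, `Rel1.loop` for the lift `z ↦ (z, 1)`, so `loopVal ω id = 1`
(its `g`-component is `1`), then `punct` and `Rel1.cobd`.
`exists_punct_cocycle`: `exists_pf` on `Punct` with values in `SD G M` and the two charts
`U₁ = Punct ∩ {z | z 1 ≠ 0 ∨ z 0 < 0}` (`f₁ = 1`) and `U₂ = ball 0 1 ∩ {z | 0 < z 0}`
(`f₂ z = if 0 ≤ z 1 then ⟨m, 1⟩ else 1`); the `g`-component is trivial on all paths
(`PF.ext_of_cover` for `ω.map SD.proj` and `pfbTriv`); the sides `d0 d1`, `d1 d2`, `d2 d3` lie in `U₁`,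
the side `d3 d0` in `U₂`.  Then `exists_cocycle_of_pf`, `Rel1.loop`.
`pyr_cob`: `tri_cob`, telescoping.  The triangles `ep, up di, up d(i+1)` lie in `Up 2`: a point
`x₀ • ep + x₁ • up d + x₂ • up d'` (`cmb_two`) has first coordinate `x₀ / 2` and, if `x₀ = 0`, tail on
a side of the square; uniformly: each triangle lies in a convex set
`ball 0 1 ∩ {z | 0 ≤ z 0 ∧ 0 < z 0 + e * z i}` with `i ∈ {1, 2}`, `e = ±1`, contained in `Up 2`.
`cobd_of_oct`: `ξ = cob u` over `Up 2`, `ξ = cob v` over `Um 2` (`van_Up`, `van_Um`);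
`pyr_zero_Up`, `pyr_zero_Um` (for `ξ - cob u`, `ξ - cob v`), `pyr_cob` show that the four-side sum of `u - v` on `up ∘ ·`
vanishes; `sgm (pb (Fin.cons 0) 1 w) (·, 1) a b = sgm w (·, 1) (up a) (up b)` (`cmb_linear` or
`cmb_one`); `cobd_punct`, `cobd_of_retract (gm_cons 2) (retr_Mid 2)`, `mv_diff`, `mv_cobd (cov_Pn 2)`. -/

set_option autoImplicit false
set_option linter.unusedSectionVars false

namespace Crest.Agent.R251

open Set Metric Topology Crest.Agent.R197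

theorem p3_Up_sub : Up 2 ⊆ Pn 3 := Up_union_Um 2 ▸ subset_union_left

theorem p3_Um_sub : Um 2 ⊆ Pn 3 := Up_union_Um 2 ▸ subset_union_right

theorem p3_d0 : d0 ∈ Punct := pfb_sub _ _ pfb_d0H0

theorem p3_joined {C : Set (Fin 3 → ℝ)} {a : Fin 3 → ℝ} (ha : a ∈ C)
    (hC : ∀ z ∈ C, ∀ s ∈ Icc (0 : ℝ) 1, seg z a s ∈ C) : IsPathConnected C :=
  ⟨a, ha, fun z hz => (JoinedIn.ofLine (f := seg z a) (by unfold seg; fun_prop) (seg_zero _ _)
    (seg_one _ _) (by rintro _ ⟨s, hs, rfl⟩; exact hC z hz s hs)).symm⟩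

theorem p3_lift {W G : Type} [TopologicalSpace W] [Group G] {S C : Set W} (h : C ⊆ S) :
    Lift (triv W G) S C fun z => (z, (1 : G)) :=
  ⟨continuousOn_id, h, fun _ _ => by simp [triv, pfbTriv]⟩

section pot

variable {Y : Type} [TopologicalSpace Y] {H : Type} [Group H] {S : Set Y}

theorem pot_star (ω : PF S H) {W : Type} [NormedAddCommGroup W] [NormedSpace ℝ W] {C : Set W}
    {a : W} (hC : ∀ z ∈ C, ∀ s ∈ Icc (0 : ℝ) 1, seg z a s ∈ C) {F : W → Y}
    (hF : ContinuousOn F C) (hS : MapsTo F C S) :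
    ∃ f : W → H, ∀ δ, IsPath C δ → ω.val (fun t => F (δ t)) = (f (δ 0))⁻¹ * f (δ 1) := by
  refine ⟨fun z => ω.val fun t => F (seg a z t), fun δ hδ => ?_⟩
  have ha : a ∈ C := by simpa using hC _ hδ.zero_mem 1 (right_mem_Icc.2 zero_le_one)
  have hmem : MapsTo (fun p : ℝ × ℝ => seg a (δ p.1) p.2) Sq C := fun p hp => by
    have := hC _ (hδ.2 hp.1) (1 - p.2) ⟨by linarith [hp.2.2], by linarith [hp.2.1]⟩
    convert this using 1
    simp only [seg]
    module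
  have hcont : ContinuousOn (fun p : ℝ × ℝ => seg a (δ p.1) p.2) Sq := by
    have h1 : ContinuousOn (fun p : ℝ × ℝ => δ p.1) Sq :=
      hδ.1.comp continuous_fst.continuousOn fun p hp => hp.1
    unfold seg
    exact continuousOn_const.add (continuous_snd.continuousOn.smul (h1.sub continuousOn_const))
  have h := ω.sq (fun p => F (seg a (δ p.1) p.2)) (hF.comp hcont hmem) (hS.comp hmem)
  simp only [seg_zero, seg_one] at h
  rw [ω.const _ (hS ha), one_mul] at h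
  simp only
  rw [h, inv_mul_cancel_left]

theorem pot_P3 (ω : PF S H) {F : (Fin 3 → ℝ) → Y} (hF : ContinuousOn F (Pn 3))
    (hS : MapsTo F (Pn 3) S) :
    ∃ f : (Fin 3 → ℝ) → H, ∀ δ, IsPath (Pn 3) δ →
      ω.val (fun t => F (δ t)) = (f (δ 0))⁻¹ * f (δ 1) := by
  classical
  obtain ⟨fp, hp⟩ := pot_star ω (star_Up 2) (hF.mono p3_Up_sub) (hS.mono_left p3_Up_sub)
  obtain ⟨fm, hm⟩ := pot_star ω (star_Um 2) (hF.mono p3_Um_sub) (hS.mono_left p3_Um_sub)
  have hq : ∀ γ, IsPath (Mid 2) γ → fp (γ 0) * (fm (γ 0))⁻¹ = fp (γ 1) * (fm (γ 1))⁻¹ := by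
    intro γ hγ
    rw [← Up_inter_Um] at hγ
    have := (hp γ (hγ.mono inter_subset_left)).symm.trans (hm γ (hγ.mono inter_subset_right))
    rw [inv_mul_eq_iff_eq_mul] at this
    rw [this]
    group
  have hc : ∀ z ∈ Mid 2, fp z * (fm z)⁻¹ = fp (up d0) * (fm (up d0))⁻¹ := by
    intro z hz
    have R := retr_Mid 2
    have h0 : IsPath (Mid 2 ×ˢ Icc (0 : ℝ) 1) fun s => (z, s) :=
      ⟨by fun_prop, fun s hs => ⟨hz, hs⟩⟩
    have h1 := hq _ (h0.comp R.cont R.maps)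
    obtain ⟨δ, hδ, e0, e1⟩ := exists_path_punct (R.mapsr hz) p3_d0
    have h2 := hq _ (hδ.comp (continuous_cons0 2).continuousOn (mapsTo_cons0 2))
    simp only [sub_zero, one_mul, Fin.cons_self_tail, sub_self, zero_mul] at h1
    rw [e0, e1] at h2
    exact h1.trans h2
  let f : (Fin 3 → ℝ) → H := fun z =>
    if z ∈ Up 2 then fp z else fp (up d0) * (fm (up d0))⁻¹ * fm z
  have f1 : ∀ z ∈ Up 2, f z = fp z := fun z hz => if_pos hz
  have f2 : ∀ z ∈ Um 2, f z = fp (up d0) * (fm (up d0))⁻¹ * fm z := fun z hz => by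
    by_cases h : z ∈ Up 2
    · rw [f1 z h, ← hc z (Up_inter_Um 2 ▸ ⟨h, hz⟩), inv_mul_cancel_right]
    · exact if_neg h
  refine ⟨f, fun δ hδ => ?_⟩
  have key := PF.ext_of_cover (ω.comap (Pn 3) F hF hS) ((pfbTriv (Pn 3) H).gauge f)
    (fun b : Bool => if b then Up 2 else Um 2) ?_ ?_ hδ
  · simpa [pfbTriv] using key
  · intro y hy
    rcases (Up_union_Um 2).ge hy with h | h
    · exact ⟨true, mem_nhdsWithin_of_mem_nhds ((isOpen_Up 2).mem_nhds h)⟩
    · exact ⟨false, mem_nhdsWithin_of_mem_nhds ((isOpen_Um 2).mem_nhds h)⟩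
  · rintro (_ | _) γ hγ
    · have hγ : IsPath (Um 2) γ := hγ.mono inter_subset_right
      rw [PF.comap_val, hm γ hγ, PF.gauge_val, f2 _ hγ.zero_mem, f2 _ hγ.one_mem]
      simp only [pfbTriv]
      group
    · have hγ : IsPath (Up 2) γ := hγ.mono inter_subset_right
      rw [PF.comap_val, hp γ hγ, PF.gauge_val, f1 _ hγ.zero_mem, f1 _ hγ.one_mem]
      simp [pfbTriv]

theorem exists_path_P3 {a b : Fin 3 → ℝ} (ha : a ∈ Pn 3) (hb : b ∈ Pn 3) :
    ∃ δ, IsPath (Pn 3) δ ∧ δ 0 = a ∧ δ 1 = b := by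
  have h : IsPathConnected (Pn 3) := by
    rw [← Up_union_Um]
    exact (p3_joined (single_mem_Up 2) (star_Up 2)).union (p3_joined (single_mem_Um 2) (star_Um 2))
      ⟨_, (Up_inter_Um 2).ge (mapsTo_cons0 2 p3_d0)⟩
  obtain ⟨p, hp⟩ := h.joinedIn a ha b hb
  refine ⟨p.extend, ⟨p.continuous_extend.continuousOn, fun t ht => ?_⟩, by simp, by simp⟩
  rw [p.extend_apply ht]
  exact hp _

end pot

variable {G : Type} [Group G] {M : Type} [AddCommGroup M] [DistribMulAction G M]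

theorem van_P3_zero : Van M (triv (Fin 3 → ℝ) G) (Pn 3) 0 := by
  intro β hβ hδ
  obtain ⟨ω, hω⟩ := exists_pf_of_cocycle hβ hδ
  obtain ⟨f, hf⟩ := pot_P3 ω continuousOn_id (mapsTo_id _)
  exact hω.cobd hf

/-- The sum of a `1`-cochain over the four sides of the small square. -/
noncomputable def lp {P : Type} (β : Co P M 1) (K : (Fin 2 → ℝ) → P) : M :=
  sgm β K d0 d1 + sgm β K d1 d2 + sgm β K d2 d3 + sgm β K d3 d0

theorem cobd_punct {β : Co ((Fin 2 → ℝ) × G) M 1} (hβ : Eqv β)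
    (hδ : Z0 (triv (Fin 2 → ℝ) G) Punct (cob β)) (h : lp β (fun z => (z, (1 : G))) = 0) :
    Cobd (triv (Fin 2 → ℝ) G) Punct β := by
  obtain ⟨ω, hω⟩ := exists_pf_of_cocycle hβ hδ
  have h1 := hω.loop (p3_lift subset_rfl)
  obtain ⟨s0, s1, s2, s3⟩ := isPath_side
  obtain ⟨f, hf⟩ := punct ω continuousOn_id (mapsTo_id _) (by
    ext
    · exact (one_smul G _).symm.trans (h1.symm.trans h)
    · simp only [loopVal, SD.mul_g, id]
      rw [hω.g _ s0, hω.g _ s1, hω.g _ s2, hω.g _ s3]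
      simp [triv, pfbTriv])
  exact hω.cobd hf

theorem exists_punct_cocycle (m : M) : ∃ β : Co ((Fin 2 → ℝ) × G) M 1, Eqv β ∧
    Z0 (triv (Fin 2 → ℝ) G) Punct (cob β) ∧ lp β (fun z => (z, (1 : G))) = m := by
  classical
  let U : Bool → Set (Fin 2 → ℝ) := fun b =>
    if b then Punct ∩ {z | z 1 ≠ 0 ∨ z 0 < 0} else pfbHs 0 1
  let f : Bool → (Fin 2 → ℝ) → SD G M := fun b z =>
    if b then 1 else if 0 ≤ z 1 then ⟨m, 1⟩ else 1
  have hU : ∀ b, IsOpen (U b) := by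
    rintro (_ | _)
    · exact pfb_open _ _
    · exact (isOpen_Pn 2).inter ((isOpen_ne_fun (continuous_apply 1) continuous_const).union
        (isOpen_lt (continuous_apply 0) continuous_const))
  have hcov : ∀ y ∈ Punct, ∃ b, y ∈ U b := by
    intro y hy
    rcases pfb_cover hy with h | h | h | h
    · exact ⟨true, hy, Or.inl (by have : 0 < 1 * y 1 := h.2; linarith : 0 < y 1).ne'⟩
    · exact ⟨true, hy, Or.inr (by have : 0 < -1 * y 0 := h.2; linarith)⟩
    · exact ⟨true, hy, Or.inl (by have : 0 < -1 * y 1 := h.2; linarith : y 1 < 0).ne⟩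
    · exact ⟨false, h⟩
  have hloc : ∀ y ∈ U true ∩ U false, ∀ᶠ y' in 𝓝 y, f false y' = f false y := by
    intro y hy
    have h0 : 0 < 1 * y 0 := hy.2.2
    rcases lt_or_gt_of_ne (hy.1.2.resolve_right (by linarith) : y 1 ≠ 0) with h | h
    · filter_upwards [(isOpen_lt (continuous_apply 1) continuous_const).mem_nhds h] with y' h'
      simp [f, h.not_ge, (show y' 1 < 0 from h').not_ge]
    · filter_upwards [(isOpen_lt continuous_const (continuous_apply 1)).mem_nhds h] with y' h'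
      simp [f, h.le, (show 0 < y' 1 from h').le]
  obtain ⟨ω, hω⟩ := exists_pf Punct U f hU
    (by rintro (_ | _); exacts [pfb_sub _ _, inter_subset_left]) hcov (by
      rintro (_ | _) (_ | _) y hy
      · simp
      · filter_upwards [hloc y hy.symm] with y' h
        rw [h]; rfl
      · filter_upwards [hloc y hy] with y' h
        rw [h]; rfl
      · simp)
  have hg : ∀ b z, (f b z).g = 1 := fun b z => by
    simp only [f]; split_ifs <;> rfl
  obtain ⟨β, h1, h2, h3⟩ := exists_cocycle_of_pf (μ := triv (Fin 2 → ℝ) G) ω fun γ hγ =>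
    PF.ext_of_cover (ω.map SD.proj) (pfbTriv Punct G) U
      (fun y hy => (hcov y hy).imp fun b hb => mem_nhdsWithin_of_mem_nhds ((hU b).mem_nhds hb))
      (fun b γ hγ => by
        rw [PF.map_val, hω b γ (hγ.mono inter_subset_right)]
        simp [hg, pfbTriv]) hγ
  refine ⟨β, h1, h2, (h3.loop (p3_lift subset_rfl)).trans ?_⟩
  have t : ∀ {i : Fin 2} {e : ℝ} {a b : Fin 2 → ℝ}, a ∈ pfbHs i e → b ∈ pfbHs i e →
      (∀ z : Fin 2 → ℝ, 0 < e * z i → z 1 ≠ 0 ∨ z 0 < 0) → ω.val (fun t => seg a b t) = 1 := by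
    intro i e a b ha hb h
    rw [hω true _ ((isPath_seg (pfb_convex _ _) ha hb).mono fun z hz =>
      ⟨pfb_sub _ _ hz, h z hz.2⟩)]
    simp [f]
  simp only [loopVal, one_smul]
  rw [t pfb_d0H0 pfb_d1H0 fun z h => Or.inl (by linarith : 0 < z 1).ne',
    t pfb_d1H1 pfb_d2H1 fun z h => Or.inr (by linarith),
    t pfb_d2H2 pfb_d3H2 fun z h => Or.inl (by linarith : z 1 < 0).ne,
    hω false _ (isPath_seg (pfb_convex _ _) pfb_d3H3 pfb_d0H3)]
  have : ¬(0 : ℝ) ≤ -1 / 2 := by norm_num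
  simp [f, d0, d3, this]

omit [Group G] [DistribMulAction G M] in
theorem pyr_cob {P : Type} (β : Co P M 1) (K : (Fin 3 → ℝ) → P) (e : Fin 3 → ℝ) :
    pyr (cob β) K e = sgm β K (up d0) (up d1) + sgm β K (up d1) (up d2) +
      sgm β K (up d2) (up d3) + sgm β K (up d3) (up d0) := by
  simp only [pyr, tri_cob]
  abel

omit [Group G] [DistribMulAction G M] in
theorem oct_cob {P : Type} (β : Co P M 1) (K : (Fin 3 → ℝ) → P) : oct (cob β) K = 0 := by
  rw [oct, pyr_cob, pyr_cob, sub_self]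

omit [Group G] [DistribMulAction G M] in
theorem oct_sub {P : Type} (ξ ξ' : Co P M 2) (K : (Fin 3 → ℝ) → P) :
    oct (ξ - ξ') K = oct ξ K - oct ξ' K := by
  simp only [oct, pyr, tri_sub]
  abel

section zero

variable {Z : Type} [TopologicalSpace Z] {μ : PF (univ : Set Z) G} {S : Set Z}
  {K : (Fin 3 → ℝ) → Z × G} {ξ : Co (Z × G) M 2}

/-- Convex sets containing the triangles of the bipyramid. -/
def p3C (ε : ℝ) (i : Fin 2) (e : ℝ) : Set (Fin 3 → ℝ) :=
  ball 0 1 ∩ ({z | 0 ≤ ε * z 0} ∩ {z | 0 < ε * z 0 + e * z i.succ})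

theorem p3C_convex (ε : ℝ) (i : Fin 2) (e : ℝ) : Convex ℝ (p3C ε i e) :=
  (convex_ball _ _).inter ((convex_halfSpace_ge (f := fun z : Fin 3 → ℝ => ε * z 0)
    ⟨fun x y => by simp [mul_add], fun c x => by simp; ring⟩ 0).inter
    (convex_halfSpace_gt (f := fun z : Fin 3 → ℝ => ε * z 0 + e * z i.succ)
      ⟨fun x y => by simp [mul_add]; ring, fun c x => by simp; ring⟩ 0))

theorem p3C_up (ε : ℝ) {i : Fin 2} {e : ℝ} {d : Fin 2 → ℝ} (hd : d ∈ pfbHs i e) :
    up d ∈ p3C ε i e :=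
  ⟨(mapsTo_cons0 2 (pfb_sub _ _ hd)).1, by simp [up], by simpa [up] using hd.2⟩

theorem p3C_tail {ε : ℝ} {i : Fin 2} {e : ℝ} {z : Fin 3 → ℝ} (hz : z ∈ p3C ε i e) :
    Fin.tail z ≠ 0 ∨ 0 < ε * z 0 := by
  refine or_iff_not_imp_left.2 fun h => ?_
  have h1 : z i.succ = 0 := congrFun (not_not.1 h) i
  simpa [h1] using hz.2.2

theorem p3_pyr {D : Set (Fin 3 → ℝ)} (hK : Lift μ S D K) (h : Z0 μ S ξ) {ε : ℝ}
    (hD : ∀ i e, p3C ε i e ⊆ D) {a : Fin 3 → ℝ} (ha : ∀ i e, a ∈ p3C ε i e) : pyr ξ K a = 0 := by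
  have t : ∀ {i : Fin 2} {e : ℝ} {d d' : Fin 2 → ℝ}, d ∈ pfbHs i e → d' ∈ pfbHs i e →
      tri ξ K a (up d) (up d') = 0 := fun hd hd' =>
    tri_zero (p3C_convex ε _ _) (hK.mono_left (hD _ _)) h (ha _ _) (p3C_up ε hd) (p3C_up ε hd')
  rw [pyr, t pfb_d0H0 pfb_d1H0, t pfb_d1H1 pfb_d2H1, t pfb_d2H2 pfb_d3H2, t pfb_d3H3 pfb_d0H3]
  simp

theorem p3_ball (c : ℝ) (hc : |c| < 1) : ![c, 0, 0] ∈ ball (0 : Fin 3 → ℝ) 1 := by
  rw [mem_ball_zero_iff, pi_norm_lt_iff one_pos]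
  intro i
  fin_cases i <;> simp [hc]

theorem pyr_zero_Up (hK : Lift μ S (Up 2 ∩ {z | 0 ≤ z 0}) K) (h : Z0 μ S ξ) : pyr ξ K ep = 0 := by
  refine p3_pyr hK h (ε := 1) (fun i e z hz => ⟨⟨hz.1, ?_⟩, ?_⟩) fun i e =>
    ⟨p3_ball _ (by rw [abs_lt]; constructor <;> norm_num), ?_, ?_⟩
  · simpa using p3C_tail hz
  · simpa using hz.2.1
  · simp [ep]
  · fin_cases i <;> simp [ep]

theorem pyr_zero_Um (hK : Lift μ S (Um 2 ∩ {z | z 0 ≤ 0}) K) (h : Z0 μ S ξ) : pyr ξ K em = 0 := by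
  refine p3_pyr hK h (ε := -1) (fun i e z hz => ⟨⟨hz.1, ?_⟩, ?_⟩) fun i e =>
    ⟨p3_ball _ (by rw [abs_lt]; constructor <;> norm_num), ?_, ?_⟩
  · simpa using p3C_tail hz
  · simpa using hz.2.1
  · simp [em]; norm_num
  · fin_cases i <;> simp [em] <;> norm_num

theorem oct_zero (hK : Lift μ S (Pn 3) K) (h : Z0 μ S ξ) : oct ξ K = 0 := by
  rw [oct, pyr_zero_Up (hK.mono_left ?_) h, pyr_zero_Um (hK.mono_left ?_) h, sub_self]
  · exact inter_subset_left.trans (Up_union_Um 2 ▸ subset_union_right)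
  · exact inter_subset_left.trans (Up_union_Um 2 ▸ subset_union_left)

theorem oct_cobd (hK : Lift μ S (Pn 3) K) (h : Cobd μ S ξ) : oct ξ K = 0 := by
  obtain ⟨β, -, h2⟩ := h
  have := oct_zero hK h2
  rwa [oct_sub, oct_cob, sub_zero] at this

end zero

theorem p3_sgm (w : Co ((Fin 3 → ℝ) × G) M 1) (a b : Fin 2 → ℝ) :
    sgm (pb (fun z : Fin 2 → ℝ => (Fin.cons 0 z : Fin 3 → ℝ)) (fun _ => (1 : G)) w)
      (fun z => (z, (1 : G))) a b = sgm w (fun z => (z, (1 : G))) (up a) (up b) := by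
  simp only [sgm, pb]
  congr 1
  funext x
  simp only [gm, sx, cmb_one, mul_one]
  congr 1
  funext i
  refine Fin.cases ?_ (fun i => ?_) i <;> simp [seg, up]

theorem cobd_of_oct {ξ : Co ((Fin 3 → ℝ) × G) M 2} (hξ : Eqv ξ)
    (hδ : Z0 (triv (Fin 3 → ℝ) G) (Pn 3) (cob ξ)) (h : oct ξ (fun z => (z, (1 : G))) = 0) :
    Cobd (triv (Fin 3 → ℝ) G) (Pn 3) ξ := by
  obtain ⟨u, hu, h1⟩ := van_Up 2 1 ξ hξ (hδ.mono p3_Up_sub)
  obtain ⟨v, hv, h2⟩ := van_Um 2 1 ξ hξ (hδ.mono p3_Um_sub)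
  have e1 := pyr_zero_Up (p3_lift inter_subset_left) h1
  have e2 := pyr_zero_Um (p3_lift inter_subset_left) h2
  have hd := mv_diff h1 h2
  refine mv_cobd (cov_Pn 2) hξ hδ hu (fun _ => hv) h1 (fun _ => h2) fun _ => ?_
  rw [Up_inter_Um] at hd ⊢
  refine cobd_of_retract (gm_cons 2) (retr_Mid 2) (hu.sub hv) hd
    (cobd_punct ((hu.sub hv).pb _ _) (Z0.pb (gm_cons 2) hd) ?_)
  have e3 := pyr_cob u (fun z => (z, (1 : G))) ep
  have e4 := pyr_cob v (fun z => (z, (1 : G))) em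
  simp only [lp, p3_sgm, sgm_sub]
  simp only [oct, pyr, tri_sub] at h e1 e2 e3 e4
  linear_combination (norm := abel) h - e1 + e2 - e3 + e4

end Crest.Agent.R251
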