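import Crest.Agent.R251.CWVan
import Crest.Agent.R251.Punc3
import Crest.Agent.R197.Inj2

/-! R251: second cohomology of a two-dimensional complex relative to `Sp Z`.

Write `K r = lft μ (chr 2 r) d0 1`, a lift on `ball 0 1` over `chr 2 r '' ball 0 1` (`lift_lft`), and on
`Punct` over `Sp Z` (`mapsTo_chr_punct`).  By definition `gm (chr 2 r) (clab μ r d0) (z, 1) = K r z`, so
`lp (pb (chr 2 r) (clab μ r d0) β) (·, 1) = lp β (K r)` holds by `rfl`.

`val_cob_sum`: `tri_cob` twice gives `sgm d0 d1 + sgm d1 d2 + sgm d2 d3 - sgm d0 d3`, and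
`sgm_antisymm` for the lift `K r` on the convex set `pfbHs 0 1 ⊆ Punct` (`pfb_convex`, `pfb_sub`,
`pfb_d0H3`, `pfb_d3H3`), which lies over `chr 2 r '' Punct`.
`exists_rel_val`: for each `r` take `β₀` from `exists_punct_cocycle (m r)` and
`c r = pb (chr 2 r).symm (..) β₀` with the equivariant map `gm_retract (gm_chr r _ _) (retr_cell r _)`
for `O = Punct`, base point `a = d0` (its labels are `μ.val (fun _ => z) * (clab μ r d0 ((chr 2 r).symm z))⁻¹`).
`mv_ext (cov_Sp h)` with `a = 0`, `b r = cob (c r)` (`cob_cob`, `Sp_inter`, `Z0.pb`) gives `θ`; then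
`val μ θ r = val μ (cob (c r)) r` (`val_zero`) `= lp (c r) (K r)` (`val_cob_sum`) `= lp β₀ (·, 1)`, because on the four sides
`gm (chr.symm) (..) (K r z) = (z, 1)` (`chr_symm_chr`, `μ.const`; `cmb_one` and `isPath_side`).
`cobd_of_val`: `θ = cob (β r)` over the open cell (`van_cell`), so `cob (β r)` vanishes over
`chr 2 r '' Punct`, and `lp (β r) (K r) = val μ θ r = 0`; `cobd_punct`, `cobd_cell`, then
`mv_cobd (cov_Sp h)` with `α = 0`.
`val_cob`: `val_cob_sum`, `Rel1.loop`, `lft_base`.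
`exists_edge_cocycle`: `ω = (η.map (FreeGroup.lift fun e => ⟨a e, μ.val (ed e)⟩)).gauge
fun x => ⟨0, gau μ x⟩`; its `g`-component is `μ` by `det1` applied to `μ.mono (subset_univ _)`
(`SD.proj.comp (lift ..) = lift ..`); on `ed e` the gauge is trivial (`gau_vertex`, `isPath_ed`).
Then `exists_cocycle_of_pf`.
`fox_surj`: let `c r = gau μ (chr 2 r d0)`.  Take `θ` with `val μ θ r = (c r)⁻¹ • v r`
(`exists_rel_val`), `β` with `θ = cob β` over `univ` (`hv`); `cob β` vanishes over `Sp Z`; take `ω` from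
`exists_pf_of_cocycle`, `a e = (ω.val (ed e)).m`.  `inj2_loop_det` for `ν = ω` gives
`lift (ω ∘ ed) (loopVal η (chr 2 r)) = b * loopVal ω (chr 2 r) * b⁻¹` with `b = gau ω (chr 2 r d0)`,
`b.g = c r` (`isPath_beta`, `Rel1.g`) and `(loopVal ω (chr 2 r)).g = loopVal μ (chr 2 r) = 1`
(`loopVal_eq_one`), so the `m`-component is `c r • val μ (cob β) r = v r` (`val_cob`, `val_zero`). -/

set_option autoImplicit false
set_option linter.unusedSectionVars false

namespace Crest.Agent.R251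

open Set Metric Topology Crest.Agent.R197

variable {Z : Type} [TopologicalSpace Z] [CWComplex (univ : Set Z)] [T2Space Z]
  {G : Type} [Group G] {μ : PF (univ : Set Z) G} {M : Type} [AddCommGroup M]
  [DistribMulAction G M]

theorem dim2_sub : Punct ⊆ ball (0 : Fin 2 → ℝ) 1 := sdiff_subset

theorem dim2_d0 : d0 ∈ closedBall (0 : Fin 2 → ℝ) 1 := ball_subset_closedBall pfb_d0

omit [T2Space Z] in
theorem dim2_lift (μ : PF (univ : Set Z) G) (r : Cell Z 2) {O : Set (Fin 2 → ℝ)}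
    (hO : O ⊆ ball 0 1) : Lift μ (chr 2 r '' O) O (lft μ (chr 2 r) d0 1) :=
  ((lift_lft (μ := μ) (S := univ) (convex_ball 0 1)
    ((continuousOn_chr 2 r).mono ball_subset_closedBall) (mapsTo_univ _ _) pfb_d0 1).mono_left
      hO).of_maps (mapsTo_image _ _)

theorem dim2_img (r : Cell Z 2) : chr 2 r '' Punct ⊆ Sp Z := (mapsTo_chr_punct r).image_subset

omit [T2Space Z] [DistribMulAction G M] in
theorem val_sub (θ θ' : Co (Z × G) M 2) (r : Cell Z 2) :
    val μ (θ - θ') r = val μ θ r - val μ θ' r := by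
  simp only [val, tri_sub]
  abel

omit [T2Space Z] in
theorem val_zero {θ : Co (Z × G) M 2} {r : Cell Z 2} (h : Z0 μ (chr 2 r '' ball 0 1) θ) :
    val μ θ r = 0 := by
  have hK := lift_lft (μ := μ) (S := chr 2 r '' ball 0 1) (convex_ball 0 1)
    ((continuousOn_chr 2 r).mono ball_subset_closedBall) (mapsTo_image _ _) pfb_d0 1
  rw [val, tri_zero (convex_ball 0 1) hK h pfb_d0 pfb_d1 pfb_d2,
    tri_zero (convex_ball 0 1) hK h pfb_d0 pfb_d2 pfb_d3, add_zero]

theorem val_cob_sum {β : Co (Z × G) M 1} {r : Cell Z 2}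
    (hδ : Z0 μ (chr 2 r '' Punct) (cob β)) :
    val μ (cob β) r = lp β (lft μ (chr 2 r) d0 1) := by
  have hK := (dim2_lift μ r dim2_sub).mono_left (pfb_sub 0 1)
  rw [val, tri_cob, tri_cob, lp, sgm_antisymm hδ (pfb_convex 0 1) hK pfb_d0H3 pfb_d3H3]
  abel

theorem exists_rel_val (h : Dim2 Z) (m : Cell Z 2 → M) :
    ∃ θ : Co (Z × G) M 2, Rel μ (Sp Z) θ ∧ ∀ r, val μ θ r = m r := by
  choose β₀ hβ₀ hδ₀ hm using fun r => exists_punct_cocycle (G := G) (m r)
  have hg := fun r : Cell Z 2 =>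
    gm_retract (gm_chr (μ := μ) r dim2_d0 dim2_sub) (retr_cell r dim2_sub)
  let c : Cell Z 2 → Co (Z × G) M 1 := fun r => pb (chr 2 r).symm
    (fun z => (μ.val fun _ => z) * (clab μ r d0 ((chr 2 r).symm z))⁻¹) (β₀ r)
  have hc : ∀ r, Eqv (c r) := fun r => (hβ₀ r).pb _ _
  have hcδ : ∀ r, Z0 μ (chr 2 r '' Punct) (cob (c r)) := fun r => Z0.pb (hg r) (hδ₀ r)
  obtain ⟨θ, h1, h2, h3, h4⟩ := mv_ext (μ := μ) (cov_Sp h) (a := 0) (b := fun r => cob (c r))
    eqv_zero (fun r => (hc r).cob) (z0_zero.of_eq cob_zero)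
    (fun r => z0_zero.of_eq (cob_cob _)) fun r => by
      rw [Sp_inter h, zero_sub]; exact (hcδ r).neg
  refine ⟨θ, ⟨h1, h2, by simpa using h3⟩, fun r => ?_⟩
  have h5 := val_zero (h4 r)
  rw [val_sub, sub_eq_zero] at h5
  rw [h5, val_cob_sum (hcδ r), ← hm r]
  have key : ∀ a b, IsPath Punct (seg a b) →
      sgm (c r) (lft μ (chr 2 r) d0 1) a b = sgm (β₀ r) (fun z => (z, (1 : G))) a b := by
    intro a b hab
    simp only [sgm, c, pb]
    congr 1
    funext x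
    have hx : cmb ![a, b] x ∈ Punct := by
      rw [cmb_one]
      exact hab.2 (mem_Icc_of_mem_stdSimplex x.2 1)
    simp only [sx, gm, lft]
    rw [chr_symm_chr 2 r hx.1, μ.const _ (mem_univ _)]
    simp [clab]
  obtain ⟨s0, s1, s2, s3⟩ := isPath_side
  rw [lp, lp, key _ _ s0, key _ _ s1, key _ _ s2, key _ _ s3]

theorem cobd_of_val (h : Dim2 Z) {θ : Co (Z × G) M 2} (hθ : Rel μ (Sp Z) θ)
    (h0 : ∀ r, val μ θ r = 0) : Cobd μ univ θ := by
  choose β hβ h2 using fun r : Cell Z 2 =>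
    van_cell (μ := μ) r 1 θ hθ.eqv (hθ.coc.mono (subset_univ _))
  refine mv_cobd (cov_Sp h) hθ.eqv hθ.coc (α := 0) eqv_zero hβ
    (hθ.zero.of_eq (by rw [cob_zero, sub_zero])) h2 fun r => ?_
  rw [Sp_inter h, zero_sub]
  refine Cobd.neg ?_
  have h3 : Z0 μ (chr 2 r '' Punct) (cob (β r)) :=
    ((hθ.zero.mono (dim2_img r)).sub ((h2 r).mono (image_mono dim2_sub))).of_eq (by abel)
  refine cobd_cell r dim2_d0 dim2_sub (hβ r) h3
    (cobd_punct ((hβ r).pb _ _) (Z0.pb (gm_chr r dim2_d0 dim2_sub) h3) ?_)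
  have h4 := val_zero (h2 r)
  rw [val_sub, h0, zero_sub, neg_eq_zero, val_cob_sum h3] at h4
  exact h4

theorem val_cob {β : Co (Z × G) M 1} {ω : PF (Sp Z) (SD G M)} (hω : Rel1 μ (Sp Z) β ω)
    (hδ : Z0 μ (Sp Z) (cob β)) (r : Cell Z 2) :
    val μ (cob β) r = (loopVal ω (chr 2 r)).m := by
  rw [val_cob_sum (hδ.mono (dim2_img r)), lp,
    hω.loop ((dim2_lift μ r dim2_sub).mono (dim2_img r)), lft_base, one_smul]
  rfl

theorem exists_edge_cocycle (h : Dim2 Z) (a : Cell Z 1 → M) :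
    ∃ (β : Co (Z × G) M 1) (ω : PF (Sp Z) (SD G M)), Eqv β ∧ Z0 μ (Sp Z) (cob β) ∧
      Rel1 μ (Sp Z) β ω ∧ ∀ e, ω.val (ed e) = ⟨a e, μ.val (ed e)⟩ := by
  obtain ⟨η, hη, hηe⟩ := exists_hol1 h
  let l : FreeGroup (Cell Z 1) →* SD G M := FreeGroup.lift fun e => ⟨a e, μ.val (ed e)⟩
  have hl : ∀ u, (l u).g = FreeGroup.lift (fun e => μ.val (ed e)) u := fun u => by
    have : SD.proj.comp l = FreeGroup.lift fun e => μ.val (ed e) := by ext e; simp [l]
    exact DFunLike.congr_fun this u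
  let ω : PF (Sp Z) (SD G M) := (η.map l).gauge fun x => ⟨0, gau μ x⟩
  obtain ⟨β, h1, h2, h3⟩ := exists_cocycle_of_pf (μ := μ) ω fun γ hγ => by
    have := det1 h η hη (μ.mono (subset_univ _)) hγ
    simp only [ω, PF.gauge_val, PF.map_val, SD.mul_g, SD.inv_g, hl]
    exact this.symm
  refine ⟨β, ω, h1, h2, h3, fun e => ?_⟩
  obtain ⟨-, e0, e1⟩ := isPath_ed e
  simp only [ω, PF.gauge_val, PF.map_val, gau_vertex μ e0 (mem_univ _),
    gau_vertex μ e1 (mem_univ _), hηe]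
  change (1 : SD G M)⁻¹ * l (FreeGroup.of e) * 1 = _
  simp [l]

/-- If `H²(Z; M) = 0` then the cellular coboundary `C¹ → C²` (Fox calculus) is onto. -/
theorem fox_surj (h : Dim2 Z) (η : PF (Sp Z) (FreeGroup (Cell Z 1)))
    (hη : ∀ i, η.Pot (U1 i) (f1 i)) (hv : Van M μ univ 1) (v : Cell Z 2 → M) :
    ∃ a : Cell Z 1 → M, ∀ r,
      (FreeGroup.lift (fun e => (⟨a e, μ.val (ed e)⟩ : SD G M)) (loopVal η (chr 2 r))).m = v r := by
  obtain ⟨θ, hθ, hval⟩ := exists_rel_val (μ := μ) h fun r => (gau μ (chr 2 r d0))⁻¹ • v r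
  obtain ⟨β, hβ, h2⟩ := hv θ hθ.eqv hθ.coc
  have h3 : Z0 μ (Sp Z) (cob β) := (hθ.zero.sub (h2.mono (subset_univ _))).of_eq (by abel)
  obtain ⟨ω, hω⟩ := exists_pf_of_cocycle hβ h3
  refine ⟨fun e => (ω.val (ed e)).m, fun r => ?_⟩
  have e1 : (fun e => (⟨(ω.val (ed e)).m, μ.val (ed e)⟩ : SD G M)) = fun e => ω.val (ed e) := by
    funext e
    rw [← hω.g _ ((isPath_ed e).1.mono Sk_two_subset_Sp)]
  have hd : chr 2 r d0 ∈ Sp Z := mapsTo_chr_punct r (by simpa using isPath_side.1.zero_mem)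
  have e2 : (gau ω (chr 2 r d0)).g = gau μ (chr 2 r d0) := by
    rw [gau, gau, SD.mul_g, hω.g _ (isPath_beta h hd).1, hω.g _ (isPath_beta h hd).2]
  have e3 : (loopVal ω (chr 2 r)).g = 1 := by
    obtain ⟨s0, s1, s2, s3⟩ := isPath_side
    have hc : ContinuousOn (chr 2 r) Punct :=
      (continuousOn_chr 2 r).mono (dim2_sub.trans ball_subset_closedBall)
    have hm := mapsTo_chr_punct r
    rw [← loopVal_eq_one μ ((continuousOn_chr 2 r).mono ball_subset_closedBall) (mapsTo_univ _ _)]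
    simp only [loopVal, SD.mul_g, hω.g _ (s0.comp hc hm), hω.g _ (s1.comp hc hm),
      hω.g _ (s2.comp hc hm), hω.g _ (s3.comp hc hm)]
  have e4 := val_zero (h2.mono (subset_univ (chr 2 r '' ball 0 1)))
  rw [val_sub, sub_eq_zero, hval, val_cob hω h3] at e4
  rw [e1, inj2_loop_det h η hη ω r]
  simp only [SD.mul_m, SD.mul_g, SD.inv_m, e2, e3, ← e4, mul_one, smul_neg, smul_inv_smul]
  abel

end Crest.Agent.R251
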