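import Crest.Agent.R251.Vq
import Crest.Agent.R251.Alg

/-! R251: realisation of identities among relations by homotopies.

Fix `η` from `exists_hol1 D.dim` (`η (ed e) = of e`), `π = FreeGroup.lift gen`.
`RR p q c`: some homotopy from `p` to `q` has period `c`.  Closure properties: `per_zero` with
`exists_sqr` (`RR.of_eq`); `per_vcat`; `per_vflip`; `per_hcat`, where
`ν.val p = lift (ν ∘ ed) (η p) = m (π (η p))` (`val_loop_eq` for `ν.mono`, and `m.comp π = lift (ν ∘ ed)`),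
`act m M (og g * a) y = m g • act m M a y` (`map_mul`, `act_of`); the cells: `D.sqr`, `vq`, `map_one`,
`map_zero`.
`RW w c := ∃ p, Loop (Sp Z) x₀ p ∧ η p = w ∧ RR p (fun _ => x₀) c`.  By `RR.of_eq` and `RR.trans` any loop
`p` with `η p = w` will do.  `RW.mul`: `RR.hcat`, then `cat const const` to `const` by `RR.of_eq`
(`val_cat`).  `RW.conj`: take a loop `q` with `η q = u` (`exists_loop`, `loop_ed`) and `q'` its reverse;
`RR q q 0`, `RR q' q' 0`; `hcat q (hcat p q')` runs from `cat q (cat p q')` to `cat q (cat const q')`, which has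
`η`-value `1`.  `RW.sub`: `RR.symm`, `RR.trans`.
The set of `c` with `RW 1 c` is a submodule (`add`: `RW.mul`; `neg`: `RW.sub` with `RW 1 0`;
`smul`: `MonoidAlgebra.induction_on`, `RW.conj` with `hgen`).  It contains the three generators; with
`x = of ex`, `t = of et`, `ι = x^3`, `v = t x² t⁻¹`, `X = x^6`, `c = wc x t` in the free group
(`D.botX`, `D.botc` for `ω = η`, `isPath_bot` give `RW X (1,0)`, `RW c (0,1)`; `π X = 1`, `π c = 1`):
`x X x⁻¹ = X`; `(ι c ι⁻¹) * c * (v X v⁻¹) = X`;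
`c * (v c v⁻¹) * (v² c v⁻²) * (t X t⁻¹) = (ι t) X (ι t)⁻¹` (all by `unfold wc; group`). -/

set_option autoImplicit false

namespace Crest.Agent.R251

open Set Metric Topology Crest.Agent.R197

variable {Z : Type} [TopologicalSpace Z] [CWComplex (univ : Set Z)] [T2Space Z] (D : M2 Z)
  {G₀ : Type} [Group G₀] (gen : Cell Z 1 → G₀)

/-- The homotopy `K` has period `c`. -/
def HasPer (K : ℝ × ℝ → Z) (c : MonoidAlgebra ℤ G₀ × MonoidAlgebra ℤ G₀) : Prop :=
  ∀ (H : Type) [Group H] (ν : PF (univ : Set Z) H) (m : G₀ →* H),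
    (∀ e, m (gen e) = ν.val (ed e)) →
    ∀ (M : Type) [AddCommGroup M] [DistribMulAction H M] (θ : Co (Z × H) M 2), Rel ν (Sp Z) θ →
      per ν θ K 1 = act m M c.1 (vq ν θ D.rX) + act m M c.2 (vq ν θ D.rc)

/-- Some homotopy from `p` to `q` has period `c`. -/
def RR (p q : ℝ → Z) (c : MonoidAlgebra ℤ G₀ × MonoidAlgebra ℤ G₀) : Prop :=
  ∃ K, Sqr D.x₀ p q K ∧ HasPer D gen K c

section closure

variable {D gen}

theorem RR.trans {p q r : ℝ → Z} {c c' : MonoidAlgebra ℤ G₀ × MonoidAlgebra ℤ G₀}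
    (h : RR D gen p q c) (h' : RR D gen q r c') : RR D gen p r (c + c') := by
  obtain ⟨K, hK, h1⟩ := h
  obtain ⟨K', hK', h2⟩ := h'
  refine ⟨vcat K K', hK.vcat hK', fun H _ ν m hm M _ _ θ hθ => ?_⟩
  rw [per_vcat hθ (mem_Sp_of_Sk_one D.sk) hK hK', h1 H ν m hm M θ hθ, h2 H ν m hm M θ hθ]
  simp only [Prod.fst_add, Prod.snd_add, map_add, LinearMap.add_apply]
  abel

theorem RR.symm {p q : ℝ → Z} {c : MonoidAlgebra ℤ G₀ × MonoidAlgebra ℤ G₀}
    (h : RR D gen p q c) : RR D gen q p (-c) := by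
  obtain ⟨K, hK, h1⟩ := h
  refine ⟨vflip K, hK.vflip, fun H _ ν m hm M _ _ θ hθ => ?_⟩
  rw [per_vflip hθ (mem_Sp_of_Sk_one D.sk) hK, h1 H ν m hm M θ hθ]
  simp only [Prod.fst_neg, Prod.snd_neg, map_neg, LinearMap.neg_apply]
  abel

variable {η : PF (Sp Z) (FreeGroup (Cell Z 1))} (hη : ∀ i, η.Pot (U1 i) (f1 i))

include hη in
theorem RR.of_eq {p q : ℝ → Z} (hp : Loop (Sp Z) D.x₀ p) (hq : Loop (Sp Z) D.x₀ q)
    (e : η.val p = η.val q) : RR D gen p q 0 := by
  obtain ⟨K, hK, hS⟩ := exists_sqr D.dim D.sk hη hp hq e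
  refine ⟨K, hK, fun H _ ν m _ M _ _ θ hθ => ?_⟩
  rw [per_zero hK.cont hS hθ.zero]
  simp

include hη in
theorem RR.hcat {p q p' q' : ℝ → Z} {c c' : MonoidAlgebra ℤ G₀ × MonoidAlgebra ℤ G₀}
    (h : RR D gen p q c) (h' : RR D gen p' q' c') (hp : Loop (Sp Z) D.x₀ p)
    (hq : Loop (Sp Z) D.x₀ q) (hp' : Loop (Sp Z) D.x₀ p') (hq' : Loop (Sp Z) D.x₀ q') :
    RR D gen (cat p p') (cat q q') (c + og (FreeGroup.lift gen (η.val p)) • c') := by
  obtain ⟨K, hK, h1⟩ := h
  obtain ⟨K', hK', h2⟩ := h'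
  refine ⟨R251.hcat K K', hK.hcat hK', fun H _ ν m hm M _ _ θ hθ => ?_⟩
  have e : ν.val p = m (FreeGroup.lift gen (η.val p)) := by
    have h3 := val_loop_eq D.dim D.sk hη (ν.mono (subset_univ _)) hp
    have h4 : m.comp (FreeGroup.lift gen) = FreeGroup.lift fun e => ν.val (ed e) := by
      ext e; simp [hm]
    rw [PF.mono_val] at h3
    rw [h3, ← MonoidHom.comp_apply, h4]
    rfl
  rw [per_hcat hθ hK hK' hp.path hq.path hp'.path hq'.path, h1 H ν m hm M θ hθ,
    h2 H ν m hm M θ hθ, e]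
  simp only [Prod.fst_add, Prod.snd_add, Prod.smul_fst, Prod.smul_snd, smul_eq_mul, map_add,
    map_mul, LinearMap.add_apply, Module.End.mul_apply, act_of, smul_add]
  abel

variable (D gen η) in
/-- The word `w` is null-homotopic with period `c`. -/
def RW (w : FreeGroup (Cell Z 1)) (c : MonoidAlgebra ℤ G₀ × MonoidAlgebra ℤ G₀) : Prop :=
  ∀ p, Loop (Sp Z) D.x₀ p → η.val p = w → RR D gen p (fun _ => D.x₀) c

include hη in
theorem RW.mk' {p : ℝ → Z} {c : MonoidAlgebra ℤ G₀ × MonoidAlgebra ℤ G₀}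
    (hp : Loop (Sp Z) D.x₀ p) (h : RR D gen p (fun _ => D.x₀) c) : RW D gen η (η.val p) c :=
  fun _ hq e => by simpa using (RR.of_eq hη hq hp e).trans h

variable (hηe : ∀ e, η.val (ed e) = FreeGroup.of e)

include hηe in
theorem exists_rep (w : FreeGroup (Cell Z 1)) : ∃ p, Loop (Sp Z) D.x₀ p ∧ η.val p = w := by
  obtain ⟨p, hp, h⟩ := exists_loop (mem_Sp_of_Sk_one D.sk) (loop_ed D.sk) w
  refine ⟨p, hp, ?_⟩
  have : FreeGroup.lift (fun e => η.val (ed e)) = MonoidHom.id _ := by ext e; simp [hηe]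
  rw [h, this]
  rfl

theorem val_const : η.val (fun _ => D.x₀) = 1 := η.const _ (mem_Sp_of_Sk_one D.sk)

include hη hηe in
theorem RW.mul {w w' : FreeGroup (Cell Z 1)} {c c' : MonoidAlgebra ℤ G₀ × MonoidAlgebra ℤ G₀}
    (h : RW D gen η w c) (h' : RW D gen η w' c') (hw : FreeGroup.lift gen w = 1) :
    RW D gen η (w * w') (c + c') := by
  obtain ⟨p, hp, rfl⟩ := exists_rep (D := D) hηe w
  obtain ⟨q, hq, rfl⟩ := exists_rep (D := D) hηe w'
  have hc := loop_const (mem_Sp_of_Sk_one D.sk)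
  have h1 := (h p hp rfl).hcat hη (h' q hq rfl) hp hc hq hc
  have h2 : RR D gen (cat (fun _ => D.x₀) fun _ => D.x₀) (fun _ => D.x₀) 0 :=
    RR.of_eq hη (hc.cat hc) hc (by rw [val_cat η hc.path hc.path rfl, val_const, mul_one])
  have h3 := RW.mk' hη (hp.cat hq) (h1.trans h2)
  rw [val_cat η hp.path hq.path (hp.one.trans hq.zero.symm), hw, og, map_one, one_smul,
    add_zero] at h3
  exact h3

include hη hηe in
theorem RW.conj {w : FreeGroup (Cell Z 1)} {c : MonoidAlgebra ℤ G₀ × MonoidAlgebra ℤ G₀}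
    (h : RW D gen η w c) (u : FreeGroup (Cell Z 1)) :
    RW D gen η (u * w * u⁻¹) (og (FreeGroup.lift gen u) • c) := by
  obtain ⟨p, hp, rfl⟩ := exists_rep (D := D) hηe w
  obtain ⟨q, hq, rfl⟩ := exists_rep (D := D) hηe u
  obtain ⟨q', hq', e⟩ := exists_rep (D := D) hηe (η.val q)⁻¹
  have hc := loop_const (mem_Sp_of_Sk_one D.sk)
  have h1 := (h p hp rfl).hcat hη (RR.of_eq (gen := gen) hη hq' hq' rfl) hp hc hq' hq'
  have h2 := (RR.of_eq (gen := gen) hη hq hq rfl).hcat hη h1 hq hq (hp.cat hq') (hc.cat hq')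
  have h3 : RR D gen (cat q (cat (fun _ => D.x₀) q')) (fun _ => D.x₀) 0 :=
    RR.of_eq hη (hq.cat (hc.cat hq')) hc (by
      rw [val_cat η hq.path (hc.cat hq').path (hq.one.trans (hc.cat hq').zero.symm),
        val_cat η hc.path hq'.path hq'.zero.symm, val_const, e]
      simp)
  have h4 := RW.mk' hη (hq.cat (hp.cat hq')) (h2.trans h3)
  rw [val_cat η hq.path (hp.cat hq').path (hq.one.trans (hp.cat hq').zero.symm),
    val_cat η hp.path hq'.path (hp.one.trans hq'.zero.symm), e, ← mul_assoc] at h4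
  simpa using h4

include hη hηe in
theorem RW.sub {w : FreeGroup (Cell Z 1)} {c c' : MonoidAlgebra ℤ G₀ × MonoidAlgebra ℤ G₀}
    (h : RW D gen η w c) (h' : RW D gen η w c') : RW D gen η 1 (c - c') := by
  obtain ⟨p, hp, rfl⟩ := exists_rep (D := D) hηe w
  have h1 := RW.mk' hη (loop_const (mem_Sp_of_Sk_one D.sk)) ((h' p hp rfl).symm.trans (h p hp rfl))
  rw [val_const, neg_add_eq_sub] at h1
  exact h1

include hη in
theorem RW.zero : RW D gen η 1 0 := fun _ hp e =>
  RR.of_eq hη hp (loop_const (mem_Sp_of_Sk_one D.sk)) (e.trans val_const.symm)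

include hη in
theorem RW.cell (r : Cell Z 2) {c : MonoidAlgebra ℤ G₀ × MonoidAlgebra ℤ G₀}
    (h : HasPer D gen (cq r) c) : RW D gen η (η.val fun s => cq r (s, 0)) c :=
  RW.mk' hη ⟨isPath_bot r, (D.sqr r).left 0 (left_mem_Icc.2 zero_le_one),
    (D.sqr r).right 0 (left_mem_Icc.2 zero_le_one)⟩ ⟨cq r, D.sqr r, h⟩

/-- The realisable identities form a submodule. -/
def rwSub (hgen : Function.Surjective (FreeGroup.lift gen)) :
    Submodule (MonoidAlgebra ℤ G₀) (MonoidAlgebra ℤ G₀ × MonoidAlgebra ℤ G₀) where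
  carrier := {c | RW D gen η 1 c}
  zero_mem' := RW.zero hη
  add_mem' h h' := by simpa using RW.mul hη hηe h h' (map_one _)
  smul_mem' a c h := by
    have hadd : ∀ {c c'}, RW D gen η 1 c → RW D gen η 1 c' → RW D gen η 1 (c + c') :=
      fun h h' => by simpa using RW.mul hη hηe h h' (map_one _)
    have hneg : ∀ {c}, RW D gen η 1 c → RW D gen η 1 (-c) :=
      fun h => by simpa using RW.sub hη hηe (RW.zero hη) h
    change RW D gen η 1 (a • c)
    induction a using MonoidAlgebra.induction_on with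
    | of g =>
      obtain ⟨u, rfl⟩ := hgen g
      simpa using RW.conj hη hηe h u
    | add f g hf hg => rw [add_smul]; exact hadd hf hg
    | smul n f hf =>
      rw [smul_assoc]
      induction n using Int.induction_on with
      | zero => simpa using RW.zero hη
      | succ n ih => rw [add_smul, one_smul]; exact hadd ih hf
      | pred n ih => rw [sub_smul, one_smul, sub_eq_add_neg]; exact hadd ih (hneg hf)

end closure

theorem exists_K0 (hgen : Function.Surjective (FreeGroup.lift gen)) (hX : gen D.ex ^ 6 = 1)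
    (hc : wc (gen D.ex) (gen D.et) = 1) {s : MonoidAlgebra ℤ G₀ × MonoidAlgebra ℤ G₀}
    (hs : s ∈ Submodule.span (MonoidAlgebra ℤ G₀)
      {sT (gen D.ex), sA (gen D.ex) (gen D.et), sB (gen D.ex) (gen D.et)}) :
    RR D gen (fun _ => D.x₀) (fun _ => D.x₀) s := by
  obtain ⟨η, hη, hηe⟩ := exists_hol1 D.dim
  set x := FreeGroup.of D.ex with hx
  set t := FreeGroup.of D.et with ht
  have px : FreeGroup.lift gen x = gen D.ex := by simp [hx]
  have pt : FreeGroup.lift gen t = gen D.et := by simp [ht]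
  have pc : FreeGroup.lift gen (wc x t) = 1 := by
    rw [← hc]; simp [wc, px, pt]
  have h1 : RW D gen η (x ^ 6) (1, 0) := by
    have := RW.cell (D := D) (gen := gen) hη D.rX (c := (1, 0)) fun H _ ν m _ M _ _ θ _ => by
      simp [vq]
    rwa [D.botX, hηe] at this
  have h2 : RW D gen η (wc x t) (0, 1) := by
    have := RW.cell (D := D) (gen := gen) hη D.rc (c := (0, 1)) fun H _ ν m _ M _ _ θ _ => by
      simp [vq]
    rwa [D.botc, hηe, hηe] at this
  have pconj : ∀ u, FreeGroup.lift gen (u * wc x t * u⁻¹) = 1 := fun u => by simp [pc]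
  have key : s ∈ rwSub (D := D) hη hηe hgen := by
    refine Submodule.span_le.2 ?_ hs
    rintro _ (rfl | rfl | rfl)
    · have h3 := h1.conj hη hηe x
      rw [show x * x ^ 6 * x⁻¹ = x ^ 6 by group, px] at h3
      have h4 := h3.sub hη hηe h1
      change RW D gen η 1 _
      simpa [sT] using h4
    · have h3 := ((h2.conj hη hηe (x ^ 3)).mul hη hηe h2 (pconj _)).mul hη hηe
        (h1.conj hη hηe (t * x ^ 2 * t⁻¹)) (by rw [map_mul, pconj, pc, mul_one])
      rw [show x ^ 3 * wc x t * (x ^ 3)⁻¹ * wc x t *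
        (t * x ^ 2 * t⁻¹ * x ^ 6 * (t * x ^ 2 * t⁻¹)⁻¹) = x ^ 6 by unfold wc; group] at h3
      have h4 := h3.sub hη hηe h1
      change RW D gen η 1 _
      convert h4 using 1
      simp only [sA, map_mul, map_pow, map_inv, px, pt, Prod.smul_mk, mul_zero, smul_eq_mul,
        mul_one, Prod.mk_add_mk, Prod.mk_sub_mk, zero_add, add_zero, sub_zero, add_comm]
    · have h3 := ((h2.mul hη hηe (h2.conj hη hηe (t * x ^ 2 * t⁻¹)) pc).mul hη hηe
        (h2.conj hη hηe ((t * x ^ 2 * t⁻¹) ^ 2)) (by rw [map_mul, pconj, pc, mul_one])).mul hη hηe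
        (h1.conj hη hηe t) (by rw [map_mul, map_mul, pconj, pconj, pc, mul_one, mul_one])
      have h5 := h1.conj hη hηe (x ^ 3 * t)
      rw [show wc x t * (t * x ^ 2 * t⁻¹ * wc x t * (t * x ^ 2 * t⁻¹)⁻¹) *
        ((t * x ^ 2 * t⁻¹) ^ 2 * wc x t * ((t * x ^ 2 * t⁻¹) ^ 2)⁻¹) * (t * x ^ 6 * t⁻¹) =
        x ^ 3 * t * x ^ 6 * (x ^ 3 * t)⁻¹ by unfold wc; rw [sq (t * x ^ 2 * t⁻¹)]; group] at h3
      have h4 := h3.sub hη hηe h5
      change RW D gen η 1 _
      convert h4 using 1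
      simp only [sB, map_mul, map_pow, map_inv, px, pt, Prod.smul_mk, mul_zero, smul_eq_mul,
        mul_one, Prod.mk_add_mk, Prod.mk_sub_mk, zero_add, add_zero, sub_zero]
  exact key _ (loop_const (mem_Sp_of_Sk_one D.sk)) val_const

end Crest.Agent.R251
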