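import Crest.Agent.R251.Sphere
import Crest.Agent.R251.Real

/-! R251: `H³(X; M) = 0` for all `M`, and `H²(X; ψ) = 0`. -/

set_option autoImplicit false

namespace Crest.Agent.R251

open Set Metric Topology Crest.Agent.R197

variable {Z X : Type} [TopologicalSpace Z] [CWComplex (univ : Set Z)] [T2Space Z]
  [TopologicalSpace X] [CWComplex (univ : Set X)] [T2Space X] (D₂ : M2 Z) {K : ℝ × ℝ → Z}
  (hK : Sqr D₂.x₀ (fun _ => D₂.x₀) (fun _ => D₂.x₀) K) (D : M3 Z X (sph D₂.x₀ K))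
  {G₀ : Type} [Group G₀] (gen : Cell Z 1 → G₀) {s : MonoidAlgebra ℤ G₀ × MonoidAlgebra ℤ G₀}
  (hper : HasPer D₂ gen K s) (hs : s.1 + s.2 * lam (gen D₂.ex) (gen D₂.et) = 1)

theorem lift_id {W G : Type} [TopologicalSpace W] [Group G] (C : Set W) :
    Lift (triv W G) C C fun z => (z, (1 : G)) :=
  ⟨continuousOn_id, mapsTo_id _, fun _ _ => by simp [triv, pfbTriv]⟩

theorem Pn_sub (n : ℕ) : Pn n ⊆ ball 0 1 := sdiff_subset

theorem gm_chr_A {H : Type} [Group H] (ν : PF (univ : Set X) H) :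
    GM (triv (Fin 3 → ℝ) H) (Pn 3) ν (A3 X) (chr 3 D.r3) (clab ν D.r3 0) :=
  (gm_chr D.r3 (mem_closedBall_self zero_le_one) (Pn_sub 3)).mono subset_rfl
    ((mapsTo_image _ _).mono_right (D.inter D.r3 ▸ inter_subset_left))

include hK hper hs D in
theorem van3 {H : Type} [Group H] (ν : PF (univ : Set X) H) (m : G₀ →* H)
    (hm : ∀ e, m (gen e) = ν.val fun t => D.j (ed e t)) (M : Type) [AddCommGroup M]
    [DistribMulAction H M] : Van M ν univ 2 := by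
  classical
  intro φ hφ hδ
  have h0 : (0 : Fin 3 → ℝ) ∈ closedBall (0 : Fin 3 → ℝ) 1 := mem_closedBall_self zero_le_one
  obtain ⟨α, hα, h1⟩ : Cobd ν (A3 X) φ :=
    van_of_retract (D.gm_j ν) D.retr (van_univ (n := 2) D₂.dim le_rfl) φ hφ
      (hδ.mono (subset_univ _))
  obtain ⟨β, hβ, h2⟩ := van_cell (μ := ν) D.r3 2 φ hφ (hδ.mono (subset_univ _))
  obtain ⟨g₀, hg₀⟩ := sphere_formula hK D (mem_Sp_of_Sk_one D₂.sk) ν
  set m₀ := oct (pb (chr 3 D.r3) (clab ν D.r3 0) (α - β)) fun z => (z, (1 : H)) with hm₀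
  obtain ⟨θ, hθ, hv⟩ := exists_rel_vq (μ := cmp ν D.j D.cont) D₂.dim fun r =>
    if r = D₂.rX then g₀⁻¹ • m₀ else act m M (lam (gen D₂.ex) (gen D₂.et)) (g₀⁻¹ • m₀)
  have h3 : per (cmp ν D.j D.cont) θ K 1 = g₀⁻¹ • m₀ := by
    rw [hper H _ m hm M θ hθ, hv, hv, if_pos rfl, if_neg D₂.rne.symm, ← Module.End.mul_apply,
      ← map_mul, ← LinearMap.add_apply, ← map_add, hs, map_one, Module.End.one_apply]
  have h4 := hg₀ M θ hθ
  rw [h3, smul_inv_smul] at h4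
  have hθ' : Z0 ν (A3 X) (cob (pb D.r (M3.cr ν) θ)) := Z0.pb (D.gm_r ν) hθ.coc
  have h5 : Z0 ν (A3 X) (φ - cob (α - pb D.r (M3.cr ν) θ)) :=
    (h1.add hθ').of_eq (by rw [cob_sub]; abel)
  have hα' : Eqv (α - pb D.r (M3.cr ν) θ) := hα.sub (hθ.eqv.pb _ _)
  refine mv_cobd D.cov hφ hδ hα' (β := fun _ => β) (fun _ => hβ) h5
    (fun r => by rw [D.all r]; exact h2) fun r => ?_
  rw [D.all r]
  have h6 := mv_diff h5 h2
  rw [D.inter] at h6 ⊢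
  refine cobd_cell D.r3 h0 (Pn_sub 3) (hα'.sub hβ) h6 ?_
  refine cobd_of_oct ((hα'.sub hβ).pb _ _) (Z0.pb (gm_chr D.r3 h0 (Pn_sub 3)) h6) ?_
  have e : α - pb D.r (M3.cr ν) θ - β = (α - β) - pb D.r (M3.cr ν) θ := by abel
  rw [e, pb_sub, oct_sub, h4, ← hm₀, sub_self]

include hK hper hs D in
theorem van2 (ν : PF (univ : Set X) (ZMod 7)ˣ) (m : G₀ →* (ZMod 7)ˣ)
    (hm : ∀ e, m (gen e) = ν.val fun t => D.j (ed e t)) (hx : m (gen D₂.ex) = ζ)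
    (ht : m (gen D₂.et) = 1) (hs2 : act m (ZMod 7) s.2 = 0) : Van (ZMod 7) ν univ 1 := by
  classical
  intro φ hφ hδ
  have h0 : (0 : Fin 3 → ℝ) ∈ closedBall (0 : Fin 3 → ℝ) 1 := mem_closedBall_self zero_le_one
  have hx₀ := mem_Sp_of_Sk_one D₂.sk
  set ν₂ := cmp ν D.j D.cont with hν₂
  obtain ⟨β, hβ, h2⟩ := van_cell (μ := ν) D.r3 1 φ hφ (hδ.mono (subset_univ _))
  have hδA := hδ.mono (subset_univ (A3 X))
  have hφ' : Eqv (pb D.j (fun _ => 1) φ) := hφ.pb _ _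
  have hδ' : Z0 ν₂ univ (cob (pb D.j (fun _ => 1) φ)) := Z0.pb (D.gm_j ν) hδA
  obtain ⟨α', hα', h3⟩ := van_Sp D₂.dim _ hφ' (hδ'.mono (subset_univ _))
  have hθ : Rel ν₂ (Sp Z) (pb D.j (fun _ => 1) φ - cob α') :=
    ⟨hφ'.sub hα'.cob, hδ'.of_eq (by rw [cob_sub, cob_cob, sub_zero]), h3⟩
  obtain ⟨g₀, hg₀⟩ := sphere_formula hK D hx₀ ν
  have h4 : per ν₂ (pb D.j (fun _ => 1) φ - cob α') K 1 = 0 := by
    have h5 := hg₀ _ _ hθ
    have h6 : Cobd ν (A3 X) (pb D.r (M3.cr ν) (pb D.j (fun _ => 1) φ) - φ) :=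
      retract_pb (ci := fun _ => 1) D.retr hφ hδA
    have h7 : Cobd (triv (Fin 3 → ℝ) (ZMod 7)ˣ) (Pn 3) (pb (chr 3 D.r3) (clab ν D.r3 0) φ) :=
      (Cobd.pb (gm_chr D.r3 h0 subset_rfl) ⟨β, hβ, h2⟩).mono (Pn_sub 3)
    have h8 : Cobd (triv (Fin 3 → ℝ) (ZMod 7)ˣ) (Pn 3) (pb (chr 3 D.r3) (clab ν D.r3 0)
        (pb D.r (M3.cr ν) (pb D.j (fun _ => 1) φ - cob α'))) :=
      (((h6.pb (gm_chr_A D₂ D ν)).add h7).sub
        (cobd_cob ((hα'.pb D.r (M3.cr ν)).pb (chr 3 D.r3) (clab ν D.r3 0)))).of_eq (by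
          simp only [pb_sub, pb_cob]; abel)
    rw [oct_cobd (lift_id _) h8] at h5
    exact (smul_eq_zero_iff_eq g₀).1 h5.symm
  have h5 : act m (ZMod 7) s.1 = 1 := by
    have := congrArg (act m (ZMod 7)) hs
    rwa [map_add, map_mul, hs2, zero_mul, add_zero, map_one] at this
  have h6 : vq ν₂ (pb D.j (fun _ => 1) φ - cob α') D₂.rX = 0 := by
    have := hper _ ν₂ m hm _ _ hθ
    rw [h4, h5, hs2] at this
    simpa using this.symm
  set y := vq ν₂ (pb D.j (fun _ => 1) φ - cob α') D₂.rc with hy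
  obtain ⟨β₁, ω, hβ₁, hδ₁, hω, hωe⟩ := exists_edge_cocycle (μ := ν₂) D₂.dim
    fun e => if e = D₂.ex then 0 else 4 * y
  have e1 : ω.val (ed D₂.ex) = ⟨0, ζ⟩ := by
    rw [hωe, if_pos rfl, ← hx, hm]; rfl
  have e2 : ω.val (ed D₂.et) = ⟨4 * y, 1⟩ := by
    rw [hωe, if_neg D₂.ene.symm, ← ht, hm]; rfl
  have hθ₁ : Rel ν₂ (Sp Z) (cob β₁) := ⟨hβ₁.cob, z0_zero.of_eq (cob_cob _), hδ₁⟩
  have h7 : Cobd ν₂ univ (pb D.j (fun _ => 1) φ - cob α' - cob β₁) := by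
    refine cobd_of_vq D₂.dim (hθ.sub hθ₁) fun r => ?_
    rw [vq, per_sub, per_cob hω hx₀ (D₂.sqr r) (isPath_bot r)]
    rcases D₂.rall r with rfl | rfl
    · rw [D₂.botX, e1, fox_X, sub_zero]
      exact h6
    · rw [D₂.botc, e1, e2, fox_c]
      change y - 2 * (4 * y) = 0
      have : (7 : ZMod 7) = 0 := rfl
      linear_combination (-y) * this
  have h8 : Cobd ν₂ univ (pb D.j (fun _ => 1) φ) :=
    ((h7.add (cobd_cob hβ₁)).add (cobd_cob hα')).of_eq (by abel)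
  obtain ⟨α, hα, h1⟩ := cobd_of_retract (D.gm_j ν) D.retr hφ hδA h8
  refine mv_cobd D.cov hφ hδ hα (β := fun _ => β) (fun _ => hβ) h1
    (fun r => by rw [D.all r]; exact h2) fun r => ?_
  rw [D.all r]
  have h9 := mv_diff h1 h2
  rw [D.inter] at h9 ⊢
  exact van_cell_of D.r3 (Pn_sub 3) van_P3_zero _ (hα.sub hβ) h9

end Crest.Agent.R251
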