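import Crest.Agent.R251.Basic
import Crest.Agent.R197.Det1
import Crest.Agent.R197.Label

/-! R251: loops, words, and homotopies of loops in the complement of the centres of the `2`-cells.

`Loop.cat`: continuity on `Icc 0 1 = Icc 0 (1/2) ∪ Icc (1/2) 1` (`ContinuousOn.union_of_isClosed` or
`ContinuousOn.union_continuousAt`; on each half `ContinuousOn.congr`).  `val_cat`: `PF.split` at `1/2`
and `ω.congr`.  `exists_loop`: `FreeGroup.induction_on` (constant loop, `ℓ i`, `PF.rev`, `cat`).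
`Sqr.val_eq`: `ν.sq`, `ν.congr`, `ν.const`.
`joined_Sp`: `isPath_beta`: `beta1 x` runs from a point of `Sk Z 1` (`det1_beta1_vertex`,
`det1_beta1_chr`, `chr_mem_Sk_of_sphere`) to `rad 2 x 1 = beta2 x 0`, and `beta2 x 1 = x` (`rad_zero`);
or directly: `x` is joined to `rad 2 x 1 ∈ Sk Z 2`, which is `x₀` or lies on an edge (`mem_Sk_succ`).
`pathConnected_of_dim2`: a centre `chr 2 r 0` is joined to `chr 2 r d0 ∈ Sp Z`.
`val_loop_eq`: `det1`, `gau_vertex`.
`exists_sqr`: the type `↥(Sp Z)` is path connected (`joined_Sp`, `isPathConnected_iff_pathConnectedSpace`);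
take `D : LbData ↥(Sp Z) (FundamentalGroup _ x) x` (`lb_exists_data (MulEquiv.refl _)`, `x = ⟨x₀, _⟩`) and
`ω = D.pf.comap (Sp Z) F ..` with `F z = if h : z ∈ Sp Z then ⟨z, h⟩ else x` (continuous on `Sp Z`).
By `val_loop_eq`, `ω.val p = ω.val q`; by `LbData.val_eq`, `m_base` and injectivity of `D.cl` the loops
`P, Q : Path x x` given by `F ∘ p`, `F ∘ q` are homotopic; for a homotopy `Φ` put
`K (s, t) = (Φ (projIcc 0 1 _ t, projIcc 0 1 _ s)).1` (compare `lb_val_homotopic`). -/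

set_option autoImplicit false

namespace Crest.Agent.R251

open Set Metric Topology Crest.Agent.R197

section loops

variable {Z : Type} [TopologicalSpace Z] {S : Set Z} {x₀ : Z} {p q : ℝ → Z}

theorem loop_const (h : x₀ ∈ S) : Loop S x₀ fun _ => x₀ :=
  ⟨⟨continuousOn_const, fun _ _ => h⟩, rfl, rfl⟩

theorem Loop.mono (h : Loop S x₀ p) {S' : Set Z} (hS : S ⊆ S') : Loop S' x₀ p :=
  ⟨h.path.mono hS, h.zero, h.one⟩

omit [TopologicalSpace Z] in
theorem loops_cat_left {s : ℝ} (hs : s ≤ 1 / 2) : cat p q s = p (2 * s) := if_pos hs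

omit [TopologicalSpace Z] in
theorem loops_cat_right (h : p 1 = q 0) {s : ℝ} (hs : 1 / 2 ≤ s) : cat p q s = q (2 * s - 1) := by
  rcases hs.eq_or_lt with rfl | hs
  · rw [loops_cat_left le_rfl]
    norm_num [h]
  · exact if_neg (not_le.2 hs)

theorem loops_joined {γ : ℝ → Z} (hγ : IsPath S γ) : JoinedIn S (γ 0) (γ 1) :=
  ⟨lbPa γ hγ.1, fun t => hγ.2 t.2⟩

theorem isPath_cat (hp : IsPath S p) (hq : IsPath S q) (h : p 1 = q 0) : IsPath S (cat p q) := by
  have m1 : MapsTo (fun s : ℝ => 2 * s) (Icc 0 (1 / 2)) (Icc 0 1) :=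
    fun s hs => ⟨by linarith [hs.1], by linarith [hs.2]⟩
  have m2 : MapsTo (fun s : ℝ => 2 * s - 1) (Icc (1 / 2) 1) (Icc 0 1) :=
    fun s hs => ⟨by linarith [hs.1], by linarith [hs.2]⟩
  rw [IsPath, ← Icc_union_Icc_eq_Icc (b := (1 / 2 : ℝ)) (by norm_num) (by norm_num)]
  refine ⟨ContinuousOn.union_of_isClosed ?_ ?_ isClosed_Icc isClosed_Icc, ?_⟩
  · exact (hp.1.comp (by fun_prop) m1).congr fun s hs => loops_cat_left hs.2
  · exact (hq.1.comp (by fun_prop) m2).congr fun s hs => loops_cat_right h hs.1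
  · rintro s (hs | hs)
    · rw [loops_cat_left hs.2]
      exact hp.2 (m1 hs)
    · rw [loops_cat_right h hs.1]
      exact hq.2 (m2 hs)

theorem cat_zero (p q : ℝ → Z) : cat p q 0 = p 0 := by simp [cat]

theorem cat_one (p q : ℝ → Z) : cat p q 1 = q 1 := by norm_num [cat]

theorem Loop.cat (hp : Loop S x₀ p) (hq : Loop S x₀ q) : Loop S x₀ (cat p q) :=
  ⟨isPath_cat hp.path hq.path (hp.one.trans hq.zero.symm), (cat_zero p q).trans hp.zero,
    (cat_one p q).trans hq.one⟩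

theorem val_cat {H : Type} [Group H] (ω : PF S H) (hp : IsPath S p) (hq : IsPath S q)
    (h : p 1 = q 0) : ω.val (cat p q) = ω.val p * ω.val q := by
  rw [ω.split (isPath_cat hp hq h) (a := 1 / 2) ⟨by norm_num, by norm_num⟩]
  congr 1
  · refine ω.congr fun t ht => ?_
    have e : seg (0 : ℝ) (1 / 2) t = t / 2 := by simp [seg]; ring
    simp only [e]
    rw [loops_cat_left (by linarith [ht.2])]
    congr 1
    ring
  · refine ω.congr fun t ht => ?_
    have e : seg (1 / 2 : ℝ) 1 t = (1 + t) / 2 := by simp [seg]; ring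
    simp only [e]
    rw [loops_cat_right h (by linarith [ht.1])]
    congr 1
    ring

theorem Loop.rev (hp : Loop S x₀ p) : Loop S x₀ fun t => p (1 - t) := by
  have m : MapsTo (fun s : ℝ => 1 - s) (Icc 0 1) (Icc 0 1) :=
    fun s hs => ⟨by linarith [hs.2], by linarith [hs.1]⟩
  exact ⟨⟨hp.path.1.comp (by fun_prop) m, hp.path.2.comp m⟩, by simpa using hp.one,
    by simpa using hp.zero⟩

theorem exists_loop (h : x₀ ∈ S) {ι : Type} {ℓ : ι → ℝ → Z} (hℓ : ∀ i, Loop S x₀ (ℓ i))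
    (w : FreeGroup ι) : ∃ p, Loop S x₀ p ∧ ∀ (H : Type) [Group H] (ω : PF S H),
      ω.val p = FreeGroup.lift (fun i => ω.val (ℓ i)) w := by
  induction w using FreeGroup.induction_on with
  | C1 => exact ⟨_, loop_const h, fun H _ ω => by rw [ω.const _ h, map_one]⟩
  | of i => exact ⟨_, hℓ i, fun H _ ω => by rw [FreeGroup.lift_apply_of]⟩
  | inv_of i _ =>
    exact ⟨_, (hℓ i).rev, fun H _ ω => by
      rw [ω.rev (hℓ i).path, map_inv, FreeGroup.lift_apply_of]⟩
  | mul x y hx hy =>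
    obtain ⟨p, hp, ep⟩ := hx
    obtain ⟨q, hq, eq⟩ := hy
    exact ⟨_, hp.cat hq, fun H _ ω => by
      rw [val_cat ω hp.path hq.path (hp.one.trans hq.zero.symm), map_mul, ep, eq]⟩

theorem Sqr.val_eq {K : ℝ × ℝ → Z} (h : Sqr x₀ p q K) (hS : MapsTo K Sq S) {H : Type} [Group H]
    (ν : PF S H) : ν.val p = ν.val q := by
  have h0 : (0 : ℝ) ∈ Icc (0 : ℝ) 1 := left_mem_Icc.2 zero_le_one
  have hx : x₀ ∈ S := h.left 0 h0 ▸ hS (show ((0 : ℝ), (0 : ℝ)) ∈ Sq from ⟨h0, h0⟩)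
  have := ν.sq K h.cont hS
  rwa [ν.congr (γ' := p) h.bot, ν.congr (γ' := q) h.top, ν.congr (γ' := fun _ => x₀) h.left,
    ν.congr (γ' := fun _ => x₀) h.right, ν.const _ hx, mul_one, one_mul] at this

end loops

variable {Z : Type} [TopologicalSpace Z] [CWComplex (univ : Set Z)] [T2Space Z] {x₀ : Z}

theorem mem_Sp_of_Sk_one (hx : Sk Z 1 = {x₀}) : x₀ ∈ Sp Z :=
  Sk_two_subset_Sp (h1_Sk_succ (hx ▸ mem_singleton x₀))

theorem loop_ed (hx : Sk Z 1 = {x₀}) (e : Cell Z 1) : Loop (Sp Z) x₀ (ed e) := by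
  obtain ⟨h1, h2, h3⟩ := isPath_ed e
  rw [hx] at h2 h3
  exact ⟨h1.mono Sk_two_subset_Sp, h2, h3⟩

theorem joined_Sp (h : Dim2 Z) (hx : Sk Z 1 = {x₀}) : ∀ z ∈ Sp Z, JoinedIn (Sp Z) x₀ z := by
  intro z hz
  obtain ⟨h1, h2⟩ := isPath_beta h hz
  have j1 := loops_joined h1
  have j2 := loops_joined h2
  have e2 : beta2 z 1 = z := by simp [beta2, rad_zero]
  have e3 : beta2 z 0 = rad 2 z 1 := by simp [beta2]
  have e : beta1 z 0 = x₀ ∧ beta1 z 1 = rad 2 z 1 := by
    rcases mem_Sk_succ.1 (det1_R_mem h hz) with hv | ⟨e, w, hw, hw'⟩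
    · rw [det1_beta1_vertex hv]
      exact ⟨by rwa [hx] at hv, rfl⟩
    · rw [det1_beta1_chr hw hw'.symm]
      refine ⟨?_, by simpa using hw'⟩
      have : chr 1 e (fun _ => -1) ∈ Sk Z 1 :=
        chr_mem_Sk_of_sphere 1 e (by rw [mem_sphere_zero_iff_norm, det1_norm]; simp)
      rw [hx] at this
      simpa using this
  rw [e.1, e.2] at j1
  rw [e2, e3] at j2
  exact j1.trans j2

theorem pathConnected_of_dim2 (h : Dim2 Z) (hx : Sk Z 1 = {x₀}) : PathConnectedSpace Z := by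
  have key : ∀ z, Joined x₀ z := by
    intro z
    by_cases hz : z ∈ Sp Z
    · exact (joined_Sp h hx z hz).joined
    · obtain ⟨r, rfl⟩ := not_not.1 hz
      have h1 := (joined_Sp h hx _ (mapsTo_chr_punct r isPath_side.1.zero_mem)).joined
      have h2 := (loops_joined ((isPath_seg (convex_closedBall 0 1) (ball_subset_closedBall pfb_d0)
        (mem_closedBall_self zero_le_one)).comp (continuousOn_chr 2 r) (mapsTo_univ _ _))).joined
      simp only [seg_zero, seg_one] at h1 h2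
      exact h1.trans h2
  exact ⟨⟨x₀⟩, fun x y => (key x).symm.trans (key y)⟩

theorem val_loop_eq (h : Dim2 Z) (hx : Sk Z 1 = {x₀}) {η : PF (Sp Z) (FreeGroup (Cell Z 1))}
    (hη : ∀ i, η.Pot (U1 i) (f1 i)) {H : Type} [Group H] (ω : PF (Sp Z) H) {p : ℝ → Z}
    (hp : Loop (Sp Z) x₀ p) : ω.val p = FreeGroup.lift (fun e => ω.val (ed e)) (η.val p) := by
  have h1 : gau ω x₀ = 1 := gau_vertex ω (hx ▸ mem_singleton x₀) (mem_Sp_of_Sk_one hx)
  rw [det1 h η hη ω hp.path, hp.zero, hp.one, h1, inv_one, one_mul, mul_one]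

theorem exists_sqr (h : Dim2 Z) (hx : Sk Z 1 = {x₀}) {η : PF (Sp Z) (FreeGroup (Cell Z 1))}
    (hη : ∀ i, η.Pot (U1 i) (f1 i)) {p q : ℝ → Z} (hp : Loop (Sp Z) x₀ p) (hq : Loop (Sp Z) x₀ q)
    (e : η.val p = η.val q) : ∃ K, Sqr x₀ p q K ∧ MapsTo K Sq (Sp Z) := by
  classical
  have hx₀ := mem_Sp_of_Sk_one hx
  have : PathConnectedSpace ↥(Sp Z) :=
    isPathConnected_iff_pathConnectedSpace.1 ⟨x₀, hx₀, fun z hz => joined_Sp h hx z hz⟩
  let x : ↥(Sp Z) := ⟨x₀, hx₀⟩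
  obtain ⟨D⟩ := lb_exists_data (MulEquiv.refl (FundamentalGroup ↥(Sp Z) x)) x
  let F : Z → ↥(Sp Z) := fun z => if h : z ∈ Sp Z then ⟨z, h⟩ else x
  have hF : ∀ z (hz : z ∈ Sp Z), F z = ⟨z, hz⟩ := fun z hz => dif_pos hz
  have hFc : ContinuousOn F (Sp Z) := by
    rw [continuousOn_iff_continuous_restrict]
    exact continuous_id.congr fun z => (hF z.1 z.2).symm
  let ω := D.pf.comap (Sp Z) F hFc (mapsTo_univ _ _)
  let pa : ∀ {p : ℝ → Z}, Loop (Sp Z) x₀ p → Path x x := fun {p} hp =>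
    { toFun := fun t => ⟨p t, hp.path.2 t.2⟩
      continuous_toFun := Continuous.subtype_mk hp.path.1.domRestrict _
      source' := Subtype.ext hp.zero
      target' := Subtype.ext hp.one }
  have hv : ∀ {p : ℝ → Z} (hp : Loop (Sp Z) x₀ p),
      ω.val p = D.cl (Path.Homotopic.Quotient.mk (pa hp)) := fun {p} hp =>
    (D.val_eq (pa hp) fun t => hF _ (hp.path.2 t.2)).trans (D.m_base _)
  have h1 : ω.val p = ω.val q := by rw [val_loop_eq h hx hη ω hp, val_loop_eq h hx hη ω hq, e]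
  rw [hv hp, hv hq] at h1
  obtain ⟨Φ⟩ := Path.Homotopic.Quotient.eq.1 (D.cl.injective h1)
  have e0 : projIcc (0 : ℝ) 1 zero_le_one 0 = 0 := projIcc_left _
  have e1 : projIcc (0 : ℝ) 1 zero_le_one 1 = 1 := projIcc_right _
  refine ⟨fun z => (Φ (projIcc 0 1 zero_le_one z.2, projIcc 0 1 zero_le_one z.1)).1,
    ⟨?_, fun s hs => ?_, fun s hs => ?_, fun t _ => ?_, fun t _ => ?_⟩, fun z _ => Subtype.prop _⟩
  · exact Continuous.continuousOn (continuous_subtype_val.comp (Φ.continuous.comp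
      ((continuous_projIcc.comp continuous_snd).prodMk (continuous_projIcc.comp continuous_fst))))
  · simp only [e0, projIcc_of_mem _ hs]
    exact congrArg Subtype.val (Φ.apply_zero _)
  · simp only [e1, projIcc_of_mem _ hs]
    exact congrArg Subtype.val (Φ.apply_one _)
  · simp only [e0, Φ.source]
    rfl
  · simp only [e1, Φ.target]
    rfl

end Crest.Agent.R251
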