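import Crest.Agent.R251.Small

/-! R251: Mayer–Vietoris arguments for a cover of `S` by `A` and pairwise disjoint sets `B i`.

`exists_glue`: `γ τ = if range (fst ∘ τ) ⊆ A then α τ else if h : ∃ i, range (fst ∘ τ) ⊆ B i then
β h.choose τ else 0`.  It is equivariant (`tl g τ` has the same first component).  A good simplex over
`B i` is either over `A ∩ B i` (`Lift.of_maps`), where `α = β i`, or the chosen index is `i`
(disjointness, the simplex contains `τ (v0 k)`).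
`mv_glue`: `φ - cob γ` is a cocycle (`cob_sub`, `cob_cob`) and vanishes over `A` and over each `B i`
(`Z0.cob` applied to `γ - α`, `γ - β i`); apply `small` with the cover `Option.elim · A B` (or
`Sum.elim`), and take `γ + χ`.  `mv_cobd`: choose `ε i` with `α - β i = cob (ε i)` over `A ∩ B i`, replace
`β i` by `β i + cob (ε i)`.  `mv_ext`: glue `a`, `b` to `γ`; `cob γ` is a cocycle that vanishes over
`A` and the `B i`; `small` gives `χ`; take `θ = γ - χ`. -/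

set_option autoImplicit false

namespace Crest.Agent.R251

open Set Metric Topology Crest.Agent.R197

variable {Z : Type} [TopologicalSpace Z] {G : Type} [Group G] {μ : PF (univ : Set Z) G}
  {M : Type} [AddCommGroup M] [DistribMulAction G M]

/-- `A` and the pairwise disjoint sets `B i` form a relatively open cover of `S`. -/
structure Cov (S A : Set Z) {ι : Type} (B : ι → Set Z) : Prop where
  subA : A ⊆ S
  subB : ∀ i, B i ⊆ S
  nhds : ∀ z ∈ S, A ∈ 𝓝[S] z ∨ ∃ i, B i ∈ 𝓝[S] z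
  disj : ∀ i j, ∀ z ∈ B i, z ∈ B j → i = j

variable {S A : Set Z} {ι : Type} {B : ι → Set Z} {k : ℕ}

theorem exists_glue (hdisj : ∀ i j, ∀ z ∈ B i, z ∈ B j → i = j) {α : Co (Z × G) M k}
    {β : ι → Co (Z × G) M k} (hα : Eqv α) (hβ : ∀ i, Eqv (β i))
    (h : ∀ i, Z0 μ (A ∩ B i) (α - β i)) :
    ∃ γ : Co (Z × G) M k, Eqv γ ∧ Z0 μ A (γ - α) ∧ ∀ i, Z0 μ (B i) (γ - β i) := by
  classical
  refine ⟨fun τ => if ∀ x, (τ x).1 ∈ A then α τ else
    if h : ∃ i, ∀ x, (τ x).1 ∈ B i then β h.choose τ else 0, fun g τ => ?_, fun τ hτ => ?_,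
    fun i τ hτ => ?_⟩
  · change (if ∀ x, (τ x).1 ∈ A then α (tl g τ) else
      if h : ∃ i, ∀ x, (τ x).1 ∈ B i then β h.choose (tl g τ) else 0) = _
    dsimp only
    split_ifs
    · exact hα g τ
    · exact hβ _ g τ
    · exact (smul_zero g).symm
  · rw [Pi.sub_apply, if_pos fun x => hτ.maps (mem_univ x), sub_self]
  · rw [Pi.sub_apply]
    split_ifs with h1 h2
    · exact h i τ (hτ.of_maps fun x _ => ⟨h1 x, hτ.maps (mem_univ x)⟩)
    · rw [hdisj _ i _ (h2.choose_spec (v0 k)) (hτ.maps (mem_univ _)), sub_self]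
    · exact (h2 ⟨i, fun x => hτ.maps (mem_univ x)⟩).elim

theorem mv_small (hc : Cov S A B) {φ : Co (Z × G) M (k + 1)} (hφ : Eqv φ) (hδ : Z0 μ S (cob φ))
    (h1 : Z0 μ A φ) (h2 : ∀ i, Z0 μ (B i) φ) :
    ∃ χ : Co (Z × G) M k, Eqv χ ∧ Z0 μ S (φ - cob χ) ∧ Z0 μ A χ ∧ ∀ i, Z0 μ (B i) χ := by
  obtain ⟨χ, a1, a2, a3⟩ := small (U := fun o : Option ι => o.elim A B)
    (fun z hz => (hc.nhds z hz).elim (fun h => ⟨none, h⟩) fun ⟨i, h⟩ => ⟨some i, h⟩) hφ hδ
    (fun o => by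
      cases o with
      | none => exact h1.mono inter_subset_right
      | some i => exact (h2 i).mono inter_subset_right)
  exact ⟨χ, a1, a2, (a3 none).mono (subset_inter hc.subA Subset.rfl),
    fun i => (a3 (some i)).mono (subset_inter (hc.subB i) Subset.rfl)⟩

theorem mv_glue (hc : Cov S A B) {φ : Co (Z × G) M (k + 1)} (hφ : Eqv φ) (hδ : Z0 μ S (cob φ))
    {α : Co (Z × G) M k} {β : ι → Co (Z × G) M k} (hα : Eqv α) (hβ : ∀ i, Eqv (β i))
    (h1 : Z0 μ A (φ - cob α)) (h2 : ∀ i, Z0 μ (B i) (φ - cob (β i)))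
    (h3 : ∀ i, Z0 μ (A ∩ B i) (α - β i)) : Cobd μ S φ := by
  obtain ⟨γ, g1, g2, g3⟩ := exists_glue hc.disj hα hβ h3
  obtain ⟨χ, a1, a2, -⟩ := mv_small hc (hφ.sub g1.cob)
    (hδ.of_eq (by rw [cob_sub, cob_cob, sub_zero]))
    ((h1.sub g2.cob).of_eq (by rw [cob_sub]; abel))
    fun i => ((h2 i).sub (g3 i).cob).of_eq (by rw [cob_sub]; abel)
  exact ⟨γ + χ, g1.add a1, a2.of_eq (by rw [cob_add]; abel)⟩

theorem mv_cobd (hc : Cov S A B) {φ : Co (Z × G) M (k + 2)} (hφ : Eqv φ) (hδ : Z0 μ S (cob φ))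
    {α : Co (Z × G) M (k + 1)} {β : ι → Co (Z × G) M (k + 1)} (hα : Eqv α) (hβ : ∀ i, Eqv (β i))
    (h1 : Z0 μ A (φ - cob α)) (h2 : ∀ i, Z0 μ (B i) (φ - cob (β i)))
    (h3 : ∀ i, Cobd μ (A ∩ B i) (α - β i)) : Cobd μ S φ := by
  choose ε e1 e2 using h3
  exact mv_glue hc hφ hδ hα (β := fun i => β i + cob (ε i)) (fun i => (hβ i).add (e1 i).cob) h1
    (fun i => (h2 i).of_eq (by rw [cob_add, cob_cob, add_zero]))
    fun i => (e2 i).of_eq (by abel)

theorem mv_ext (hc : Cov S A B) {a : Co (Z × G) M k} {b : ι → Co (Z × G) M k} (ha : Eqv a)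
    (hb : ∀ i, Eqv (b i)) (h1 : Z0 μ A (cob a)) (h2 : ∀ i, Z0 μ (B i) (cob (b i)))
    (h3 : ∀ i, Z0 μ (A ∩ B i) (a - b i)) :
    ∃ θ : Co (Z × G) M k, Eqv θ ∧ Z0 μ S (cob θ) ∧ Z0 μ A (θ - a) ∧ ∀ i, Z0 μ (B i) (θ - b i) := by
  obtain ⟨γ, g1, g2, g3⟩ := exists_glue hc.disj ha hb h3
  obtain ⟨χ, a1, a2, a3, a4⟩ := mv_small (μ := μ) hc g1.cob (by rw [cob_cob]; exact z0_zero)
    ((h1.add g2.cob).of_eq (by rw [cob_sub]; abel))
    fun i => ((h2 i).add (g3 i).cob).of_eq (by rw [cob_sub]; abel)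
  exact ⟨γ - χ, g1.sub a1, a2.of_eq (cob_sub _ _), (g2.sub a3).of_eq (by abel),
    fun i => ((g3 i).sub (a4 i)).of_eq (by abel)⟩

/-- The difference of two primitives is a cocycle on the overlap. -/
theorem mv_diff {φ : Co (Z × G) M (k + 1)} {α β : Co (Z × G) M k} {A B : Set Z}
    (h1 : Z0 μ A (φ - cob α)) (h2 : Z0 μ B (φ - cob β)) : Z0 μ (A ∩ B) (cob (α - β)) :=
  ((h2.mono inter_subset_right).sub (h1.mono inter_subset_left)).of_eq (by rw [cob_sub]; abel)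

/-- Vanishing from vanishing on the pieces. -/
theorem mv_van (hc : Cov S A B) (hA : Van M μ A (k + 1)) (hB : ∀ i, Van M μ (B i) (k + 1))
    (hAB : ∀ i, Van M μ (A ∩ B i) k) : Van M μ S (k + 1) := by
  intro φ hφ hδ
  obtain ⟨α, hα, h1⟩ := hA φ hφ (hδ.mono hc.subA)
  choose β hβ h2 using fun i => hB i φ hφ (hδ.mono (hc.subB i))
  exact mv_cobd hc hφ hδ hα hβ h1 h2 fun i => hAB i _ (hα.sub (hβ i)) (mv_diff h1 (h2 i))

/-- The same when the overlaps are empty (any degree). -/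
theorem mv_van_empty (hc : Cov S A B) (hA : Van M μ A k) (hB : ∀ i, Van M μ (B i) k)
    (hAB : ∀ i, A ∩ B i = ∅) : Van M μ S k := by
  intro φ hφ hδ
  obtain ⟨α, hα, h1⟩ := hA φ hφ (hδ.mono hc.subA)
  choose β hβ h2 using fun i => hB i φ hφ (hδ.mono (hc.subB i))
  exact mv_glue hc hφ hδ hα hβ h1 h2 fun i => by rw [hAB i]; exact z0_empty _

end Crest.Agent.R251
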