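import Crest.Agent.R251.Cover
import Crest.Agent.R251.Loops

/-! R251: the covering space of a universal path function is simply connected.

`joined_lift`: for a path `γ` (`IsPath univ γ`) the map `t ↦ lft μ γ.. ` is a continuous path in `Tot A`:
take `K : unitInterval → Tot A`, `K t = lft μ γ 0 g t` (`lift_lft (convex_Icc 0 1)`, `Lift.comp` with the
inclusion, `continuous_of_lift`; `unitInterval` is locally path connected by
`(convex_Icc 0 1).locallyPathConnectedSpace`); its end points are `(γ 0, g)` (`lft_base`) and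
`(γ 1, g * μ.val γ)` (`pfb_seg01`).
`pathConnected_tot`: join `(x₀, 1)` to `(x₀, g)` by `hsurj`, and `(x₀, g * (μ γ)⁻¹)` to `(z, g)` along a path
`γ` from `x₀` to `z`.
`simplyConnected_tot`: by `simply_connected_iff_loops_nullhomotopic` (after changing the base point:
in a path connected space it suffices to treat loops at `e₀ = (x₀, 1)`; e.g. use
`FundamentalGroup.fundamentalGroupMulEquivOfPathConnected` and `Subsingleton`, or conjugate by a path
and use `Path.Homotopic.Quotient` cancellation).  For a loop `c` at `e₀`, `γ = prj ∘ c.extend` is a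
loop at `x₀` with `μ.val γ = 1` (`lift_of_continuousOn`), so by `huniv` applied to `D.pf` for
`D : LbData Z (FundamentalGroup Z x₀) x₀` (`lb_exists_data (MulEquiv.refl _)`; `LbData.val_eq`, `m_base`,
`cl_refl`, injectivity of `cl`) the loop `c.map prj` is null-homotopic, and
`IsCoveringMap.injective_path_homotopic_map` lifts this. -/

set_option autoImplicit false

namespace Crest.Agent.R251

open Set Metric Topology Crest.Agent.R197

variable {Z : Type} [TopologicalSpace Z] {G : Type} [Group G] {μ : PF (univ : Set Z) G}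
  (A : Atlas μ)

theorem joined_lift {γ : ℝ → Z} (hγ : IsPath univ γ) (g : G) :
    Joined (X := Tot A) ((γ 0, g) : Z × G) ((γ 1, g * μ.val γ) : Z × G) := by
  have hl : Lift μ univ (Icc (0 : ℝ) 1) (lft μ γ 0 g) :=
    lift_lft (convex_Icc 0 1) hγ.1 (mapsTo_univ _ _) (left_mem_Icc.2 zero_le_one) g
  have hl' : Lift μ univ (univ : Set unitInterval) fun t => lft μ γ 0 g (t : ℝ) :=
    hl.comp continuous_subtype_val.continuousOn fun t _ => t.2
  have : LocallyPathConnectedSpace unitInterval := (convex_Icc (0 : ℝ) 1).locallyPathConnectedSpace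
  have hc : Continuous (show unitInterval → Tot A from fun t => lft μ γ 0 g (t : ℝ)) :=
    continuous_of_lift A hl'
  refine ⟨⟨⟨_, hc⟩, ?_, ?_⟩⟩
  · exact lft_base 0 g
  · show lft μ γ 0 g 1 = _
    simp only [lft, pfb_seg01]

theorem pathConnected_tot [PathConnectedSpace Z] {x₀ : Z}
    (hsurj : ∀ g, ∃ γ, Loop univ x₀ γ ∧ μ.val γ = g) : PathConnectedSpace (Tot A) := by
  have h1 : ∀ g : G, Joined (X := Tot A) ((x₀, 1) : Z × G) ((x₀, g) : Z × G) := by
    intro g
    obtain ⟨γ, hγ, rfl⟩ := hsurj g
    have := joined_lift A hγ.path 1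
    rwa [hγ.zero, hγ.one, one_mul] at this
  have h2 : ∀ e : Tot A, Joined (X := Tot A) ((x₀, 1) : Z × G) e := by
    rintro ⟨z, g⟩
    obtain ⟨p⟩ := PathConnectedSpace.joined x₀ z
    have := joined_lift A (lb_isPath p) (g * (μ.val p.extend)⁻¹)
    rw [p.extend_zero, p.extend_one, inv_mul_cancel_right] at this
    exact (h1 _).trans this
  exact ⟨⟨((x₀, 1) : Z × G)⟩, fun e e' => (h2 e).symm.trans (h2 e')⟩

theorem simplyConnected_tot [PathConnectedSpace Z] {x₀ : Z}
    (hsurj : ∀ g, ∃ γ, Loop univ x₀ γ ∧ μ.val γ = g)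
    (huniv : ∀ γ, Loop univ x₀ γ → μ.val γ = 1 →
      ∀ (H : Type) [Group H] (ν : PF (univ : Set Z) H), ν.val γ = 1) :
    SimplyConnectedSpace (Tot A) := by
  have hpc := pathConnected_tot A hsurj
  let e₀ : Tot A := ((x₀, 1) : Z × G)
  have hcov := isCoveringMap_prj A
  have key : ∀ c : Path e₀ e₀, Path.Homotopic.Quotient.mk c = Path.Homotopic.Quotient.refl e₀ := by
    intro c
    have hl := lift_of_continuousOn A (C := Icc (0 : ℝ) 1) c.continuous_extend.continuousOn
    have hid : IsPath (Icc (0 : ℝ) 1) fun t : ℝ => t := ⟨continuousOn_id, mapsTo_id _⟩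
    have hv := hl.val _ hid
    simp only [Path.extend_zero, Path.extend_one, inv_mul_cancel] at hv
    have hloop : Loop univ x₀ fun t => (c.extend t).1 :=
      ⟨⟨hl.cont, mapsTo_univ _ _⟩, by rw [c.extend_zero], by rw [c.extend_one]⟩
    obtain ⟨D⟩ := lb_exists_data (x₀ := x₀) (MulEquiv.refl (FundamentalGroup Z x₀))
    have h1 : D.val (fun t => (c.extend t).1) = 1 := huniv _ hloop hv _ D.pf
    let q : Path x₀ x₀ := c.map hcov.continuous
    rw [D.val_eq q (fun t => by rw [c.extend_extends']; rfl), D.m_base, ← D.cl_refl] at h1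
    have h2 := D.cl.injective h1
    apply hcov.injective_path_homotopic_map e₀ e₀
    exact h2
  rw [simply_connected_iff_loops_nullhomotopic]
  refine ⟨hpc, fun e c => ?_⟩
  obtain ⟨r⟩ := PathConnectedSpace.joined e₀ e
  have h1 := key (r.trans (c.trans r.symm))
  rw [Path.Homotopic.Quotient.mk_trans, Path.Homotopic.Quotient.mk_trans,
    Path.Homotopic.Quotient.mk_symm] at h1
  have h2 := congrArg (fun q : Path.Homotopic.Quotient e₀ e₀ =>
    (Path.Homotopic.Quotient.mk r).symm.trans (q.trans (Path.Homotopic.Quotient.mk r))) h1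
  simp only [Path.Homotopic.Quotient.trans_assoc, Path.Homotopic.Quotient.symm_trans,
    Path.Homotopic.Quotient.trans_refl, Path.Homotopic.Quotient.refl_trans] at h2
  rw [← Path.Homotopic.Quotient.trans_assoc, Path.Homotopic.Quotient.symm_trans,
    Path.Homotopic.Quotient.refl_trans] at h2
  exact Path.Homotopic.Quotient.eq.1 h2

end Crest.Agent.R251
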