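import Crest.Agent.R251.Cover

/-! R251: comparison with Mathlib's singular simplices.

Let `E = Tot A` and `u n = (TopCat.of E).toSSetObjEquiv (op ⦋n⦌) : SingSimplex E n ≃ C(Δ n, E)`.  Then
`u (simplexFace i σ) = u σ ∘ face i` and `u (simplexTranslate g σ) = g ∘ u σ` hold by `rfl`
(compare `Crest/Agent/R123/Chains.lean`).  For `φ : SingSimplex E n → M` let
`ofS φ τ = if h : Continuous (τ : Δ n → E) then φ ((u n).symm ⟨τ, h⟩) else 0`; for `β : Co (Z × G) M n` let
`toS β σ = β (u σ)`.  `cochainCobdry (toS β) = toS (cob β)` (`rfl`), `toS (ofS φ) = φ`, and on good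
(= continuous, `continuous_iff_good`) simplices `cob (ofS φ) = ofS (cochainCobdry φ)`.
`deck_van`: let `G` act on `M` through `toDeck A` (`DistribMulAction.compHom`); `tl g τ = g • τ`, and `τ`
is continuous iff `g • τ` is, so `ofS φ` is equivariant; conversely `toS β` is deck equivariant by
`toDeck_surjective`.
`plain_van`: use the coinduced module `CoInd G N = G → N` (a type synonym) with
`(g • m) h = m (h * g)`; for `φ` put `Φ τ h = ofS φ (tl h τ)`, so `Φ (tl g τ) h = Φ τ (h * g)`; `Φ` is an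
equivariant cocycle; from `Φ = cob B` evaluate at `h = 1`: `ψ = toS (fun τ => B τ 1)`.
`homology_zero`: `C = ((singularChainComplexFunctor (ModuleCat ℤ)).obj (ModuleCat.of ℤ ℤ)).obj (TopCat.of E)`.
It suffices to show `C.ExactAt (k+1)` (`HomologicalComplex.exactAt_iff_isZero_homology`,
`HomologicalComplex.exactAt_iff' _ (k+2) (k+1) k`, `ShortComplex.moduleCat_exact_iff`).  Let
`N = C.X (k+1) ⧸ range (C.d (k+2) (k+1)).hom`, `φ σ = mk (ι σ 1)` with `ι σ = ιChainComplex σ`.  Then
`cochainCobdry φ = 0` (`SSet.ιChainComplex_d`).  From `φ = cochainCobdry ψ` build `B : C.X k ⟶ of ℤ N`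
(`isColimitChainComplexXCofan .. |>.desc`, components `LinearMap.toSpanSingleton ℤ N (ψ σ)`), and
`C.d (k+1) k ≫ B = ofHom (mkQ _)` (`SSet.chainComplex_hom_ext`).  So a cycle has `mk z = 0`. -/

set_option autoImplicit false

namespace Crest.Agent.R251

open Set Metric Topology Crest.Agent.R197 Crest.GeometryTopology.DeckCochains

variable {Z : Type} [TopologicalSpace Z] {G : Type} [Group G] {μ : PF (univ : Set Z) G}
  (A : Atlas μ)

/-- Singular simplices as continuous maps. -/
noncomputable def singU {E : Type} [TopologicalSpace E] (n : ℕ) : SingSimplex E n ≃ C(Δ n, E) :=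
  (TopCat.of E).toSSetObjEquiv (Opposite.op (SimplexCategory.mk n))

theorem sing_ext {E : Type} [TopologicalSpace E] {n : ℕ} {σ σ' : SingSimplex E n}
    (h : ∀ x, singU n σ x = singU n σ' x) : σ = σ' :=
  (singU n).injective (ContinuousMap.ext h)

theorem sing_core {k : ℕ} {M : Type} [AddCommGroup M] [DistribMulAction G M]
    (h : Van M μ univ k) (φ : SingSimplex (Tot A) (k + 1) → M)
    (h1 : ∀ (g : G) σ, φ (simplexTranslate (toDeck A g : Tot A ≃ₜ Tot A) σ) = g • φ σ)
    (h2 : cochainCobdry φ = 0) : ∃ ψ : SingSimplex (Tot A) k → M,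
      (∀ (g : G) σ, ψ (simplexTranslate (toDeck A g : Tot A ≃ₜ Tot A) σ) = g • ψ σ) ∧
        cochainCobdry ψ = φ := by
  classical
  let Φ : (Δ (k + 1) → Tot A) → M := fun τ =>
    if h : Continuous τ then φ ((singU _).symm ⟨τ, h⟩) else 0
  have hΦ : ∀ σ, Φ (singU _ σ) = φ σ := fun σ =>
    (dif_pos (singU _ σ).2).trans (congrArg φ ((singU _).symm_apply_apply σ))
  refine (h Φ (fun g (τ : Δ (k + 1) → Tot A) => ?_) fun (τ : Δ (k + 1 + 1) → Tot A) hτ => ?_).elim fun β H =>
    ⟨fun σ => β (singU _ σ), fun g σ => H.1 g _, funext fun σ => (sub_eq_zero.1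
      (H.2 _ ((continuous_iff_good A _).1 (singU _ σ).2))).symm.trans (hΦ σ)⟩
  · by_cases hτ : Continuous τ
    · obtain ⟨σ, hσ⟩ := (singU (E := Tot A) _).surjective ⟨τ, hτ⟩
      obtain rfl : singU _ σ = τ := congrArg DFunLike.coe hσ
      exact (hΦ (simplexTranslate (toDeck A g : Tot A ≃ₜ Tot A) σ)).trans
        ((h1 g σ).trans (congrArg _ (hΦ σ).symm))
    · refine (dif_neg fun h' => hτ ((continuous_const_smul_iff (α := Tot A) g).1 h')).trans ?_
      rw [show Φ τ = 0 from dif_neg hτ, smul_zero]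
  · obtain ⟨σ, hσ⟩ := (singU (E := Tot A) _).surjective ⟨τ, (continuous_iff_good A _).2 hτ⟩
    obtain rfl : singU _ σ = τ := congrArg DFunLike.coe hσ
    exact (Finset.sum_congr rfl fun i _ => congrArg _ (hΦ (simplexFace i σ))).trans (congrFun h2 σ)

theorem deck_van [ConnectedSpace (Tot A)] {k : ℕ}
    (h : ∀ (M : Type) [AddCommGroup M] [DistribMulAction G M], Van M μ univ k)
    (M : Type) [AddCommGroup M] [DistribMulAction (deckGroup (prj A)) M] :
    DeckCohomologyVanishes (prj A) M k := by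
  intro φ h1 h2
  let : DistribMulAction G M := DistribMulAction.compHom M (toDeck A)
  obtain ⟨ψ, h3, h4⟩ := sing_core A (h M) φ (fun g σ => h1 (toDeck A g) σ) h2
  refine ⟨ψ, fun g σ => ?_, h4⟩
  obtain ⟨g, rfl⟩ := toDeck_surjective A g
  exact h3 g σ

theorem plain_van {k : ℕ}
    (h : ∀ (M : Type) [AddCommGroup M] [DistribMulAction G M], Van M μ univ k)
    (N : Type) [AddCommGroup N] (φ : SingSimplex (Tot A) (k + 1) → N) (hφ : cochainCobdry φ = 0) :
    ∃ ψ : SingSimplex (Tot A) k → N, cochainCobdry ψ = φ := by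
  let : DistribMulAction G (G → N) :=
    { smul := fun g m a => m (a * g)
      one_smul := fun m => funext fun a => congrArg m (mul_one a)
      mul_smul := fun g g' m => funext fun a => congrArg m (mul_assoc a g g').symm
      smul_zero := fun _ => rfl
      smul_add := fun _ _ _ => rfl }
  obtain ⟨ψ, -, h4⟩ := sing_core A (h (G → N))
    (fun σ a => φ (simplexTranslate (toDeck A a : Tot A ≃ₜ Tot A) σ))
    (fun g σ => funext fun a => congrArg φ (sing_ext fun x => (mul_smul a g (singU _ σ x)).symm))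
    (funext fun σ => funext fun a => by
      refine Eq.trans ?_ (congrFun hφ (simplexTranslate (toDeck A a : Tot A ≃ₜ Tot A) σ))
      rw [cochainCobdry, Finset.sum_apply]
      rfl)
  refine ⟨fun σ => ψ σ 1, funext fun σ => ?_⟩
  have h5 := congrFun (congrFun h4 σ) 1
  rw [cochainCobdry, Finset.sum_apply] at h5
  exact h5.trans (congrArg φ (sing_ext fun x => one_smul G (singU _ σ x)))

open CategoryTheory CategoryTheory.Limits in
theorem homology_zero (E : Type) [TopologicalSpace E] (k : ℕ)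
    (h : ∀ (N : Type) [AddCommGroup N] (φ : SingSimplex E (k + 1) → N), cochainCobdry φ = 0 →
      ∃ ψ : SingSimplex E k → N, cochainCobdry ψ = φ) :
    CategoryTheory.Limits.IsZero
      (((AlgebraicTopology.singularHomologyFunctor (ModuleCat.{0} ℤ) (k + 1)).obj
        (ModuleCat.of ℤ ℤ)).obj (TopCat.of E)) := by
  let S := TopCat.toSSet.obj (TopCat.of E)
  let C := S.chainComplex (ModuleCat.of ℤ ℤ)
  refine (C.exactAt_iff_isZero_homology (k + 1)).1 ((C.exactAt_iff' (k + 2) (k + 1) k
    (by simp) (by simp)).2 ((ShortComplex.exact_iff_kernel_ι_comp_cokernel_π_zero _).2 ?_))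
  change kernel.ι (C.d (k + 1) k) ≫ cokernel.π (C.d (k + 2) (k + 1)) = 0
  obtain ⟨ψ, hψ⟩ := h (ModuleCat.of ℤ ℤ ⟶ cokernel (C.d (k + 2) (k + 1)))
    (fun σ => S.ιChainComplex σ ≫ cokernel.π _) (funext fun σ => by
      have h1 := S.ιChainComplex_d (ModuleCat.of ℤ ℤ) σ =≫ cokernel.π (C.d (k + 2) (k + 1))
      rw [Category.assoc, cokernel.condition, comp_zero, Preadditive.sum_comp] at h1
      simp only [Preadditive.zsmul_comp] at h1
      exact h1.symm)
  obtain ⟨B, hB⟩ : ∃ B : C.X k ⟶ cokernel (C.d (k + 2) (k + 1)),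
      ∀ σ, S.ιChainComplex σ ≫ B = ψ σ :=
    ⟨_, fun σ => (S.isColimitChainComplexXCofan (ModuleCat.of ℤ ℤ) k).fac (Cofan.mk _ ψ) ⟨σ⟩⟩
  have h2 : C.d (k + 1) k ≫ B = cokernel.π _ := by
    refine SSet.chainComplex_hom_ext fun σ => Eq.trans ?_ (congrFun hψ σ)
    rw [← Category.assoc, S.ιChainComplex_d, Preadditive.sum_comp]
    exact Finset.sum_congr rfl fun i _ => (Preadditive.zsmul_comp _ _ _).trans (congrArg _ (hB _))
  rw [← h2, kernel.condition_assoc, zero_comp]

end Crest.Agent.R251
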