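import Crest.Agent.R251.Tower2

/-! R251, the tower argument, part 3 (after Howie).

`exists_fin`: `Subgroup.closure_induction` on `normalClosure = closure (conjugatesOfSet _)`
(`Group.mem_conjugatesOfSet_iff`, `isConj_iff`), taking unions of finite sets.
`tower_step`: induction on `N`, for all `Ω`, `v₀`.  Let `Fc = P.image fun p => (p.1⁻¹ • v₀, p.2)`.  By
`count_low` (`chn_mem'`, `bdy_chn`, `hψ`, `h2`), `card Vx + card Fc ≤ card Ed`, so the hypothesis of
`count_up` fails: there is `α` vanishing on the faces that is not a coboundary on `Ed`.  Pass to `Cv α`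
with base point `x₀ = (v₀, 0)`.  For `p ∈ P`, `(w p.2)⁻¹` fixes `p.1⁻¹ • x₀` (`cv_smul`), so every
`p.1 * w p.2 * p.1⁻¹` lies in `MulAction.stabilizer _ x₀`, hence so does `u ^ n`; as `u • v₀ = v₀`,
`u • (v₀, c) = (v₀, c + a)` with `a = itg 1 α u⁻¹ v₀`, so `u ^ n • x₀ = (v₀, n * a)` and `a = 0`.  Independence
by `cover_indep` and `LinearIndepOn.mono`; the number of vertices grows (`cover_card`) and is at most
`card Vt` (`Finset.card_image_le`).
`tower`: `Ω = PUnit` with the trivial action; independence: if `∑ z φ • chn ψ (w φ.2) φ.1 = 0`, apply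
`linearCombination k (fun p => a p.1)` with `a` from `hsurj (Pi.single r₀ 1)` (`itg_map`, `itg_SD`).
Apply `exists_closed` to the finite set containing `u`, all `p.1` and all `p.1 * w p.2`. -/

set_option autoImplicit false

namespace Crest.Agent.R251

open Crest.Agent.R197 Finsupp

variable {E R : Type} (w : R → FreeGroup E)

theorem exists_fin {g : FreeGroup E} (hg : g ∈ Subgroup.normalClosure (Set.range w)) :
    ∃ P : Finset (FreeGroup E × R),
      g ∈ Subgroup.closure ((fun p : FreeGroup E × R => p.1 * w p.2 * p.1⁻¹) '' P) := by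
  classical
  unfold Subgroup.normalClosure at hg
  induction hg using Subgroup.closure_induction with
  | mem x hx =>
    obtain ⟨_, ⟨r, rfl⟩, hc⟩ := Group.mem_conjugatesOfSet_iff.1 hx
    obtain ⟨c, rfl⟩ := isConj_iff.1 hc
    exact ⟨{(c, r)}, Subgroup.subset_closure ⟨(c, r), by simp, rfl⟩⟩
  | one => exact ⟨∅, one_mem _⟩
  | mul x y _ _ hx hy =>
    obtain ⟨P, hP⟩ := hx
    obtain ⟨Q, hQ⟩ := hy
    exact ⟨P ∪ Q, mul_mem (Subgroup.closure_mono (Set.image_mono (by simp)) hP)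
      (Subgroup.closure_mono (Set.image_mono (by simp)) hQ)⟩
  | inv x _ hx =>
    obtain ⟨P, hP⟩ := hx
    exact ⟨P, inv_mem hP⟩

variable {k : Type} [Field k]

theorem tower_step (ψ : FreeGroup E →* kˣ) (hψ : ∀ r, ψ (w r) = 1) {u : FreeGroup E}
    (hu : ψ u ≠ 1) {n : ℕ} (hn : 0 < n) (P : Finset (FreeGroup E × R))
    (hP : u ^ n ∈ Subgroup.closure ((fun p : FreeGroup E × R => p.1 * w p.2 * p.1⁻¹) '' P))
    {Vt : Finset (FreeGroup E)} {T : Finset (E × FreeGroup E)} (hc : Closed Vt T) (huV : u ∈ Vt)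
    (hPV : ∀ p ∈ P, p.1 ∈ Vt ∧ p.1 * w p.2 ∈ Vt) (N : ℕ) :
    ∀ (Ω : Type) [MulAction (FreeGroup E) Ω] (v₀ : Ω), u • v₀ = v₀ →
      (∀ p ∈ P, (w p.2)⁻¹ • p.1⁻¹ • v₀ = p.1⁻¹ • v₀) →
      LinearIndepOn k (fun φ : Ω × R => chn ψ (w φ.2) φ.1)
        ((fun p : FreeGroup E × R => (p.1⁻¹ • v₀, p.2)) '' P) →
      Vt.card < (Vx Vt v₀).card + N → False := by
  classical
  induction N with
  | zero =>
    intro Ω _ v₀ _ _ _ hcard
    have : (Vx Vt v₀).card ≤ Vt.card := by
      unfold Vx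
      convert Finset.card_image_le
    omega
  | succ N ih =>
    intro Ω _ v₀ h1 h2 hi hcard
    set Fc : Finset (Ω × R) := P.image fun p => (p.1⁻¹ • v₀, p.2) with hFc
    have hlow := count_low ψ hc huV h1 hu Fc (fun φ : Ω × R => chn ψ (w φ.2) φ.1)
      (fun j hj => by
        obtain ⟨p, hp, rfl⟩ := Finset.mem_image.1 hj
        refine ⟨chn_mem' ψ hc (hPV p hp).1 (hPV p hp).2, ?_⟩
        rw [bdy_chn, hψ, h2 p hp]
        simp)
      (by rw [hFc, Finset.coe_image]; exact hi)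
    have hno : ¬∀ α : E × Ω → ℚ,
        (∀ j ∈ Fc, itg (1 : FreeGroup E →* ℚˣ) α (w j.2) j.1 = 0) →
        ∃ y : Ω → ℚ, ∀ p ∈ Ed T v₀, α p = y ((FreeGroup.of p.1)⁻¹ • p.2) - y p.2 := fun H => by
      have := count_up hc Fc (fun φ : Ω × R => w φ.2) (fun φ => φ.1) H
      omega
    rw [not_forall] at hno
    obtain ⟨α, hα⟩ := hno
    rw [Classical.not_imp] at hα
    obtain ⟨hα0, hα1⟩ := hα
    let x₀ : Cv α := (v₀, 0)
    have h2' : ∀ p ∈ P, (w p.2)⁻¹ • p.1⁻¹ • x₀ = p.1⁻¹ • x₀ := fun p hp => by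
      have e := hα0 (p.1⁻¹ • v₀, p.2) (Finset.mem_image.2 ⟨p, hp, rfl⟩)
      rw [cv_smul α (w p.2)⁻¹, inv_inv]
      refine Prod.ext (h2 p hp) ?_
      change (p.1⁻¹ • x₀).2 + itg (1 : FreeGroup E →* ℚˣ) α (w p.2) (p.1⁻¹ • v₀) = (p.1⁻¹ • x₀).2
      rw [e, add_zero]
    have hst : u ^ n ∈ MulAction.stabilizer (FreeGroup E) x₀ := by
      refine (Subgroup.closure_le _).2 ?_ hP
      rintro _ ⟨p, hp, rfl⟩
      have e := h2' p hp
      rw [inv_smul_eq_iff] at e
      change (p.1 * w p.2 * p.1⁻¹) • x₀ = x₀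
      rw [mul_smul, mul_smul, ← e, smul_inv_smul]
    have hpow : ∀ m : ℕ, u ^ m • x₀ =
        ((v₀, (m : ℚ) * itg (1 : FreeGroup E →* ℚˣ) α u⁻¹ v₀) : Ω × ℚ) := fun m => by
      induction m with
      | zero =>
        rw [pow_zero, one_smul]
        exact Prod.ext rfl (by simp [x₀])
      | succ m ihm =>
        rw [pow_succ', mul_smul, ihm, cv_smul]
        refine Prod.ext h1 ?_
        change (m : ℚ) * itg (1 : FreeGroup E →* ℚˣ) α u⁻¹ v₀ +
          itg (1 : FreeGroup E →* ℚˣ) α u⁻¹ v₀ = ((m + 1 : ℕ) : ℚ) * _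
        push_cast
        ring
    have ha : itg (1 : FreeGroup E →* ℚˣ) α u⁻¹ v₀ = 0 := by
      have e : u ^ n • x₀ = x₀ := hst
      rw [hpow] at e
      have e2 : (n : ℚ) * itg (1 : FreeGroup E →* ℚˣ) α u⁻¹ v₀ = 0 := congrArg Prod.snd e
      rcases mul_eq_zero.1 e2 with h | h
      · exact absurd h (by exact_mod_cast hn.ne')
      · exact h
    have h1' : u • x₀ = x₀ := by
      have e := hpow 1
      rw [pow_one, ha, mul_zero] at e
      exact e
    refine ih (Cv α) x₀ h1' h2' ?_ ?_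
    · refine (cover_indep ψ α w (P.finite_toSet.image _) hi).mono ?_
      rintro _ ⟨p, hp, rfl⟩
      exact ⟨p, hp, rfl⟩
    · have := cover_card α hc v₀ hα1
      change (Vx Vt v₀).card < (Vx Vt x₀).card at this
      omega

theorem tower (ψ : E → kˣ) (hψ : ∀ r, FreeGroup.lift ψ (w r) = 1)
    (hsurj : ∀ v : R → k, ∃ a : E → k, ∀ r,
      (FreeGroup.lift (fun e => (⟨a e, ψ e⟩ : SD kˣ k)) (w r)).m = v r)
    {u : FreeGroup E} {n : ℕ} (hn : 0 < n) (hu : u ^ n ∈ Subgroup.normalClosure (Set.range w)) :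
    FreeGroup.lift ψ u = 1 := by
  classical
  by_contra hne
  obtain ⟨P, hP⟩ := exists_fin w hu
  obtain ⟨Vt, T, hc, hs⟩ := exists_closed
    (insert u (P.image Prod.fst ∪ P.image fun p => p.1 * w p.2))
  refine tower_step w (FreeGroup.lift ψ) hψ hne hn P hP hc (hs (Finset.mem_insert_self _ _))
    (fun p hp => ⟨hs (Finset.mem_insert_of_mem (Finset.mem_union_left _
      (Finset.mem_image_of_mem _ hp))), hs (Finset.mem_insert_of_mem (Finset.mem_union_right _
      (Finset.mem_image_of_mem _ hp)))⟩) (Vt.card + 1) PUnit PUnit.unit rfl (fun _ _ => rfl) ?_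
    (by omega)
  refine LinearIndependent.linearIndepOn ?_ _
  choose a ha using fun r₀ : R => hsurj (Pi.single r₀ 1)
  have key : ∀ (r₀ r : R) (v : PUnit),
      linearCombination k (fun p : E × PUnit => a r₀ p.1) (chn (FreeGroup.lift ψ) (w r) v) =
        (Pi.single r₀ (1 : k) : R → k) r := fun r₀ r v => by
    rw [chn, itg_map]
    simp only [linearCombination_single, one_smul]
    rw [itg_SD, ← ha r₀ r]
    simp only [FreeGroup.lift_apply_of]
  refine LinearIndependent.of_pairwise_dual_eq_zero_one _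
    (fun φ => linearCombination k (fun p : E × PUnit => a φ.2 p.1)) (fun i j hij => ?_)
    (fun i => ?_)
  · beta_reduce
    rw [key, Pi.single_eq_of_ne]
    exact fun h => hij (Prod.ext rfl h.symm)
  · rw [key, Pi.single_eq_same]

end Crest.Agent.R251
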