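import Crest.Agent.R251.Dim2
import Crest.Agent.R251.Tower3
import Crest.Agent.R251.Alg
import Crest.Agent.R251.Loops
import Crest.Agent.R197.Hol2

/-! R251: no two-dimensional complex is homotopy equivalent to `X`. -/

set_option autoImplicit false

namespace Crest.Agent.R251

open Set Metric Topology Crest.Agent.R197

/-- A homotopy from the identity, as a map on `Z × ℝ`. -/
theorem exists_hty {Z : Type} [TopologicalSpace Z] {f : C(Z, Z)}
    (h : f.Homotopic (ContinuousMap.id Z)) :
    ∃ H : Z × ℝ → Z, Continuous H ∧ (∀ z, H (z, 0) = z) ∧ ∀ z, H (z, 1) = f z := by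
  obtain ⟨F⟩ := h.symm
  refine ⟨fun p => F (projIcc 0 1 zero_le_one p.2, p.1),
    F.continuous.comp ((continuous_projIcc.comp continuous_snd).prodMk continuous_fst),
    fun z => ?_, fun z => ?_⟩
  · simp only [projIcc_left]
    exact F.apply_zero z
  · simp only [projIcc_right]
    exact F.apply_one z

theorem retr_of_hty {Z Z' : Type} [TopologicalSpace Z] [TopologicalSpace Z'] {i : Z' → Z}
    {r : Z → Z'} (hr : Continuous r) {H : Z × ℝ → Z} (hH : Continuous H) (h0 : ∀ z, H (z, 0) = z)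
    (h1 : ∀ z, H (z, 1) = i (r z)) : Retr univ univ i r H :=
  ⟨hr.continuousOn, mapsTo_univ _ _, hH.continuousOn, mapsTo_univ _ _, fun z _ => h0 z,
    fun z _ => h1 z⟩

theorem no_dim2 {X Y : Type} [TopologicalSpace X] [TopologicalSpace Y] [CWComplex (univ : Set Y)]
    [T2Space Y] (hY : Dim2 Y) (e : ContinuousMap.HomotopyEquiv X Y) {x₀ : X} {lx lt : ℝ → X}
    (hlx : Loop univ x₀ lx) (hlt : Loop univ x₀ lt) (νX : PF (univ : Set X) (ZMod 7)ˣ)
    (hx : νX.val lx = ζ) (ht : νX.val lt = 1)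
    (h6 : ∀ (H : Type) [Group H] (ν : PF (univ : Set X) H), ν.val lx ^ 6 = 1)
    (hvan : ∀ ν : PF (univ : Set X) (ZMod 7)ˣ, ν.val lx = ζ → ν.val lt = 1 →
      Van (ZMod 7) ν univ 1) : False := by
  have : Fact (Nat.Prime 7) := ⟨by norm_num⟩
  obtain ⟨HX, hHX, hX0, hX1⟩ := exists_hty e.left_inv
  obtain ⟨HY, hHY, hY0, hY1⟩ := exists_hty e.right_inv
  have hf : Continuous e.toFun := e.toFun.continuous
  have hg : Continuous e.invFun := e.invFun.continuous
  set νY := cmp νX e.invFun hg with hνY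
  set ν' := cmp νY e.toFun hf with hν'
  have hloop : ∀ l, Loop univ x₀ l → ν'.val l = νX.val l := by
    intro l hl
    have h1 := (gm_retract (gm_cmp (μ := νX) (S := univ) hg (mapsTo_univ _ univ))
      (retr_of_hty hf hHX hX0 hX1)).val l hl.path
    have h2 : ν'.val l = (cmp νX e.invFun hg).val fun t => e.toFun (l t) := rfl
    rw [h2, h1, hl.zero, hl.one, mul_right_comm, inv_mul_cancel, one_mul]
  have hv : Van (ZMod 7) νY univ 1 :=
    van_of_retract (gm_cmp (μ := νY) (S := univ) hf (mapsTo_univ _ univ))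
      (retr_of_hty hg hHY hY0 hY1) (hvan ν' ((hloop _ hlx).trans hx) ((hloop _ hlt).trans ht))
  obtain ⟨η, hη, -⟩ := exists_hol1 hY
  obtain ⟨η₂, -, h2⟩ := exists_hol2 hY η hη
  obtain ⟨m, b, hm, -, hγ⟩ := h2 _ νY
  have hp : IsPath univ fun t => e.toFun (lx t) :=
    hlx.path.comp hf.continuousOn (mapsTo_univ _ _)
  obtain ⟨u, hu⟩ := QuotientGroup.mk_surjective (η₂.val fun t => e.toFun (lx t))
  have h3 := tower (fun r : Cell Y 2 => loopVal η (chr 2 r)) (fun e => νY.val (ed e))
    (fun r => by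
      rw [← hm, (QuotientGroup.eq_one_iff _).2 (Subgroup.subset_normalClosure (mem_range_self r)),
        map_one])
    (fox_surj hY η hη hv) (u := u) (n := 6) (by norm_num) (by
      rw [← QuotientGroup.eq_one_iff, QuotientGroup.mk_pow, hu]
      exact h6 _ (cmp η₂ e.toFun hf))
  have h4 := hγ _ hp
  simp only [hlx.zero, hlx.one] at h4
  rw [← hu, hm, h3, mul_one, inv_mul_cancel] at h4
  exact ζ_ne_one (hx.symm.trans ((hloop _ hlx).symm.trans h4))

end Crest.Agent.R251
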