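import Crest.Agent.R251.H3
import Crest.Agent.R251.Transfer
import Crest.Agent.R251.SC
import Crest.Agent.R251.Sing

/-! R251: assembly. -/

set_option autoImplicit false

namespace Crest.Agent.R251

open Set Metric Topology Crest.Agent.R197 Crest.GeometryTopology.DeckCochains

theorem map_wc {H H' : Type} [Group H] [Group H'] (f : H →* H') (x t : H) :
    f (wc x t) = wc (f x) (f t) := by
  simp [wc]

theorem wc_comm {H : Type} [CommGroup H] (x t : H) : wc x t = 1 := by
  unfold wc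
  rw [mul_right_comm, mul_inv_cancel_right, mul_inv_cancel]

section group

variable {Z : Type} [TopologicalSpace Z] [CWComplex (univ : Set Z)] [T2Space Z] (D : M2 Z)

/-- The relations hold for every path function on the whole complex. -/
theorem M2.rel {H : Type} [Group H] (ν : PF (univ : Set Z) H) :
    ν.val (ed D.ex) ^ 6 = 1 ∧ wc (ν.val (ed D.ex)) (ν.val (ed D.et)) = 1 := by
  have h : ∀ r, ν.val (fun s => cq r (s, 0)) = 1 := fun r =>
    ((D.sqr r).val_eq (mapsTo_univ _ _) ν).trans (ν.const _ (mem_univ _))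
  exact ⟨(D.botX H (ν.mono (subset_univ _))).symm.trans (h _),
    (D.botc H (ν.mono (subset_univ _))).symm.trans (h _)⟩

/-- Characters of the fundamental group. -/
theorem M2.exists_char {η : PF (Sp Z) (FreeGroup (Cell Z 1))}
    (hηe : ∀ e, η.val (ed e) = FreeGroup.of e) {H : Type} [CommGroup H] (x t : H)
    (hx : x ^ 6 = 1) :
    ∃ m : FreeGroup (Cell Z 1) ⧸
        Subgroup.normalClosure (range fun r : Cell Z 2 => loopVal η (chr 2 r)) →* H,
      m (QuotientGroup.mk (FreeGroup.of D.ex)) = x ∧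
        m (QuotientGroup.mk (FreeGroup.of D.et)) = t := by
  classical
  let l : FreeGroup (Cell Z 1) →* H := FreeGroup.lift fun e => if e = D.ex then x else t
  have h1 : l (FreeGroup.of D.ex) = x := by simp [l]
  have h2 : l (FreeGroup.of D.et) = t := by simp [l, D.ene.symm]
  refine ⟨QuotientGroup.lift _ l ?_, h1, h2⟩
  refine Subgroup.normalClosure_le_normal (N := l.ker) ?_
  rintro _ ⟨r, rfl⟩
  obtain ⟨b, hb⟩ := loopVal_conj (D.sqr r) η
  have h3 : l (η.val fun s => cq r (s, 0)) = 1 := by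
    rcases D.rall r with rfl | rfl
    · rw [D.botX, hηe, map_pow, h1, hx]
    · rw [D.botc, map_wc, wc_comm]
  simp [hb, h3]

end group

theorem main :
    ∃ (X : Type) (_ : TopologicalSpace X) (_ : T2Space X) (_ : ConnectedSpace X)
      (_ : Topology.CWComplex (Set.univ : Set X)),
      Topology.RelCWComplex.Finite (Set.univ : Set X) ∧
      (∀ m : ℕ, 3 < m → IsEmpty (Topology.RelCWComplex.cell (Set.univ : Set X) m)) ∧
      (∃ (E : Type) (_ : TopologicalSpace E) (p : E → X),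
        IsCoveringMap p ∧ Function.Surjective p ∧ SimplyConnectedSpace E ∧
        (∀ i : ℕ, 2 < i → CategoryTheory.Limits.IsZero
          (((AlgebraicTopology.singularHomologyFunctor (ModuleCat.{0} ℤ) i).obj
            (ModuleCat.of ℤ ℤ)).obj (TopCat.of E))) ∧
        (∀ (M : Type) [AddCommGroup M] [DistribMulAction (deckGroup p) M],
          DeckCohomologyVanishes p M 2) ∧
        Infinite (deckGroup p)) ∧
      ∀ (Y : Type) (_ : TopologicalSpace Y) (_ : T2Space Y)
        (_ : Topology.CWComplex (Set.univ : Set Y)),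
        Topology.RelCWComplex.Finite (Set.univ : Set Y) →
        (∀ m : ℕ, 2 < m → IsEmpty (Topology.RelCWComplex.cell (Set.univ : Set Y) m)) →
        IsEmpty (ContinuousMap.HomotopyEquiv X Y) := by
  classical
  obtain ⟨Z, _, _, _, hfin, ⟨D₂⟩⟩ := exists_M2
  have hx₀ := mem_Sp_of_Sk_one D₂.sk
  obtain ⟨η, hη, hηe⟩ := exists_hol1 D₂.dim
  obtain ⟨μ₂, h1, h2⟩ := exists_hol2 D₂.dim η hη
  set N := Subgroup.normalClosure (range fun r : Cell Z 2 => loopVal η (chr 2 r)) with hN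
  let gen : Cell Z 1 → FreeGroup (Cell Z 1) ⧸ N := fun e => QuotientGroup.mk (FreeGroup.of e)
  have hgen' : ∀ e, gen e = μ₂.val (ed e) := fun e => by
    rw [h1 _ (loop_ed D₂.sk e).path, hηe]
  have hlift : ∀ u, FreeGroup.lift gen u = QuotientGroup.mk u := fun u => by
    have : FreeGroup.lift gen = QuotientGroup.mk' N := by ext e; simp [gen]
    rw [this]; rfl
  have hgen : Function.Surjective (FreeGroup.lift gen) := fun g => by
    obtain ⟨u, rfl⟩ := QuotientGroup.mk_surjective g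
    exact ⟨u, hlift u⟩
  have hX : gen D₂.ex ^ 6 = 1 := by rw [hgen']; exact (D₂.rel μ₂).1
  have hc : wc (gen D₂.ex) (gen D₂.et) = 1 := by rw [hgen', hgen']; exact (D₂.rel μ₂).2
  obtain ⟨s, hsp, hs⟩ := exists_s hX hc
  obtain ⟨K, hK, hper⟩ := exists_K0 D₂ gen hgen hX hc hsp
  obtain ⟨X, _, _, hfinX, ⟨D⟩⟩ := exists_M3 Z hfin D₂.dim (sph D₂.x₀ K)
    ((continuousOn_sph hK).mono fun z hz h0 => by
      rw [mem_singleton_iff.1 h0] at hz
      simp at hz)
  obtain ⟨A₂⟩ := atlas_dim2 D₂.dim μ₂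
  obtain ⟨μ, ⟨A⟩, hμ⟩ := D.exists_mu3 μ₂ A₂
  have hZ := pathConnected_of_dim2 D₂.dim D₂.sk
  have hXc := D.pathConnected
  have hj : ∀ {p : ℝ → Z}, Loop (Sp Z) D₂.x₀ p → Loop univ (D.j D₂.x₀) fun t => D.j (p t) :=
    fun hp => ⟨hp.path.comp D.cont.continuousOn (mapsTo_univ _ _), by rw [hp.zero],
      by rw [hp.one]⟩
  have hμe : ∀ e, gen e = μ.val fun t => D.j (ed e t) := fun e => by
    rw [hμ _ ((loop_ed D₂.sk e).path.mono (subset_univ _)), hgen']
  have hsurj : ∀ g, ∃ γ, Loop univ (D.j D₂.x₀) γ ∧ μ.val γ = g := by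
    intro g
    obtain ⟨u, rfl⟩ := hgen g
    obtain ⟨p, hp, hv⟩ := exists_loop (mem_univ (D.j D₂.x₀)) (fun e => hj (loop_ed D₂.sk e)) u
    refine ⟨p, hp, ?_⟩
    rw [hv]
    congr 2
    funext e
    exact (hμe e).symm
  have huniv : ∀ γ, Loop univ (D.j D₂.x₀) γ → μ.val γ = 1 →
      ∀ (H : Type) [Group H] (ν : PF (univ : Set X) H), ν.val γ = 1 := by
    intro γ hγ h0 H _ ν
    obtain ⟨m, b, -, -, h3⟩ := h2 H (cmp ν D.j D.cont)
    obtain ⟨b', hb'⟩ := D.mu3_univ μ ν m b fun δ hδ => by rw [hμ δ hδ]; exact h3 δ hδ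
    rw [hb' γ hγ.path, h0, hγ.zero, hγ.one]
    simp
  have hsc := simplyConnected_tot A hsurj huniv
  have hvan : ∀ k, 2 ≤ k → ∀ (M : Type) [AddCommGroup M]
      [DistribMulAction (FreeGroup (Cell Z 1) ⧸ N) M], Van M μ univ k := by
    intro k hk M _ _
    rcases hk.eq_or_lt with rfl | hk
    · exact van3 D₂ hK D gen hper hs μ (MonoidHom.id _) hμe M
    · exact van_univ (n := 3) D.top hk
  refine ⟨X, inferInstance, inferInstance, inferInstance, inferInstance, hfinX, D.top,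
    ⟨Tot A, inferInstance, prj A, isCoveringMap_prj A, surjective_prj A, hsc, fun i hi => ?_,
      fun M _ _ => deck_van A (hvan 2 le_rfl) M, ?_⟩, fun Y _ _ _ _ hY => ⟨fun e => ?_⟩⟩
  · obtain ⟨k, rfl⟩ : ∃ k, i = k + 1 := ⟨i - 1, by omega⟩
    exact homology_zero _ k (plain_van A (hvan k (by omega)))
  · obtain ⟨m, -, hm⟩ := D₂.exists_char hηe (1 : Multiplicative ℤ) (Multiplicative.ofAdd 1)
      (one_pow 6)
    have : Infinite (FreeGroup (Cell Z 1) ⧸ N) := Infinite.of_surjective m fun n =>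
      ⟨QuotientGroup.mk (FreeGroup.of D₂.et) ^ n.toAdd, by
        rw [map_zpow, hm, ← ofAdd_zsmul, smul_eq_mul, mul_one, ofAdd_toAdd]⟩
    exact Infinite.of_injective _ (toDeck_injective A)
  · obtain ⟨ψ, hψx, hψt⟩ := D₂.exists_char hηe ζ 1 ζ_pow
    refine no_dim2 hY e (hj (loop_ed D₂.sk D₂.ex)) (hj (loop_ed D₂.sk D₂.et)) (μ.map ψ)
      (by rw [PF.map_val, ← hμe]; exact hψx) (by rw [PF.map_val, ← hμe]; exact hψt)
      (fun H _ ν => (D₂.rel (cmp ν D.j D.cont)).1) fun ν hx ht => ?_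
    refine van2 D₂ hK D gen hper hs ν ψ (fun e => ?_) hψx hψt (act_snd ψ hψx hψt hsp)
    rcases D₂.eall e with rfl | rfl
    · exact hψx.trans hx.symm
    · exact hψt.trans ht.symm

end Crest.Agent.R251
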