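import Crest.Agent.R251.Attach
import Crest.Agent.R197.CWRad

/-! R251: finite CW structures from characteristic maps, and attaching cells to a finite complex.

`exists_cw'`: copy the proof of `R177.CWQuotAux.exists_cw` / `continuousOn_inv`
(`Crest/Agent/R177/CWQuot/Abstract.lean`) with `ContinuousOn _ (closedBall 0 1)` in place of
`Continuous` (`IsCompact.image_of_continuousOn`); for `CWComplex.mkFinite` the type `Cell X n` is
`cell n` by definition, so `e n = Equiv.refl _` and the last clause is `rfl`.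
`exists_cw_point`: `X = PUnit`, `cell n = PLift (n = 0)` (or `{_u : Unit // n = 0}`), constant maps.
`exists_attach_cw`: take `K', j, Φ` from `exists_attach` and apply `exists_cw'` with
`cell m = Cell K m ⊕ (ι × PLift (m = n))`, `Φ' m (inl c) = j ∘ chr m c`,
`Φ' m (inr (i, h)) z = Φ i (fun k => z (Fin.cast h.down.symm k))` (after `subst` this is `Φ i`).  Every
point of `K` lies in an open cell of dimension `< n` (`CWComplex.iUnion_openCell_eq_complex`, `hK`;
`cwrad_mem_Sk`), open cells of `K` are disjoint (`cwrad_sigma_eq`), boundaries: `chr_mem_Sk_of_sphere`.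
Finiteness of `Cell K m`: `RelCWComplex.FiniteType.finite_cell` (`RelCWComplex.Finite.toFiniteType`).
The equivalences: `Cell K n` is empty, and `ι × PLift (m = n)` is empty for `m < n`
(`Equiv.emptySum`, `Equiv.sumEmpty`, `Equiv.prodUnique`; or `Equiv.ofBijective`). -/

set_option autoImplicit false

namespace Crest.Agent.R251

open Set Metric Topology Crest.Agent.R197

private theorem mkcw_inv {X : Type} [TopologicalSpace X] [T2Space X] {n : ℕ}
    (Φ : (Fin n → ℝ) → X) (hc : ContinuousOn Φ (closedBall 0 1)) (hi : InjOn Φ (ball 0 1))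
    (hd : ∀ x ∈ ball (0 : Fin n → ℝ) 1, ∀ y ∈ sphere (0 : Fin n → ℝ) 1, Φ x ≠ Φ y) :
    ContinuousOn (hi.toPartialEquiv Φ (ball 0 1)).symm (hi.toPartialEquiv Φ (ball 0 1)).target := by
  set e := hi.toPartialEquiv Φ (ball 0 1) with he
  have hs : e.source = ball 0 1 := rfl
  have ht : e.target = Φ '' ball 0 1 := rfl
  have hf : ∀ x, e x = Φ x := fun _ => rfl
  rw [continuousOn_iff_isClosed]
  intro t htc
  refine ⟨Φ '' (t ∩ closedBall 0 1), ?_, ?_⟩
  · exact (((isCompact_closedBall (0 : Fin n → ℝ) 1).inter_left htc).image_of_continuousOn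
      (hc.mono inter_subset_right)).isClosed
  · ext z
    simp only [mem_inter_iff, mem_preimage]
    constructor
    · rintro ⟨h1, h2⟩
      refine ⟨⟨e.symm z, ⟨h1, ?_⟩, ?_⟩, h2⟩
      · exact ball_subset_closedBall (hs ▸ e.map_target h2)
      · rw [← hf]; exact e.right_inv h2
    · rintro ⟨⟨x, ⟨hx1, hx2⟩, rfl⟩, h2⟩
      refine ⟨?_, h2⟩
      have hxb : x ∈ ball (0 : Fin n → ℝ) 1 := by
        by_contra hxb
        have hxs : x ∈ sphere (0 : Fin n → ℝ) 1 := by
          rw [mem_sphere]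
          rw [mem_closedBall] at hx2
          rw [mem_ball, not_lt] at hxb
          exact le_antisymm hx2 hxb
        rw [ht] at h2
        obtain ⟨y, hy, hyx⟩ := h2
        exact hd y hy x hxs hyx
      have : e.symm (Φ x) = x := by
        rw [← hf]; exact e.left_inv (hs ▸ hxb)
      rw [this]; exact hx1

theorem exists_cw' {X : Type} [TopologicalSpace X] [T2Space X] (cell : ℕ → Type) (d : ℕ)
    (Φ : ∀ n, cell n → (Fin n → ℝ) → X)
    (hemp : ∀ n, d < n → IsEmpty (cell n)) (hfin : ∀ n, Finite (cell n))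
    (hc : ∀ n i, ContinuousOn (Φ n i) (closedBall 0 1))
    (hi : ∀ n i, InjOn (Φ n i) (ball 0 1))
    (hdisj : ∀ n i m j, ∀ x ∈ ball (0 : Fin n → ℝ) 1, ∀ y ∈ ball (0 : Fin m → ℝ) 1,
      Φ n i x = Φ m j y → (⟨n, i⟩ : Σ n, cell n) = ⟨m, j⟩)
    (hb : ∀ n i, ∀ x ∈ sphere (0 : Fin n → ℝ) 1, ∃ m, m < n ∧ ∃ j, ∃ y ∈ ball (0 : Fin m → ℝ) 1,
      Φ m j y = Φ n i x)
    (hsurj : ∀ z, ∃ n i, ∃ y ∈ ball (0 : Fin n → ℝ) 1, Φ n i y = z) :
    ∃ _ : CWComplex (univ : Set X), RelCWComplex.Finite (univ : Set X) ∧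
      ∃ e : ∀ n, cell n ≃ Cell X n, ∀ n i z, chr n (e n i) z = Φ n i z := by
  let map : (n : ℕ) → (i : cell n) → PartialEquiv (Fin n → ℝ) X :=
    fun n i => (hi n i).toPartialEquiv (Φ n i) (ball 0 1)
  have h1 : ∀ᶠ n in Filter.atTop, IsEmpty (cell n) :=
    Filter.eventually_atTop.mpr ⟨d + 1, fun n hn => hemp n hn⟩
  have h2 : ∀ (n : ℕ) (i : cell n), (map n i).source = ball 0 1 := fun _ _ => rfl
  have h3 : ∀ (n : ℕ) (i : cell n), ContinuousOn (map n i) (closedBall 0 1) :=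
    fun n i => hc n i
  have h4 : ∀ (n : ℕ) (i : cell n), ContinuousOn (map n i).symm (map n i).target := by
    intro n i
    refine mkcw_inv (Φ n i) (hc n i) (hi n i) ?_
    intro x hx y hy hxy
    obtain ⟨m, hm, j, y', hy', h⟩ := hb n i y hy
    have := hdisj n i m j x hx y' hy' (hxy.trans h.symm)
    have h' : n = m := congrArg Sigma.fst this
    omega
  have h5 : (univ : Set (Σ n, cell n)).PairwiseDisjoint
      (fun ni => map ni.1 ni.2 '' ball 0 1) := by
    rintro ⟨n, i⟩ - ⟨m, j⟩ - hne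
    rw [Function.onFun, Set.disjoint_left]
    rintro z ⟨x, hx, rfl⟩ ⟨y, hy, hyx⟩
    exact hne (hdisj n i m j x hx y hy hyx.symm)
  have h6 : ∀ (n : ℕ) (i : cell n),
      MapsTo (map n i) (sphere 0 1) (⋃ (m < n) (j : cell m), map m j '' closedBall 0 1) := by
    intro n i x hx
    obtain ⟨m, hm, j, y, hy, h⟩ := hb n i x hx
    simp only [mem_iUnion]
    exact ⟨m, hm, j, y, ball_subset_closedBall hy, h⟩
  have h7 : ⋃ (n : ℕ) (j : cell n), map n j '' closedBall 0 1 = univ := by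
    rw [eq_univ_iff_forall]
    intro z
    obtain ⟨n, i, y, hy, h⟩ := hsurj z
    simp only [mem_iUnion]
    exact ⟨n, i, y, ball_subset_closedBall hy, h⟩
  exact ⟨CWComplex.mkFinite univ cell map h1 hfin h2 h3 h4 h5 h6 h7,
    CWComplex.finite_mkFinite univ cell map h1 hfin h2 h3 h4 h5 h6 h7,
    fun n => Equiv.refl _, fun _ _ _ => rfl⟩

theorem exists_cw_point : ∃ _ : CWComplex (univ : Set PUnit.{1}),
    RelCWComplex.Finite (univ : Set PUnit.{1}) ∧ ∀ m, 1 ≤ m → IsEmpty (Cell PUnit.{1} m) := by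
  obtain ⟨inst, hf, e, -⟩ := exists_cw' (X := PUnit.{1}) (fun n => PLift (0 = n)) 0
    (fun _ _ _ => PUnit.unit) (fun n hn => ⟨fun h => by have := h.down; omega⟩)
    (fun _ => inferInstance) (fun _ _ => continuousOn_const)
    (by
      rintro _ ⟨rfl⟩ x _ y _ _
      exact Subsingleton.elim _ _)
    (by
      rintro _ ⟨rfl⟩ _ ⟨rfl⟩ _ _ _ _ _
      rfl)
    (by
      rintro _ ⟨rfl⟩ x hx
      have : x = 0 := Subsingleton.elim _ _
      rw [this, mem_sphere, dist_self] at hx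
      exact absurd hx zero_ne_one)
    (fun _ => ⟨0, ⟨rfl⟩, 0, mem_ball_self zero_lt_one, rfl⟩)
  refine ⟨inst, hf, fun m hm => ⟨fun c => ?_⟩⟩
  have := ((e m).symm c).down
  omega

theorem exists_attach_cw (K : Type) [MetricSpace K] [CompactSpace K] [CWComplex (univ : Set K)]
    (hfin : RelCWComplex.Finite (univ : Set K)) (n : ℕ) (hK : ∀ m, n ≤ m → IsEmpty (Cell K m))
    (ι : Type) [Finite ι] (a : ι → (Fin n → ℝ) → K) (ha : ∀ i, ContinuousOn (a i) (sphere 0 1)) :
    ∃ (K' : Type) (_ : MetricSpace K') (_ : CompactSpace K') (_ : CWComplex (univ : Set K')),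
      RelCWComplex.Finite (univ : Set K') ∧ (∀ m, n + 1 ≤ m → IsEmpty (Cell K' m)) ∧
      ∃ (j : K → K') (e : ι ≃ Cell K' n) (e' : ∀ m, m < n → (Cell K m ≃ Cell K' m)),
        Continuous j ∧ Function.Injective j ∧
        (∀ m h i z, chr m (e' m h i) z = j (chr m i z)) ∧
        (∀ i, ∀ z ∈ sphere (0 : Fin n → ℝ) 1, chr n (e i) z = j (a i z)) ∧
        ∀ m, m ≤ n → Sk K' m = j '' Sk K m := by
  obtain ⟨K', iM, iC, j, Φ, hj, hinj, hΦ, hsph, hΦinj, hΦj, hsur⟩ := exists_attach K n ι a ha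
  have hKfin : ∀ m, Finite (Cell K m) := fun m => hfin.toFiniteType.finite_cell m
  have hKS : ∀ y : K, y ∈ Sk K n := fun y => by
    have hy : y ∈ ⋃ (m : ℕ) (c : Cell K m), CWComplex.openCell m c := by
      rw [CWComplex.iUnion_openCell_eq_complex]; exact mem_univ y
    simp only [mem_iUnion] at hy
    obtain ⟨m, c, z, hz, h⟩ := hy
    refine cwrad_mem_Sk.2 ⟨m, ?_, c, z, hz, h⟩
    by_contra hm
    exact (hK m (not_lt.1 hm)).false c
  let cell : ℕ → Type := fun m => Cell K m ⊕ (ι × PLift (n = m))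
  let Ψ : ∀ m, cell m → (Fin m → ℝ) → K' := fun m c z =>
    Sum.elim (fun c => j (chr m c z)) (fun p => Φ p.1 fun k => z (Fin.cast p.2.down k)) c
  have hS : ∀ {m : ℕ} {y : K}, y ∈ Sk K m →
      ∃ l, l < m ∧ ∃ c : cell l, ∃ z ∈ ball (0 : Fin l → ℝ) 1, Ψ l c z = j y := by
    intro m y hy
    obtain ⟨l, hl, c, z, hz, h⟩ := cwrad_mem_Sk.1 hy
    exact ⟨l, hl, Sum.inl c, z, hz, congrArg j h⟩
  obtain ⟨inst, hf, E, hE⟩ := exists_cw' (X := K') cell n Ψ
    (fun m hm => ⟨by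
      rintro (c | ⟨_, ⟨h⟩⟩)
      · exact (hK m hm.le).false c
      · omega⟩)
    (fun m => inferInstanceAs (Finite (Cell K m ⊕ (ι × PLift (n = m)))))
    (by
      rintro m (c | ⟨i, ⟨rfl⟩⟩)
      · exact hj.comp_continuousOn (continuousOn_chr m c)
      · exact hΦ i)
    (by
      rintro m (c | ⟨i, ⟨rfl⟩⟩) x hx y hy h
      · exact (cell_eq_of_chr_eq hx hy (hinj h)).2
      · exact (hΦinj i i x hx y hy h).2)
    (by
      rintro m (c | ⟨i, ⟨rfl⟩⟩) l (c' | ⟨i', ⟨rfl⟩⟩) x hx y hy h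
      · have h1 := cwrad_sigma_eq hx hy (hinj h)
        obtain rfl : m = l := (Sigma.mk.inj h1).1
        obtain rfl : c = c' := eq_of_heq (Sigma.mk.inj h1).2
        rfl
      · exact (hΦj i' y hy _ h.symm).elim
      · exact (hΦj i x hx _ h).elim
      · obtain rfl : i = i' := (hΦinj i i' x hx y hy h).1
        rfl)
    (by
      rintro m (c | ⟨i, ⟨rfl⟩⟩) x hx
      · exact hS (chr_mem_Sk_of_sphere m c hx)
      · have h1 : Ψ n (Sum.inr ⟨i, ⟨rfl⟩⟩) x = j (a i x) := hsph i x hx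
        rw [h1]
        exact hS (hKS _))
    (by
      intro y'
      rcases hsur y' with ⟨y, rfl⟩ | ⟨i, z, hz, rfl⟩
      · obtain ⟨l, -, h⟩ := hS (hKS y)
        exact ⟨l, h⟩
      · exact ⟨n, Sum.inr ⟨i, ⟨rfl⟩⟩, z, hz, rfl⟩)
  have b1 : Function.Bijective fun i : ι => (Sum.inr ⟨i, ⟨rfl⟩⟩ : cell n) := by
    constructor
    · intro i i' h
      exact congrArg Prod.fst (Sum.inr.inj h)
    · rintro (c | ⟨i, ⟨h⟩⟩)
      · exact ((hK n le_rfl).false c).elim
      · exact ⟨i, rfl⟩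
  have b2 : ∀ m, m < n → Function.Bijective fun c : Cell K m => (Sum.inl c : cell m) := by
    intro m hm
    constructor
    · intro c c' h
      exact Sum.inl.inj h
    · rintro (c | ⟨i, ⟨h⟩⟩)
      · exact ⟨c, rfl⟩
      · omega
  refine ⟨K', iM, iC, inst, hf, fun m hm => ⟨fun c => ?_⟩, j,
    (Equiv.ofBijective _ b1).trans (E n), fun m hm => (Equiv.ofBijective _ (b2 m hm)).trans (E m),
    hj, hinj, fun m hm i z => hE m _ z, fun i z hz => (hE n _ z).trans (hsph i z hz), ?_⟩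
  · rcases (E m).symm c with c' | ⟨_, ⟨h⟩⟩
    · exact (hK m (by omega)).false c'
    · omega
  · intro m hm
    ext y'
    constructor
    · intro h
      obtain ⟨l, hl, c, z, hz, rfl⟩ := cwrad_mem_Sk.1 h
      obtain ⟨c', rfl⟩ := (E l).surjective c
      rcases c' with c' | ⟨_, ⟨h'⟩⟩
      · exact ⟨chr l c' z, cwrad_mem_Sk.2 ⟨l, hl, c', z, hz, rfl⟩, (hE l (Sum.inl c') z).symm⟩
      · omega
    · rintro ⟨y, hy, rfl⟩
      obtain ⟨l, hl, c, z, hz, h⟩ := hS hy
      exact cwrad_mem_Sk.2 ⟨l, hl, E l c, z, hz, (hE l c z).trans h⟩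

end Crest.Agent.R251
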