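import Crest.Agent.R251.MkCW
import Crest.Agent.R251.Loops
import Crest.Agent.R251.CWVan

/-! R251: the complexes `X₂` and `X₃` exist.

`exists_M2`: `X₁` from `exists_attach_cw PUnit _ 1 _ Bool (fun _ _ => ())` (`exists_cw_point`), `x₁ = j₁ ()`,
`Sk X₁ 1 = j₁ '' Sk PUnit 1 = {x₁}` (`Sk_eq_univ`).  The edges `ℓ b = ed (e b)` are loops at `x₁` in `univ`
(`isPath_ed`).  For the words `w false = of false ^ 6`, `w true = wc (of false) (of true)` take loops
`p b` from `exists_loop`.  Attach two `2`-cells along `att x₁ (p b)`.  In `X₂`: `ex = e' 1 _ (e false)`,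
`et = e' 1 _ (e true)`, `ed ex = j₂ ∘ ℓ false` etc., `cq r (s,t) = j₂ (att ..)` on the boundary of the square
(`![2s-1, 2t-1]` is on the sphere when `s` or `t` is `0` or `1`: `pi_norm_le_iff_of_nonneg`,
`norm_le_pi_norm`).  `range j₂ = Sk X₂ 2 ⊆ Sp X₂`, so `ω : PF (Sp X₂) H` pulls back to
`ω.comap univ j₂ ..` on `X₁`, which gives `botX`, `botc` (`ω.congr`, `map_pow`, `map_mul`, `map_inv`).
`continuousOn_att`: the sphere is the union of the closed sets `{z 1 = -1}` and
`{z 0 = 1} ∪ {z 0 = -1} ∪ {z 1 = 1}` (sup norm in `Fin 2 → ℝ`); on the second `att = x₀` (if also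
`z 1 = -1` then `(z 0 + 1)/2 ∈ {0, 1}`); `ContinuousOn.union_of_isClosed`.
`continuousOn_sph`: `{0}ᶜ` is the union of the relatively closed sets `{0 ≤ z 0}` and `{z 0 ≤ 0}`; on
the first `N = z 0 + max |z 1| |z 2| > 0` and the argument of `K` lies in `Sq`; for `z 0 = 0` one of its
coordinates is `0` or `1`, so `K = x₀` there.  (Use `ContinuousOn.union_continuousAt`,
`continuousOn_of_locally_continuousOn`, or `ContinuousWithinAt.union` at each point together with
`continuousWithinAt_of_notMem_closure`.)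
`exists_M3`: `exists_attach_cw Z _ 3 _ Unit`; `IsEmbedding` from `Continuous.isClosedEmbedding`. -/

set_option autoImplicit false

namespace Crest.Agent.R251

open Set Metric Topology Crest.Agent.R197

open Classical in
/-- The attaching map of a `2`-cell: the loop `p` on the bottom side, constant elsewhere. -/
noncomputable def att {Z : Type} (x₀ : Z) (p : ℝ → Z) (z : Fin 2 → ℝ) : Z :=
  if z 1 = -1 then p ((z 0 + 1) / 2) else x₀

private theorem mdl_union {X Y : Type} [TopologicalSpace X] [TopologicalSpace Y] {f : X → Y}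
    {S A B : Set X} (hA : IsClosed A) (hB : IsClosed B) (hS : S ⊆ A ∪ B)
    (h1 : ContinuousOn f (S ∩ A)) (h2 : ContinuousOn f (S ∩ B)) : ContinuousOn f S := by
  have key : ∀ {A : Set X}, IsClosed A → ContinuousOn f (S ∩ A) → ∀ x ∈ S,
      ContinuousWithinAt f (S ∩ A) x := by
    intro A hA h x hx
    by_cases hxA : x ∈ A
    · exact h x ⟨hx, hxA⟩
    · exact continuousWithinAt_of_notMem_closure fun hc =>
        hxA (closure_minimal inter_subset_right hA hc)
  intro x hx
  refine ((key hA h1 x hx).union (key hB h2 x hx)).mono fun y hy => ?_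
  rcases hS hy with h | h
  · exact Or.inl ⟨hy, h⟩
  · exact Or.inr ⟨hy, h⟩

private theorem mdl_norm (z : Fin 2 → ℝ) : ‖z‖ = max |z 0| |z 1| := by
  refine le_antisymm ((pi_norm_le_iff_of_nonneg (by positivity)).2 fun i => ?_)
    (max_le (norm_le_pi_norm z 0) (norm_le_pi_norm z 1))
  fin_cases i
  · exact le_max_left _ _
  · exact le_max_right _ _

private theorem mdl_sphere {z : Fin 2 → ℝ} :
    z ∈ sphere (0 : Fin 2 → ℝ) 1 ↔ max |z 0| |z 1| = 1 := by
  rw [mem_sphere_zero_iff_norm, mdl_norm]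

private theorem mdl_mem {a b : ℝ} (ha : |a| ≤ 1) (hb : |b| ≤ 1) (h : |a| = 1 ∨ |b| = 1) :
    ![a, b] ∈ sphere (0 : Fin 2 → ℝ) 1 := by
  rw [mdl_sphere]
  change max |a| |b| = 1
  rcases h with h | h
  · rw [h]; exact max_eq_left hb
  · rw [h]; exact max_eq_right ha

private theorem mdl_abs {s : ℝ} (hs : s ∈ Icc (0 : ℝ) 1) : |2 * s - 1| ≤ 1 :=
  abs_le.2 ⟨by linarith [hs.1], by linarith [hs.2]⟩

private theorem att_of_ne {Z : Type} [TopologicalSpace Z] {x₀ : Z} {p : ℝ → Z}
    (hp : Loop univ x₀ p) {z : Fin 2 → ℝ} (h : z 0 = 1 ∨ z 0 = -1 ∨ z 1 = 1) : att x₀ p z = x₀ := by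
  unfold att
  split_ifs with h1
  · rcases h with h | h | h
    · rw [h]; norm_num; exact hp.one
    · rw [h]; norm_num; exact hp.zero
    · rw [h] at h1; norm_num at h1
  · rfl

theorem continuousOn_att {Z : Type} [TopologicalSpace Z] {x₀ : Z} {p : ℝ → Z}
    (hp : Loop univ x₀ p) : ContinuousOn (att x₀ p) (sphere 0 1) := by
  refine mdl_union (A := {z | z 1 = -1}) (B := {z | z 0 = 1} ∪ ({z | z 0 = -1} ∪ {z | z 1 = 1}))
    (isClosed_eq (continuous_apply 1) continuous_const)
    ((isClosed_eq (continuous_apply 0) continuous_const).union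
      ((isClosed_eq (continuous_apply 0) continuous_const).union
        (isClosed_eq (continuous_apply 1) continuous_const))) ?_ ?_ ?_
  · intro z hz
    rw [mdl_sphere] at hz
    rcases max_choice |z 0| |z 1| with h | h
    · rw [h] at hz
      rcases (abs_eq zero_le_one).1 hz with h' | h'
      · exact Or.inr (Or.inl h')
      · exact Or.inr (Or.inr (Or.inl h'))
    · rw [h] at hz
      rcases (abs_eq zero_le_one).1 hz with h' | h'
      · exact Or.inr (Or.inr (Or.inr h'))
      · exact Or.inl h'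
  · have h1 : ContinuousOn (fun z : Fin 2 → ℝ => p ((z 0 + 1) / 2))
        (sphere 0 1 ∩ {z | z 1 = -1}) := by
      refine hp.path.1.comp (f := fun z : Fin 2 → ℝ => (z 0 + 1) / 2) (by fun_prop) ?_
      intro z hz
      have h := mdl_sphere.1 hz.1
      have h0 : |z 0| ≤ 1 := h ▸ le_max_left _ _
      rw [abs_le] at h0
      constructor <;> linarith [h0.1, h0.2]
    exact h1.congr fun z hz => if_pos hz.2
  · exact continuousOn_const.congr fun z hz => att_of_ne hp hz.2

theorem exists_M2 : ∃ (Z : Type) (_ : MetricSpace Z) (_ : CompactSpace Z)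
    (_ : CWComplex (univ : Set Z)), RelCWComplex.Finite (univ : Set Z) ∧ Nonempty (M2 Z) := by
  obtain ⟨i0, f0, h0⟩ := exists_cw_point
  obtain ⟨X₁, m1, c1, i1, f1, h1, j₁, e₁, -, -, -, -, -, hSk1⟩ :=
    exists_attach_cw PUnit.{1} f0 1 h0 Bool (fun _ _ => PUnit.unit) fun _ => continuousOn_const
  set x₁ : X₁ := j₁ PUnit.unit with hx₁
  have hx : Sk X₁ 1 = {x₁} := by
    rw [hSk1 1 le_rfl, Sk_eq_univ h0, image_univ, range_unique]
  have hℓ : ∀ b, Loop univ x₁ (ed (e₁ b)) := fun b => (loop_ed hx (e₁ b)).mono (subset_univ _)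
  let w : Bool → FreeGroup Bool := fun b =>
    cond b (wc (FreeGroup.of false) (FreeGroup.of true)) (FreeGroup.of false ^ 6)
  choose p hp hpv using fun b => exists_loop (mem_univ x₁) hℓ (w b)
  obtain ⟨X₂, m2, c2, i2, f2, h2, j₂, e₂, e', hj, hinj, hchr, hatt, hSk2⟩ :=
    exists_attach_cw X₁ f1 2 h1 Bool (fun b => att x₁ (p b)) fun b => continuousOn_att (hp b)
  have hed : ∀ c : Cell X₁ 1, ed (e' 1 one_lt_two c) = fun s => j₂ (ed c s) := fun c =>
    funext fun s => hchr 1 one_lt_two c _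
  have hSp : MapsTo j₂ univ (Sp X₂) := fun y _ => by
    refine Sk_two_subset_Sp ?_
    rw [hSk2 2 le_rfl, Sk_eq_univ h1]
    exact mem_image_of_mem _ (mem_univ y)
  have hbot : ∀ b, ∀ s ∈ Icc (0 : ℝ) 1, cq (e₂ b) (s, 0) = j₂ (p b s) := fun b s hs => by
    have hm : ![2 * s - 1, 2 * (0 : ℝ) - 1] ∈ sphere (0 : Fin 2 → ℝ) 1 :=
      mdl_mem (mdl_abs hs) (by norm_num) (Or.inr (by norm_num))
    rw [cq, hatt b _ hm, att, if_pos (by simp)]
    congr 2
    simp
  have hval : ∀ b (H : Type) [Group H] (ω : PF (Sp X₂) H), ω.val (fun s => cq (e₂ b) (s, 0)) =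
      FreeGroup.lift (fun c => ω.val (ed (e' 1 one_lt_two (e₁ c)))) (w b) := by
    intro b H _ ω
    rw [ω.congr (hbot b)]
    have := hpv b H (ω.comap univ j₂ hj.continuousOn hSp)
    simp only [PF.comap_val] at this
    simp only [hed]
    exact this
  refine ⟨X₂, m2, c2, i2, f2, ⟨{
    dim := fun n hn => h2 n hn
    x₀ := j₂ x₁
    sk := by rw [hSk2 1 one_le_two, hx, image_singleton]
    ex := e' 1 one_lt_two (e₁ false)
    et := e' 1 one_lt_two (e₁ true)
    ene := fun h => Bool.false_ne_true (e₁.injective ((e' 1 one_lt_two).injective h))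
    eall := ?_
    rX := e₂ false
    rc := e₂ true
    rne := fun h => Bool.false_ne_true (e₂.injective h)
    rall := ?_
    sqr := ?_
    botX := ?_
    botc := ?_ }⟩⟩
  · intro c
    obtain ⟨c, rfl⟩ := (e' 1 one_lt_two).surjective c
    obtain ⟨b, rfl⟩ := e₁.surjective c
    cases b
    · exact Or.inl rfl
    · exact Or.inr rfl
  · intro r
    obtain ⟨b, rfl⟩ := e₂.surjective r
    cases b
    · exact Or.inl rfl
    · exact Or.inr rfl
  · intro r
    obtain ⟨b, rfl⟩ := e₂.surjective r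
    refine ⟨?_, fun _ _ => rfl, fun s hs => ?_, fun t ht => ?_, fun t ht => ?_⟩
    · refine (continuousOn_chr 2 (e₂ b)).comp
        (f := fun q : ℝ × ℝ => (![2 * q.1 - 1, 2 * q.2 - 1] : Fin 2 → ℝ)) (by fun_prop) ?_
      intro q hq
      rw [mem_closedBall_zero_iff, mdl_norm]
      exact max_le (mdl_abs hq.1) (mdl_abs hq.2)
    · have hm : ![2 * s - 1, 2 * (1 : ℝ) - 1] ∈ sphere (0 : Fin 2 → ℝ) 1 :=
        mdl_mem (mdl_abs hs) (by norm_num) (Or.inr (by norm_num))
      rw [cq, hatt b _ hm, att_of_ne (hp b) (Or.inr (Or.inr (by norm_num)))]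
    · have hm : ![2 * (0 : ℝ) - 1, 2 * t - 1] ∈ sphere (0 : Fin 2 → ℝ) 1 :=
        mdl_mem (by norm_num) (mdl_abs ht) (Or.inl (by norm_num))
      rw [cq, hatt b _ hm, att_of_ne (hp b) (Or.inr (Or.inl (by norm_num)))]
    · have hm : ![2 * (1 : ℝ) - 1, 2 * t - 1] ∈ sphere (0 : Fin 2 → ℝ) 1 :=
        mdl_mem (by norm_num) (mdl_abs ht) (Or.inl (by norm_num))
      rw [cq, hatt b _ hm, att_of_ne (hp b) (Or.inl (by norm_num))]
  · intro H _ ω
    rw [hval false H ω]
    simp [w]
  · intro H _ ω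
    rw [hval true H ω]
    simp [w, wc]

theorem continuousOn_sph {Z : Type} [TopologicalSpace Z] {x₀ : Z} {K : ℝ × ℝ → Z}
    (h : Sqr x₀ (fun _ => x₀) (fun _ => x₀) K) : ContinuousOn (sph x₀ K) {0}ᶜ := by
  have hN : ∀ z : Fin 3 → ℝ, z ≠ 0 → 0 ≤ z 0 → 0 < z 0 + max |z 1| |z 2| := by
    intro z hz h0
    by_contra hle
    have h1 : |z 1| ≤ max |z 1| |z 2| := le_max_left _ _
    have h2 : |z 2| ≤ max |z 1| |z 2| := le_max_right _ _
    have h3 := abs_nonneg (z 1)
    have h4 := abs_nonneg (z 2)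
    apply hz
    funext i
    fin_cases i
    · change z 0 = 0
      linarith
    · change z 1 = 0
      exact abs_eq_zero.1 (by linarith)
    · change z 2 = 0
      exact abs_eq_zero.1 (by linarith)
  have hI : ∀ {a N : ℝ}, 0 < N → |a| ≤ N → 1 / 2 + a / (2 * N) ∈ Icc (0 : ℝ) 1 := by
    intro a N hN ha
    rw [abs_le] at ha
    have e1 : -(1 / 2) ≤ a / (2 * N) := by
      rw [le_div_iff₀ (by positivity)]; linarith [ha.1]
    have e2 : a / (2 * N) ≤ 1 / 2 := by
      rw [div_le_iff₀ (by positivity)]; linarith [ha.2]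
    constructor <;> linarith
  have hE : ∀ {a N : ℝ}, 0 < N → |a| = N →
      1 / 2 + a / (2 * N) = 1 ∨ 1 / 2 + a / (2 * N) = 0 := by
    intro a N hN ha
    rcases (abs_eq hN.le).1 ha with rfl | rfl
    · left; field_simp; norm_num
    · right; field_simp; norm_num
  refine mdl_union (A := {z | 0 ≤ z 0}) (B := {z | z 0 ≤ 0})
    (isClosed_le continuous_const (continuous_apply 0))
    (isClosed_le (continuous_apply 0) continuous_const) (fun z _ => le_total 0 (z 0)) ?_ ?_
  · have h1 : ContinuousOn (fun z : Fin 3 → ℝ => K (1 / 2 + z 1 / (2 * (z 0 + max |z 1| |z 2|)),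
        1 / 2 + z 2 / (2 * (z 0 + max |z 1| |z 2|)))) ({0}ᶜ ∩ {z | 0 ≤ z 0}) := by
      refine h.cont.comp (f := fun z : Fin 3 → ℝ => (1 / 2 + z 1 / (2 * (z 0 + max |z 1| |z 2|)),
        1 / 2 + z 2 / (2 * (z 0 + max |z 1| |z 2|)))) ?_ ?_
      · have hne : ∀ z ∈ ({0}ᶜ ∩ {z | 0 ≤ z 0} : Set (Fin 3 → ℝ)),
            2 * (z 0 + max |z 1| |z 2|) ≠ 0 := fun z hz => by
          have := hN z hz.1 hz.2
          positivity
        have hc : Continuous fun z : Fin 3 → ℝ => 2 * (z 0 + max |z 1| |z 2|) := by fun_prop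
        exact (continuousOn_const.add ((continuous_apply 1).continuousOn.div hc.continuousOn
          hne)).prodMk (continuousOn_const.add ((continuous_apply 2).continuousOn.div
          hc.continuousOn hne))
      · intro z hz
        have h0 : 0 ≤ z 0 := hz.2
        exact ⟨hI (hN z hz.1 h0) (by linarith [le_max_left |z 1| |z 2|]),
          hI (hN z hz.1 h0) (by linarith [le_max_right |z 1| |z 2|])⟩
    exact h1.congr fun z hz => if_pos hz.2
  · refine (continuousOn_const (c := x₀)).congr fun z hz => ?_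
    unfold sph
    split_ifs with h0
    · have hz0 : z 0 = 0 := le_antisymm hz.2 h0
      have hp := hN z hz.1 h0
      have i1 := hI (a := z 1) hp (by linarith [le_max_left |z 1| |z 2|])
      have i2 := hI (a := z 2) hp (by linarith [le_max_right |z 1| |z 2|])
      rcases max_choice |z 1| |z 2| with hm | hm
      · rcases hE (a := z 1) hp (by linarith) with e | e
        · rw [e]; exact h.right _ i2
        · rw [e]; exact h.left _ i2
      · rcases hE (a := z 2) hp (by linarith) with e | e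
        · rw [e]; exact h.top _ i1
        · rw [e]; exact h.bot _ i1
    · rfl

theorem sph_smul {Z : Type} (x₀ : Z) (K : ℝ × ℝ → Z) {c : ℝ} (hc : 0 < c) (z : Fin 3 → ℝ) :
    sph x₀ K (c • z) = sph x₀ K z := by
  have e : ∀ a : ℝ, c * a / (2 * (c * z 0 + max |c * z 1| |c * z 2|)) =
      a / (2 * (z 0 + max |z 1| |z 2|)) := fun a => by
    rw [abs_mul, abs_mul, abs_of_pos hc, ← mul_max_of_nonneg _ _ hc.le, ← mul_add, mul_left_comm,
      mul_div_mul_left _ _ hc.ne']
  simp only [sph, Pi.smul_apply, smul_eq_mul, e, mul_nonneg_iff_of_pos_left hc]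

theorem exists_M3 (Z : Type) [MetricSpace Z] [CompactSpace Z] [CWComplex (univ : Set Z)]
    (hfin : RelCWComplex.Finite (univ : Set Z)) (h : Dim2 Z) (a : (Fin 3 → ℝ) → Z)
    (ha : ContinuousOn a (sphere 0 1)) :
    ∃ (X : Type) (_ : MetricSpace X) (_ : CWComplex (univ : Set X)),
      RelCWComplex.Finite (univ : Set X) ∧ Nonempty (M3 Z X a) := by
  obtain ⟨X, m, c, i, f, h1, j, e, -, hj, hinj, -, hatt, hSk⟩ :=
    exists_attach_cw Z hfin 3 (fun m hm => h m hm) Unit (fun _ => a) fun _ => ha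
  exact ⟨X, m, i, f, ⟨{
    j := j
    cont := hj
    emb := (hj.isClosedEmbedding hinj).isEmbedding
    range := by rw [hSk 3 le_rfl, Sk_three h, image_univ]
    top := fun m hm => h1 m hm
    r3 := e ()
    all := fun r => by
      obtain ⟨u, rfl⟩ := e.surjective r
      rfl
    att := hatt () }⟩⟩

end Crest.Agent.R251
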