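import Crest.Agent.R251.One
import Crest.Agent.R251.Loops

/-! R251: periods of relative `2`-cocycles on homotopies of loops.

Let `L = lft μ K (0,0) 1`, a lift on the convex set `Sq` (`lift_lft convex_Sq`), and for a fixed
`o ∈ Sq` let `s a b = tri θ L o a b`.  By `tri_four`, `tri θ L a b c = s b c - s a c + s a b`, so
`per μ θ K 1 = s 00 10 + s 10 11 - s 01 11 - s 00 01` (`per_eq`).  If `a, b, c` lie in a convex
`D ⊆ C` on which `L` lies over `S`, then `tri θ L a b c = 0` (`tri_zero`, `Lift.mono_left`,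
`Lift.of_maps`), so `s a c = s a b + s b c` (`side_add`); hence `s a a = 0` and `s b a = - s a b`.
Use the sides of the square, e.g. `D = {0} ×ˢ Icc 0 1`, as `D`.
`per_affine`: `lft μ (fst ∘ L ∘ A) (0,0) (L (A (0,0))).2 = L ∘ A` on `Sq` (`Lift.eq_lft` for the lift
`L ∘ A`), `sx_congr`, and `A (cmb v x) = cmb (A ∘ v) x` (`cmb_affine`).
`per_vcat`: apply `per_affine` to `A (s,t) = (s, t/2)` and `A (s,t) = (s, t/2 + 1/2)` with `L` the lift
of `vcat K K'`; the label of `L` at `(0, 1/2)` is `μ.val (fun _ => x₀) = 1` (`μ.congr`); `per_congr`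
identifies `fst ∘ L ∘ A` with `K`, `K'`; expand everything with `tri_four` for one `o` and use
`side_add` on the left and right sides.  `per_hcat`: the same with `(s/2, t)`, `(s/2 + 1/2, t)`; the
label at `(1/2, 0)` is `μ.val p`; `per_smul`; `side_add` on the bottom and the top.  `per_flip`:
`A (s,t) = (s, 1 - t)`, antisymmetry on the left and right sides.
`per_cob`: `tri_cob` (the diagonals cancel), `Rel1.sgm` with `C = Sq ∩ K ⁻¹' S`; three sides give
`(ω.val (fun _ => x₀)).m = 0`. -/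

set_option autoImplicit false
set_option linter.unusedSectionVars false

namespace Crest.Agent.R251

open Set Metric Topology Crest.Agent.R197

open Classical in
/-- Vertical composition. -/
noncomputable def vcat {Z : Type} (K K' : ℝ × ℝ → Z) (p : ℝ × ℝ) : Z :=
  if p.2 ≤ 1 / 2 then K (p.1, 2 * p.2) else K' (p.1, 2 * p.2 - 1)

open Classical in
/-- Horizontal composition. -/
noncomputable def hcat {Z : Type} (K K' : ℝ × ℝ → Z) (p : ℝ × ℝ) : Z :=
  if p.1 ≤ 1 / 2 then K (2 * p.1, p.2) else K' (2 * p.1 - 1, p.2)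

/-- Reversal. -/
def vflip {Z : Type} (K : ℝ × ℝ → Z) (p : ℝ × ℝ) : Z := K (p.1, 1 - p.2)

theorem per_m00 : ((0 : ℝ), (0 : ℝ)) ∈ Sq := by simp [Sq]
theorem per_m01 : ((0 : ℝ), (1 : ℝ)) ∈ Sq := by simp [Sq]
theorem per_m10 : ((1 : ℝ), (0 : ℝ)) ∈ Sq := by simp [Sq]
theorem per_m11 : ((1 : ℝ), (1 : ℝ)) ∈ Sq := by simp [Sq]

theorem per_I0 : (0 : ℝ) ∈ Icc (0 : ℝ) 1 := left_mem_Icc.2 zero_le_one
theorem per_I1 : (1 : ℝ) ∈ Icc (0 : ℝ) 1 := right_mem_Icc.2 zero_le_one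
theorem per_Ih : (1 / 2 : ℝ) ∈ Icc (0 : ℝ) 1 := by constructor <;> norm_num

theorem per_lo {t : ℝ} (ht : t ∈ Icc (0 : ℝ) 1) (h : t ≤ 1 / 2) : 2 * t ∈ Icc (0 : ℝ) 1 := by
  constructor <;> linarith [ht.1]

theorem per_hi {t : ℝ} (ht : t ∈ Icc (0 : ℝ) 1) (h : 1 / 2 ≤ t) : 2 * t - 1 ∈ Icc (0 : ℝ) 1 := by
  constructor <;> linarith [ht.2]

theorem per_glue {Z : Type} [TopologicalSpace Z] {F F₁ F₂ : ℝ × ℝ → Z} {c : ℝ × ℝ → ℝ}
    (hc : Continuous c) (h1 : ContinuousOn F₁ (Sq ∩ {p | c p ≤ 1 / 2}))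
    (h2 : ContinuousOn F₂ (Sq ∩ {p | 1 / 2 ≤ c p}))
    (e1 : ∀ p ∈ Sq, c p ≤ 1 / 2 → F p = F₁ p) (e2 : ∀ p ∈ Sq, 1 / 2 ≤ c p → F p = F₂ p) :
    ContinuousOn F Sq := by
  have hS : IsClosed Sq := isClosed_Icc.prod isClosed_Icc
  have e : Sq = Sq ∩ {p | c p ≤ 1 / 2} ∪ Sq ∩ {p | 1 / 2 ≤ c p} := by
    rw [← inter_union_distrib_left]
    exact (inter_eq_left.2 fun p _ => le_total (c p) (1 / 2)).symm
  rw [e]
  exact (h1.congr fun p hp => e1 p hp.1 hp.2).union_of_isClosed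
    (h2.congr fun p hp => e2 p hp.1 hp.2) (hS.inter (isClosed_le hc continuous_const))
    (hS.inter (isClosed_le continuous_const hc))

variable {Z : Type} [TopologicalSpace Z] {x₀ : Z} {p q r p' q' : ℝ → Z} {K K' : ℝ × ℝ → Z}

omit [TopologicalSpace Z] in
theorem vcat_lo {z : ℝ × ℝ} (h : z.2 ≤ 1 / 2) : vcat K K' z = K (z.1, 2 * z.2) := if_pos h

theorem vcat_hi (h : Sqr x₀ p q K) (h' : Sqr x₀ q r K') {z : ℝ × ℝ} (hz : z.1 ∈ Icc (0 : ℝ) 1)
    (h2 : 1 / 2 ≤ z.2) : vcat K K' z = K' (z.1, 2 * z.2 - 1) := by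
  rcases h2.eq_or_lt with e | e
  · rw [vcat_lo e.ge, ← e]
    norm_num
    rw [h.top _ hz, h'.bot _ hz]
  · exact if_neg (not_le.2 e)

omit [TopologicalSpace Z] in
theorem hcat_lo {z : ℝ × ℝ} (h : z.1 ≤ 1 / 2) : hcat K K' z = K (2 * z.1, z.2) := if_pos h

theorem hcat_hi (h : Sqr x₀ p q K) (h' : Sqr x₀ p' q' K') {z : ℝ × ℝ} (hz : z.2 ∈ Icc (0 : ℝ) 1)
    (h2 : 1 / 2 ≤ z.1) : hcat K K' z = K' (2 * z.1 - 1, z.2) := by
  rcases h2.eq_or_lt with e | e
  · rw [hcat_lo e.ge, ← e]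
    norm_num
    rw [h.right _ hz, h'.left _ hz]
  · exact if_neg (not_le.2 e)

theorem Sqr.vcat (h : Sqr x₀ p q K) (h' : Sqr x₀ q r K') : Sqr x₀ p r (vcat K K') := by
  refine ⟨per_glue (c := Prod.snd) continuous_snd (F₁ := fun z => K (z.1, 2 * z.2))
    (F₂ := fun z => K' (z.1, 2 * z.2 - 1))
    (h.cont.comp (by fun_prop) fun z hz => ⟨hz.1.1, per_lo hz.1.2 hz.2⟩)
    (h'.cont.comp (by fun_prop) fun z hz => ⟨hz.1.1, per_hi hz.1.2 hz.2⟩)
    (fun z _ hz => vcat_lo hz) fun z hz h2 => vcat_hi h h' hz.1 h2,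
    fun s hs => ?_, fun s hs => ?_, fun t ht => ?_, fun t ht => ?_⟩
  · rw [vcat_lo (by norm_num)]
    simpa using h.bot s hs
  · rw [vcat_hi h h' hs (by norm_num)]
    norm_num
    exact h'.top s hs
  · rcases le_total t (1 / 2) with e | e
    · rw [vcat_lo e]; exact h.left _ (per_lo ht e)
    · rw [vcat_hi h h' per_I0 e]; exact h'.left _ (per_hi ht e)
  · rcases le_total t (1 / 2) with e | e
    · rw [vcat_lo e]; exact h.right _ (per_lo ht e)
    · rw [vcat_hi h h' per_I1 e]; exact h'.right _ (per_hi ht e)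

theorem Sqr.hcat (h : Sqr x₀ p q K) (h' : Sqr x₀ p' q' K') :
    Sqr x₀ (cat p p') (cat q q') (hcat K K') := by
  refine ⟨per_glue (c := Prod.fst) continuous_fst (F₁ := fun z => K (2 * z.1, z.2))
    (F₂ := fun z => K' (2 * z.1 - 1, z.2))
    (h.cont.comp (by fun_prop) fun z hz => ⟨per_lo hz.1.1 hz.2, hz.1.2⟩)
    (h'.cont.comp (by fun_prop) fun z hz => ⟨per_hi hz.1.1 hz.2, hz.1.2⟩)
    (fun z _ hz => hcat_lo hz) fun z hz h2 => hcat_hi h h' hz.2 h2,
    fun s hs => ?_, fun s hs => ?_, fun t ht => ?_, fun t ht => ?_⟩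
  · simp only [R251.hcat, cat]
    split_ifs with e
    · exact h.bot _ (per_lo hs e)
    · exact h'.bot _ (per_hi hs (not_le.1 e).le)
  · simp only [R251.hcat, cat]
    split_ifs with e
    · exact h.top _ (per_lo hs e)
    · exact h'.top _ (per_hi hs (not_le.1 e).le)
  · rw [hcat_lo (by norm_num)]
    simpa using h.left t ht
  · rw [hcat_hi h h' ht (by norm_num)]
    norm_num
    exact h'.right t ht

theorem Sqr.vflip (h : Sqr x₀ p q K) : Sqr x₀ q p (vflip K) := by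
  have hm : ∀ t ∈ Icc (0 : ℝ) 1, 1 - t ∈ Icc (0 : ℝ) 1 := fun t ht => by
    constructor <;> linarith [ht.1, ht.2]
  refine ⟨h.cont.comp (f := fun z : ℝ × ℝ => (z.1, 1 - z.2)) (by fun_prop)
    fun z hz => ⟨hz.1, hm _ hz.2⟩, fun s hs => ?_, fun s hs => ?_, fun t ht => h.left _ (hm t ht),
    fun t ht => h.right _ (hm t ht)⟩
  · simpa [R251.vflip] using h.top s hs
  · simpa [R251.vflip] using h.bot s hs

variable {G : Type} [Group G] {μ : PF (univ : Set Z) G} {S : Set Z} {M : Type} [AddCommGroup M]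
  [DistribMulAction G M] {θ : Co (Z × G) M 2}

theorem per_congr (h : EqOn K K' Sq) (g : G) : per μ θ K g = per μ θ K' g := by
  have e : EqOn (lft μ K (0, 0) g) (lft μ K' (0, 0) g) Sq := fun z hz => by
    simp only [lft]
    rw [h hz, μ.congr (γ' := fun t => K' (seg (0, 0) z t))
      fun t ht => h ((isPath_seg convex_Sq per_m00 hz).2 ht)]
  have := per_m00; have := per_m01; have := per_m10; have := per_m11
  rw [per, per, tri, tri, tri, tri,
    sx_congr convex_Sq e (by intro i; fin_cases i <;> assumption),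
    sx_congr convex_Sq e (v := ![(0, 0), (0, 1), (1, 1)]) (by intro i; fin_cases i <;> assumption)]

theorem per_zero (hK : ContinuousOn K Sq) (hS : MapsTo K Sq S) (h : Z0 μ S θ) (g : G) :
    per μ θ K g = 0 := by
  have hL := lift_lft (μ := μ) convex_Sq hK hS per_m00 g
  rw [per, tri_zero convex_Sq hL h per_m00 per_m10 per_m11,
    tri_zero convex_Sq hL h per_m00 per_m01 per_m11, sub_self]

theorem per_eq (hK : ContinuousOn K Sq) (hδ : Z0 μ univ (cob θ)) (g : G) {o : ℝ × ℝ}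
    (ho : o ∈ Sq) : per μ θ K g =
      tri θ (lft μ K (0, 0) g) o (0, 0) (1, 0) + tri θ (lft μ K (0, 0) g) o (1, 0) (1, 1) -
      tri θ (lft μ K (0, 0) g) o (0, 1) (1, 1) - tri θ (lft μ K (0, 0) g) o (0, 0) (0, 1) := by
  have hL := lift_lft (μ := μ) convex_Sq hK (mapsTo_univ _ _) per_m00 g
  rw [per, tri_four convex_Sq hL hδ ho per_m00 per_m10 per_m11,
    tri_four convex_Sq hL hδ ho per_m00 per_m01 per_m11]
  abel

theorem side_add (hθ : Rel μ S θ) {W : Type} [NormedAddCommGroup W] [NormedSpace ℝ W]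
    {C D : Set W} (hC : Convex ℝ C) (hD : Convex ℝ D) (hDC : D ⊆ C) {L : W → Z × G}
    (hL : Lift μ univ C L) (hS : MapsTo (fun w => (L w).1) D S) {o a b c : W} (ho : o ∈ C)
    (ha : a ∈ D) (hb : b ∈ D) (hc : c ∈ D) : tri θ L o a c = tri θ L o a b + tri θ L o b c := by
  have h1 := tri_four hC hL hθ.coc ho (hDC ha) (hDC hb) (hDC hc)
  rw [tri_zero hD ((hL.mono_left hDC).of_maps hS) hθ.zero ha hb hc] at h1
  rw [eq_comm, ← sub_eq_zero, h1]
  abel

theorem side_neg (hθ : Rel μ S θ) {W : Type} [NormedAddCommGroup W] [NormedSpace ℝ W]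
    {C D : Set W} (hC : Convex ℝ C) (hD : Convex ℝ D) (hDC : D ⊆ C) {L : W → Z × G}
    (hL : Lift μ univ C L) (hS : MapsTo (fun w => (L w).1) D S) {o a b : W} (ho : o ∈ C)
    (ha : a ∈ D) (hb : b ∈ D) : tri θ L o b a = -tri θ L o a b := by
  have h1 := side_add hθ hC hD hDC hL hS ho ha ha ha
  have h2 := side_add hθ hC hD hDC hL hS ho ha hb ha
  rw [left_eq_add.1 h1] at h2
  exact eq_neg_of_add_eq_zero_right h2.symm

theorem per_affine {W : Type} [NormedAddCommGroup W] [NormedSpace ℝ W] {C : Set W}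
    {L : W → Z × G} (hL : Lift μ univ C L) (f : ℝ × ℝ →L[ℝ] W) (b : W)
    (hA : MapsTo (fun z => f z + b) Sq C) :
    per μ θ (fun z => (L (f z + b)).1) (L (f (0, 0) + b)).2 =
      tri θ L (f (0, 0) + b) (f (1, 0) + b) (f (1, 1) + b) -
        tri θ L (f (0, 0) + b) (f (0, 1) + b) (f (1, 1) + b) := by
  have hL' : Lift μ univ Sq fun z => L (f z + b) := hL.comp (by fun_prop) hA
  have e := hL'.eq_lft convex_Sq per_m00
  have h3 : ∀ a c d : ℝ × ℝ, a ∈ Sq → c ∈ Sq → d ∈ Sq →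
      tri θ (lft μ (fun z => (L (f z + b)).1) (0, 0) (L (f (0, 0) + b)).2) a c d =
        tri θ L (f a + b) (f c + b) (f d + b) := by
    intro a c d ha hc hd
    rw [tri, tri, ← sx_congr convex_Sq e (by intro i; fin_cases i <;> assumption)]
    congr 1
    funext x
    simp only [sx]
    congr 1
    have := cmb_affine (f : ℝ × ℝ →ₗ[ℝ] W) b ![a, c, d] x
    refine this.trans ?_
    congr 1
    funext i
    fin_cases i <;> rfl
  rw [per, h3 _ _ _ per_m00 per_m10 per_m11, h3 _ _ _ per_m00 per_m01 per_m11]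

/-- The diagonal linear maps of the plane. -/
noncomputable def perD (a b : ℝ) : ℝ × ℝ →L[ℝ] ℝ × ℝ :=
  (a • ContinuousLinearMap.fst ℝ ℝ ℝ).prod (b • ContinuousLinearMap.snd ℝ ℝ ℝ)

theorem perD_apply (a b : ℝ) (z : ℝ × ℝ) : perD a b z = (a * z.1, b * z.2) := rfl

/-- The period on a sub-rectangle as a sum over its sides. -/
theorem per_rect (hδ : Z0 μ univ (cob θ)) {L : ℝ × ℝ → Z × G} (hL : Lift μ univ Sq L)
    (a b c d : ℝ) (hA : ∀ z ∈ Sq, (a * z.1 + c, b * z.2 + d) ∈ Sq)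
    (hK : ∀ z ∈ Sq, K z = (L (a * z.1 + c, b * z.2 + d)).1) {o : ℝ × ℝ} (ho : o ∈ Sq) :
    per μ θ K (L (c, d)).2 = tri θ L o (c, d) (a + c, d) + tri θ L o (a + c, d) (a + c, b + d) -
      tri θ L o (c, b + d) (a + c, b + d) - tri θ L o (c, d) (c, b + d) := by
  have h1 := per_affine (θ := θ) hL (perD a b) (c, d) fun z hz => hA z hz
  simp only [perD_apply, Prod.mk_add_mk, mul_zero, mul_one, zero_add] at h1
  have m0 := hA _ per_m00
  have m1 := hA _ per_m10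
  have m2 := hA _ per_m01
  have m3 := hA _ per_m11
  simp only [mul_zero, mul_one, zero_add] at m0 m1 m2 m3
  rw [per_congr (K' := fun z => (L (a * z.1 + c, b * z.2 + d)).1) hK, h1,
    tri_four convex_Sq hL hδ ho m0 m1 m3, tri_four convex_Sq hL hδ ho m0 m2 m3]
  abel

theorem per_convex_v (c : ℝ) : Convex ℝ (({c} : Set ℝ) ×ˢ Icc (0 : ℝ) 1) :=
  (convex_singleton c).prod (convex_Icc 0 1)

theorem per_convex_h (c : ℝ) : Convex ℝ (Icc (0 : ℝ) 1 ×ˢ ({c} : Set ℝ)) :=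
  (convex_Icc 0 1).prod (convex_singleton c)

theorem per_sub_v {c : ℝ} (hc : c ∈ Icc (0 : ℝ) 1) : ({c} : Set ℝ) ×ˢ Icc (0 : ℝ) 1 ⊆ Sq :=
  prod_mono (singleton_subset_iff.2 hc) subset_rfl

theorem per_sub_h {c : ℝ} (hc : c ∈ Icc (0 : ℝ) 1) : Icc (0 : ℝ) 1 ×ˢ ({c} : Set ℝ) ⊆ Sq :=
  prod_mono subset_rfl (singleton_subset_iff.2 hc)

theorem per_maps_left (hx : x₀ ∈ S) (h : Sqr x₀ p q K) (g : G) :
    MapsTo (fun w => (lft μ K (0, 0) g w).1) (({0} : Set ℝ) ×ˢ Icc (0 : ℝ) 1) S := by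
  rintro ⟨a, b⟩ ⟨rfl, hb⟩
  change K (0, b) ∈ S
  rwa [h.left b hb]

theorem per_maps_right (hx : x₀ ∈ S) (h : Sqr x₀ p q K) (g : G) :
    MapsTo (fun w => (lft μ K (0, 0) g w).1) (({1} : Set ℝ) ×ˢ Icc (0 : ℝ) 1) S := by
  rintro ⟨a, b⟩ ⟨rfl, hb⟩
  change K (1, b) ∈ S
  rwa [h.right b hb]

theorem per_maps_bot (hp : IsPath S p) (h : Sqr x₀ p q K) (g : G) :
    MapsTo (fun w => (lft μ K (0, 0) g w).1) (Icc (0 : ℝ) 1 ×ˢ ({0} : Set ℝ)) S := by
  rintro ⟨a, b⟩ ⟨ha, rfl⟩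
  change K (a, 0) ∈ S
  rw [h.bot a ha]
  exact hp.2 ha

theorem per_maps_top (hq : IsPath S q) (h : Sqr x₀ p q K) (g : G) :
    MapsTo (fun w => (lft μ K (0, 0) g w).1) (Icc (0 : ℝ) 1 ×ˢ ({1} : Set ℝ)) S := by
  rintro ⟨a, b⟩ ⟨ha, rfl⟩
  change K (a, 1) ∈ S
  rw [h.top a ha]
  exact hq.2 ha

theorem per_label_left (h : Sqr x₀ p q K) {c : ℝ} (hc : c ∈ Icc (0 : ℝ) 1) :
    (lft μ K (0, 0) 1 (0, c)).2 = 1 := by
  simp only [lft, one_mul]
  rw [μ.congr (γ' := fun _ => x₀) fun t ht => ?_, μ.const _ (mem_univ _)]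
  have e : seg ((0 : ℝ), (0 : ℝ)) (0, c) t = (0, t * c) := by simp [seg]
  simp only [e]
  exact h.left _ ⟨mul_nonneg ht.1 hc.1, mul_le_one₀ ht.2 hc.1 hc.2⟩

theorem per_vcat (hθ : Rel μ S θ) (hx : x₀ ∈ S) (h : Sqr x₀ p q K) (h' : Sqr x₀ q r K') :
    per μ θ (vcat K K') 1 = per μ θ K 1 + per μ θ K' 1 := by
  have hV := h.vcat h'
  have hL := lift_lft (μ := μ) convex_Sq hV.cont (mapsTo_univ _ _) per_m00 1
  have h1 := per_rect (K := K) hθ.coc hL 1 (1 / 2) 0 0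
    (fun z hz => ⟨by simpa using hz.1, by constructor <;> linarith [hz.2.1, hz.2.2]⟩)
    (fun z hz => by
      change K z = R251.vcat K K' _
      rw [vcat_lo (by linarith [hz.2.2])]
      congr 1
      ext <;> simp) per_m00
  have h2 := per_rect (K := K') hθ.coc hL 1 (1 / 2) 0 (1 / 2)
    (fun z hz => ⟨by simpa using hz.1, by constructor <;> linarith [hz.2.1, hz.2.2]⟩)
    (fun z hz => by
      change K' z = R251.vcat K K' _
      rw [vcat_hi h h' (by simpa using hz.1) (by linarith [hz.2.1])]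
      congr 1
      ext
      · simp
      · simp only
        ring) per_m00
  rw [per_label_left hV per_I0] at h1
  rw [per_label_left hV per_Ih] at h2
  have a1 : (1 / 2 : ℝ) + 1 / 2 = 1 := by norm_num
  simp only [add_zero, a1] at h1 h2
  rw [h1, h2, per_eq hV.cont hθ.coc 1 per_m00,
    side_add hθ convex_Sq (per_convex_v 0) (per_sub_v per_I0) hL (per_maps_left hx hV 1) per_m00
      (a := (0, 0)) (b := (0, 1 / 2)) (c := (0, 1)) ⟨rfl, per_I0⟩ ⟨rfl, per_Ih⟩ ⟨rfl, per_I1⟩,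
    side_add hθ convex_Sq (per_convex_v 1) (per_sub_v per_I1) hL (per_maps_right hx hV 1) per_m00
      (a := (1, 0)) (b := (1, 1 / 2)) (c := (1, 1)) ⟨rfl, per_I0⟩ ⟨rfl, per_Ih⟩ ⟨rfl, per_I1⟩]
  abel

theorem per_hcat (hθ : Rel μ S θ) (h : Sqr x₀ p q K) (h' : Sqr x₀ p' q' K') (hp : IsPath S p)
    (hq : IsPath S q) (hp' : IsPath S p') (hq' : IsPath S q') :
    per μ θ (hcat K K') 1 = per μ θ K 1 + μ.val p • per μ θ K' 1 := by
  have hV := h.hcat h'
  have hL := lift_lft (μ := μ) convex_Sq hV.cont (mapsTo_univ _ _) per_m00 1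
  have h1 := per_rect (K := K) hθ.coc hL (1 / 2) 1 0 0
    (fun z hz => ⟨by constructor <;> linarith [hz.1.1, hz.1.2], by simpa using hz.2⟩)
    (fun z hz => by
      change K z = R251.hcat K K' _
      rw [hcat_lo (by linarith [hz.1.2])]
      congr 1
      ext <;> simp) per_m00
  have h2 := per_rect (K := K') hθ.coc hL (1 / 2) 1 (1 / 2) 0
    (fun z hz => ⟨by constructor <;> linarith [hz.1.1, hz.1.2], by simpa using hz.2⟩)
    (fun z hz => by
      change K' z = R251.hcat K K' _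
      rw [hcat_hi h h' (by simpa using hz.2) (by linarith [hz.1.1])]
      congr 1
      ext
      · simp only
        ring
      · simp) per_m00
  have e : (lft μ (R251.hcat K K') (0, 0) 1 (1 / 2, 0)).2 = μ.val p := by
    simp only [lft, one_mul]
    refine μ.congr fun t ht => ?_
    have e : seg ((0 : ℝ), (0 : ℝ)) (1 / 2, 0) t = (t / 2, 0) := by simp [seg, div_eq_mul_inv]
    simp only [e]
    rw [hcat_lo (by linarith [ht.2]), ← h.bot t ht]
    congr 2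
    ring
  rw [per_label_left hV per_I0] at h1
  rw [e, per_smul hθ.eqv] at h2
  have a1 : (1 / 2 : ℝ) + 1 / 2 = 1 := by norm_num
  simp only [add_zero, a1] at h1 h2
  have b0 : p 1 = p' 0 := by
    rw [← h.bot _ per_I1, h.right _ per_I0, ← h'.bot _ per_I0, h'.left _ per_I0]
  have b1 : q 1 = q' 0 := by
    rw [← h.top _ per_I1, h.right _ per_I1, ← h'.top _ per_I0, h'.left _ per_I1]
  rw [h1, h2, per_eq hV.cont hθ.coc 1 per_m00,
    side_add hθ convex_Sq (per_convex_h 0) (per_sub_h per_I0) hL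
      (per_maps_bot (isPath_cat hp hp' b0) hV 1) per_m00
      (a := (0, 0)) (b := (1 / 2, 0)) (c := (1, 0)) ⟨per_I0, rfl⟩ ⟨per_Ih, rfl⟩ ⟨per_I1, rfl⟩,
    side_add hθ convex_Sq (per_convex_h 1) (per_sub_h per_I1) hL
      (per_maps_top (isPath_cat hq hq' b1) hV 1) per_m00
      (a := (0, 1)) (b := (1 / 2, 1)) (c := (1, 1)) ⟨per_I0, rfl⟩ ⟨per_Ih, rfl⟩ ⟨per_I1, rfl⟩]
  abel

theorem per_vflip (hθ : Rel μ S θ) (hx : x₀ ∈ S) (h : Sqr x₀ p q K) :
    per μ θ (vflip K) 1 = -per μ θ K 1 := by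
  have hL := lift_lft (μ := μ) convex_Sq h.cont (mapsTo_univ _ _) per_m00 1
  have h1 := per_rect (K := R251.vflip K) hθ.coc hL 1 (-1) 0 1
    (fun z hz => ⟨by simpa using hz.1, by constructor <;> linarith [hz.2.1, hz.2.2]⟩)
    (fun z hz => by
      change K _ = K _
      congr 1
      ext
      · simp
      · simp only
        ring) per_m00
  rw [per_label_left h per_I1] at h1
  simp only [add_zero, neg_add_cancel] at h1
  rw [h1, per_eq h.cont hθ.coc 1 per_m00,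
    side_neg hθ convex_Sq (per_convex_v 0) (per_sub_v per_I0) hL (per_maps_left hx h 1) per_m00
      (a := (0, 0)) (b := (0, 1)) ⟨rfl, per_I0⟩ ⟨rfl, per_I1⟩,
    side_neg hθ convex_Sq (per_convex_v 1) (per_sub_v per_I1) hL (per_maps_right hx h 1) per_m00
      (a := (1, 0)) (b := (1, 1)) ⟨rfl, per_I0⟩ ⟨rfl, per_I1⟩]
  abel

/-- The period as a sum over the four triangles round the centre. -/
theorem per_pyr (hθ : Rel μ S θ) (hx : x₀ ∈ S) (h : Sqr x₀ p (fun _ => x₀) K) (g : G) :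
    per μ θ K g =
      tri θ (lft μ K (0, 0) g) (1 / 2, 1 / 2) (1, 1) (0, 1) +
      tri θ (lft μ K (0, 0) g) (1 / 2, 1 / 2) (0, 1) (0, 0) +
      tri θ (lft μ K (0, 0) g) (1 / 2, 1 / 2) (0, 0) (1, 0) +
      tri θ (lft μ K (0, 0) g) (1 / 2, 1 / 2) (1, 0) (1, 1) := by
  have hL := lift_lft (μ := μ) convex_Sq h.cont (mapsTo_univ _ _) per_m00 g
  have ho : ((1 / 2 : ℝ), (1 / 2 : ℝ)) ∈ Sq := ⟨per_Ih, per_Ih⟩
  rw [per_eq h.cont hθ.coc g ho,
    side_neg hθ convex_Sq (per_convex_v 0) (per_sub_v per_I0) hL (per_maps_left hx h g) ho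
      (a := (0, 0)) (b := (0, 1)) ⟨rfl, per_I0⟩ ⟨rfl, per_I1⟩,
    side_neg hθ convex_Sq (per_convex_h 1) (per_sub_h per_I1) hL
      (per_maps_top (loop_const hx).path h g) ho
      (a := (0, 1)) (b := (1, 1)) ⟨per_I0, rfl⟩ ⟨per_I1, rfl⟩]
  abel

theorem per_cob {β : Co (Z × G) M 1} {ω : PF S (SD G M)} (hω : Rel1 μ S β ω) (hx : x₀ ∈ S)
    (h : Sqr x₀ p (fun _ => x₀) K) (hp : IsPath S p) : per μ (cob β) K 1 = (ω.val p).m := by
  have hL := lift_lft (μ := μ) convex_Sq h.cont (mapsTo_univ _ _) per_m00 1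
  have key : ∀ {D : Set (ℝ × ℝ)}, Convex ℝ D → D ⊆ Sq →
      MapsTo (fun w => (lft μ K (0, 0) 1 w).1) D S → ∀ {a b}, a ∈ D → b ∈ D →
      sgm β (lft μ K (0, 0) 1) a b =
        (lft μ K (0, 0) 1 a).2 • (ω.val fun t => K (seg a b t)).m :=
    fun hD hDS hm _ _ ha hb => hω.sgm ((hL.mono_left hDS).of_maps hm) (isPath_seg hD ha hb)
  have c0 : ∀ γ : ℝ → Z, (∀ t ∈ Icc (0 : ℝ) 1, γ t = x₀) → (ω.val γ).m = 0 := fun γ hγ => by
    rw [ω.congr (γ' := fun _ => x₀) hγ, ω.const _ hx]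
    rfl
  have e1 := key (per_convex_h 0) (per_sub_h per_I0) (per_maps_bot hp h 1) (a := (0, 0))
    (b := (1, 0)) ⟨per_I0, rfl⟩ ⟨per_I1, rfl⟩
  have e2 := key (per_convex_v 1) (per_sub_v per_I1) (per_maps_right hx h 1) (a := (1, 0))
    (b := (1, 1)) ⟨rfl, per_I0⟩ ⟨rfl, per_I1⟩
  have e3 := key (per_convex_h 1) (per_sub_h per_I1) (per_maps_top (loop_const hx).path h 1)
    (a := (0, 1)) (b := (1, 1)) ⟨per_I0, rfl⟩ ⟨per_I1, rfl⟩
  have e4 := key (per_convex_v 0) (per_sub_v per_I0) (per_maps_left hx h 1) (a := (0, 0))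
    (b := (0, 1)) ⟨rfl, per_I0⟩ ⟨rfl, per_I1⟩
  rw [c0 _ fun t ht => by simpa [seg] using h.right t ht, smul_zero] at e2
  rw [c0 _ fun t ht => by simpa [seg] using h.top t ht, smul_zero] at e3
  rw [c0 _ fun t ht => by simpa [seg] using h.left t ht, smul_zero] at e4
  rw [lft_base, one_smul, ω.congr (γ' := p) fun t ht => by simpa [seg] using h.bot t ht] at e1
  rw [per, tri_cob, tri_cob, e1, e2, e3, e4]
  abel

end Crest.Agent.R251
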