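import Crest.Agent.R251.Chain

/-! R251: homotopy invariance.

`bd_Pr` is `bd_hty` (`lmap_zero_deg`, `lmap_bd`), `Pr_mem_In` is `hty_mem_In`, `Pr_nat` is `hty_nat`
(`lmap_lmap`).

`lift_track`: for a path `t ↦ (y t, s t)` in `C ×ˢ Icc 0 1` apply `μ.sq` to
`(a, b) ↦ H ((K (y a)).1, b * s a)`: the bottom is `H ((K (y ·)).1, 0)` (`h0.val`, `hK.val`), the top is
the path, the sides are the tracks `b ↦ H ((K (y 0)).1, b * s 0)`, `b ↦ H ((K (y 1)).1, b * s 1)`.
`gm_homotopy`: the same square with `s = 1`.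

`homotopy`: put `Kτ τ = track μ H c₀ (ext τ)` on `(Fin (k+1) → ℝ) × ℝ` and
`β τ = ev φ (Kτ τ) (Pr (k+1) (single (stdv k) 1))`.  Equivariance: `ext (tl g τ) = tl g (ext τ)`,
`track .. (tl g K) = tl g (track .. K)`, `ev_tl`.  For good `σ : Δ (k+1) → Z' × G`:
`Kτ (σ ∘ face i) = Kτ σ ∘ (fl i × id)` on `stdSimplex ×ˢ Icc 0 1` (`ext_face`), so by `ev_congr`,
`ev_lmap` (with `cmb_linear` for `(fl i).prodMap LinearMap.id`), `Pr_nat` and `bd_stdv`:
`cob β σ = ev φ (Kτ σ) (Pr _ (bd e)) = ev φ (Kτ σ) (lmap (·,1) e) - ev φ (Kτ σ) (lmap (·,0) e)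
- ev (cob φ) (Kτ σ) (Pr _ e)`.  The last term vanishes (`ev_eq_zero`, `lift_track`, `Lift.ext`); the first
two are `pb .. φ σ` (`lmap_single`, `ev_single`, `cmb_prod`, `cmb_const`, `cmb_stdv`, `ext_val`; for
`s = 0` the track is constant, `μ.const`; for `s = 1`, `mul_one`). -/

set_option autoImplicit false

namespace Crest.Agent.R251

open Set Metric Topology Crest.Agent.R197 Finsupp

section chain

variable {W W' : Type}

theorem bd_Pr (n : ℕ) (c : LC W (n + 1)) :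
    bd (Pr (n + 1) c) + Pr n (bd c) =
      lmap (fun w => (w, (1 : ℝ))) c - lmap (fun w => (w, (0 : ℝ))) c := by
  exact bd_hty (D := fun _ => lmap (fun w => (w, (1 : ℝ))) - lmap fun w => (w, (0 : ℝ)))
    (fun _ v => (v 0, 0))
    (fun c => by rw [LinearMap.sub_apply, lmap_zero_deg _ (fun w => (w, (0 : ℝ))), sub_self])
    (fun n c => by simp only [LinearMap.sub_apply, map_sub, lmap_bd]) n c

theorem Pr_mem_In {C : Set W} (n : ℕ) {c : LC W n} (hc : c ∈ In C n) :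
    Pr n c ∈ In (C ×ˢ Icc (0 : ℝ) 1) (n + 1) := by
  refine hty_mem_In (C := C) (fun n c hc => ?_)
    (fun n v hv => mk_mem_prod (hv 0) (left_mem_Icc.2 zero_le_one)) n hc
  exact Submodule.sub_mem _
    (lmap_mem_In (fun w hw => mk_mem_prod hw (right_mem_Icc.2 zero_le_one)) hc)
    (lmap_mem_In (fun w hw => mk_mem_prod hw (left_mem_Icc.2 zero_le_one)) hc)

theorem Pr_nat (f : W → W') (n : ℕ) (c : LC W n) :
    lmap (fun p : W × ℝ => (f p.1, p.2)) (Pr n c) = Pr n (lmap f c) := by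
  exact hty_nat f (fun p : W × ℝ => (f p.1, p.2))
    (fun n c => by simp only [LinearMap.sub_apply, map_sub, lmap_lmap]) (fun n v => rfl) n c

end chain

variable {Z Z' : Type} [TopologicalSpace Z] [TopologicalSpace Z'] {G : Type} [Group G]
  {μ : PF (univ : Set Z) G} {μ' : PF (univ : Set Z') G} {S : Set Z} {S' : Set Z'}
  {H : Z' × ℝ → Z} {c₀ : Z' → G}

/-- The lifted homotopy applied to `K`. -/
noncomputable def track (μ : PF (univ : Set Z) G) (H : Z' × ℝ → Z) (c₀ : Z' → G) {W : Type}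
    (K : W → Z' × G) (p : W × ℝ) : Z × G :=
  (H ((K p.1).1, p.2), (K p.1).2 * c₀ (K p.1).1 * μ.val fun b => H ((K p.1).1, b * p.2))

theorem prism_sq (hH : ContinuousOn H (S' ×ˢ Icc 0 1)) {y : ℝ → Z'} (hy : IsPath S' y)
    {s : ℝ → ℝ} (hs : IsPath (Icc 0 1) s) :
    μ.val (fun t => H (y t, s t)) = (μ.val fun b => H (y 0, b * s 0))⁻¹ *
      μ.val (fun t => H (y t, 0)) * μ.val fun b => H (y 1, b * s 1) := by
  have h := μ.sq (fun p => H (y p.1, p.2 * s p.1))
    (hH.comp ((hy.1.comp continuousOn_fst fun _ hp => hp.1).prodMk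
      (continuousOn_snd.mul (hs.1.comp continuousOn_fst fun _ hp => hp.1)))
      fun p hp => ⟨hy.2 hp.1, mul_nonneg hp.2.1 (hs.2 hp.1).1,
        mul_le_one₀ hp.2.2 (hs.2 hp.1).1 (hs.2 hp.1).2⟩) (mapsTo_univ _ _)
  simp only [zero_mul, one_mul] at h
  rw [mul_assoc, h, inv_mul_cancel_left]

theorem lift_track (hH : ContinuousOn H (S' ×ˢ Icc 0 1)) (hS : MapsTo H (S' ×ˢ Icc 0 1) S)
    (h0 : GM μ' S' μ S (fun z => H (z, 0)) c₀) {W : Type} [TopologicalSpace W] {C : Set W}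
    {K : W → Z' × G} (hK : Lift μ' S' C K) : Lift μ S (C ×ˢ Icc 0 1) (track μ H c₀ K) := by
  have hc : ContinuousOn (fun p : W × ℝ => ((K p.1).1, p.2)) (C ×ˢ Icc 0 1) :=
    (hK.cont.comp continuousOn_fst fun _ hp => hp.1).prodMk continuousOn_snd
  have hm : MapsTo (fun p : W × ℝ => ((K p.1).1, p.2)) (C ×ˢ Icc 0 1) (S' ×ˢ Icc 0 1) :=
    fun p hp => ⟨hK.maps hp.1, hp.2⟩
  refine ⟨hH.comp hc hm, hS.comp hm, fun γ hγ => ?_⟩
  have h1 : IsPath C fun t => (γ t).1 := hγ.comp continuousOn_fst fun _ hp => hp.1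
  have h2 : IsPath (Icc 0 1) fun t => (γ t).2 := hγ.comp continuousOn_snd fun _ hp => hp.2
  have h3 : IsPath S' fun t => (K (γ t).1).1 := h1.comp hK.cont hK.maps
  simp only [track]
  rw [prism_sq hH h3 h2, h0.val _ h3, hK.val _ h1]
  group

theorem gm_homotopy (hH : ContinuousOn H (S' ×ˢ Icc 0 1)) (hS : MapsTo H (S' ×ˢ Icc 0 1) S)
    (h0 : GM μ' S' μ S (fun z => H (z, 0)) c₀) :
    GM μ' S' μ S (fun z => H (z, 1)) fun z => c₀ z * μ.val fun s => H (z, s) := by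
  have hm : MapsTo (fun z : Z' => (z, (1 : ℝ))) S' (S' ×ˢ Icc 0 1) :=
    fun z hz => ⟨hz, right_mem_Icc.2 zero_le_one⟩
  refine ⟨hH.comp (continuousOn_id.prodMk continuousOn_const) hm, hS.comp hm, fun γ hγ => ?_⟩
  have := prism_sq (μ := μ) hH hγ (s := fun _ => 1)
    ⟨continuousOn_const, fun _ _ => right_mem_Icc.2 zero_le_one⟩
  simp only [mul_one] at this
  rw [this, h0.val _ hγ]
  group

variable {M : Type} [AddCommGroup M] [DistribMulAction G M]

theorem homotopy (hH : ContinuousOn H (S' ×ˢ Icc 0 1)) (hS : MapsTo H (S' ×ˢ Icc 0 1) S)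
    (h0 : GM μ' S' μ S (fun z => H (z, 0)) c₀) {k : ℕ} {φ : Co (Z × G) M (k + 1)} (hφ : Eqv φ)
    (hδ : Z0 μ S (cob φ)) :
    Cobd μ' S' (pb (fun z => H (z, 1)) (fun z => c₀ z * μ.val fun s => H (z, s)) φ -
      pb (fun z => H (z, 0)) c₀ φ) := by
  have hC : ∀ n, Convex ℝ (stdSimplex ℝ (Fin (n + 1)) ×ˢ Icc (0 : ℝ) 1) := fun n =>
    (convex_stdSimplex ℝ _).prod (convex_Icc 0 1)
  have hI : ∀ n, Pr (n + 1) (single (stdv n) (1 : ℤ)) ∈
      In (stdSimplex ℝ (Fin (n + 1)) ×ˢ Icc (0 : ℝ) 1) (n + 2) := fun n =>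
    Pr_mem_In _ (single_mem_In (stdv_mem n))
  refine ⟨fun τ => ev φ (track μ H c₀ (ext τ)) (Pr (k + 1) (single (stdv k) 1)), fun g τ => ?_,
    fun σ hσ => ?_⟩
  · have e : track μ H c₀ (ext (tl g τ)) = tl g (track μ H c₀ (ext τ)) := by
      have e1 : ext (tl g τ) = tl g (ext τ) := by
        funext y
        simp only [ext, tl]
        split_ifs <;> rfl
      rw [e1]
      funext p
      simp only [track, tl, mul_assoc]
    simp only [e, ev_tl hφ]
  · have hf : ∀ i : Fin (k + 2), ev φ (track μ H c₀ (ext fun x => σ (face i x)))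
        (Pr (k + 1) (single (stdv k) 1)) =
        ev φ (track μ H c₀ (ext σ)) (Pr (k + 1) (lmap (fl i) (single (stdv k) 1))) := by
      intro i
      rw [← Pr_nat, ev_lmap φ _ (fun v x => cmb_linear ((fl i).prodMap LinearMap.id) v x)]
      refine ev_congr φ (hC k) (fun p hp => ?_) (hI k)
      simp only [track, ext_face σ i hp.1]
    have hcob : cob (fun τ => ev φ (track μ H c₀ (ext τ)) (Pr (k + 1) (single (stdv k) 1))) σ =
        ev φ (track μ H c₀ (ext σ)) (Pr (k + 1) (bd (single (stdv (k + 1)) 1))) := by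
      simp only [cob, hf, bd_stdv, map_sum, map_zsmul]
    have hz : ev φ (track μ H c₀ (ext σ)) (bd (Pr (k + 2) (single (stdv (k + 1)) 1))) = 0 := by
      rw [ev_bd]
      exact ev_eq_zero hδ (hC _) (lift_track hH hS h0 (Lift.ext hσ)) (hI _)
    have hs : ∀ s : ℝ, ev φ (track μ H c₀ (ext σ))
        (lmap (fun w => (w, s)) (single (stdv (k + 1)) 1)) =
        φ fun x => (H ((σ x).1, s), (σ x).2 * c₀ (σ x).1 * μ.val fun b => H ((σ x).1, b * s)) := by
      intro s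
      rw [lmap_single, ev_single]
      congr 1
      funext x
      simp only [sx, cmb_prod, cmb_const, cmb_stdv, track, ext_val]
    have hb := congrArg (ev φ (track μ H c₀ (ext σ))) (bd_Pr (k + 1) (single (stdv (k + 1)) 1))
    rw [map_add, map_sub, hz, zero_add, hs, hs] at hb
    rw [Pi.sub_apply, Pi.sub_apply, hcob, hb, sub_eq_zero]
    simp only [pb, gm, mul_one, mul_zero, mul_assoc, μ.const _ (mem_univ _)]

end Crest.Agent.R251
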