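import Crest.Agent.R251.Prism

/-! R251: homotopy retracts and contractible sets.

`gm_retract`: `gm_homotopy` with `gm_id` gives `μ (i ∘ r ∘ γ) = (c₁ (γ 0))⁻¹ * μ γ * c₁ (γ 1)` for
`c₁ z = μ.val (H (z, ·))` (use `μ.congr` and `h0`, `h1`); combine with `hi.val` for the path `r ∘ γ`.
`retract_pb`: `homotopy` (with `μ' = μ`, `S' = S`, `c₀ = 1`; the map `H (·, 0)` is the identity on `S`);
on a good simplex `τ` over `S`, `pb (H (·,1)) (1 * c₁) φ τ = pb r cr (pb i ci φ) τ` and
`pb (H (·,0)) 1 φ τ = φ τ` (`funext`, `h0`, `h1`).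
`van_point`: a good simplex `τ` over `{a}` is constant: the first component is `a`, and the label is
constant because `μ.val (fun _ => a) = 1` (argue as in `Lift.label_triv`, with `Lift.ext`,
`isPath_seg`, `μ.congr`, `μ.const`).  Let `m g = φ (fun _ => (a, g))`.  If `k + 1` is odd,
`cob φ (fun _ => (a,g)) = (∑ i : Fin (k+3), (-1)^i) • m g = m g`, so `φ` vanishes over `{a}`
(`Z0.cobd`).  If `k + 1` is even take `β τ = φ (fun _ => τ (v0 k))` (equivariant), and
`cob β (fun _ => p) = (∑ i : Fin (k+2), (-1)^i) • φ (fun _ => p) = φ (fun _ => p)`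
(`Fin.sum_univ_eq_sum_range`, `neg_one_geom_sum`).
`van_contractible`: `cobd_of_retract` with `S' = {a}`, `i = id`, `r = fun _ => a`. -/

set_option autoImplicit false

namespace Crest.Agent.R251

open Set Metric Topology Crest.Agent.R197

variable {Z Z' : Type} [TopologicalSpace Z] [TopologicalSpace Z'] {G : Type} [Group G]
  {μ : PF (univ : Set Z) G} {μ' : PF (univ : Set Z') G} {S : Set Z} {S' : Set Z'}
  {M : Type} [AddCommGroup M] [DistribMulAction G M] {k : ℕ}

/-- `H` is a homotopy in `S` from the identity to `i ∘ r`. -/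
structure Retr (S : Set Z) (S' : Set Z') (i : Z' → Z) (r : Z → Z') (H : Z × ℝ → Z) : Prop where
  contr : ContinuousOn r S
  mapsr : MapsTo r S S'
  cont : ContinuousOn H (S ×ˢ Icc 0 1)
  maps : MapsTo H (S ×ˢ Icc 0 1) S
  zero : ∀ z ∈ S, H (z, 0) = z
  one : ∀ z ∈ S, H (z, 1) = i (r z)

variable {i : Z' → Z} {r : Z → Z'} {H : Z × ℝ → Z} {ci : Z' → G}

theorem gm_retract (hi : GM μ' S' μ S i ci) (h : Retr S S' i r H) :
    GM μ S μ' S' r fun z => (μ.val fun s => H (z, s)) * (ci (r z))⁻¹ := by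
  refine ⟨h.contr, h.mapsr, fun γ hγ => ?_⟩
  have h0 : GM μ S μ S (fun z => H (z, 0)) fun _ => 1 :=
    ⟨continuousOn_id.congr fun z hz => h.zero z hz, fun z hz => by
      simpa only [h.zero z hz] using hz, fun γ hγ => by
      rw [inv_one, one_mul, mul_one]
      exact μ.congr fun t ht => h.zero _ (hγ.2 ht)⟩
  have h1 := (gm_homotopy h.cont h.maps h0).val γ hγ
  have h2 := hi.val _ (hγ.comp h.contr h.mapsr)
  rw [μ.congr (γ' := fun t => i (r (γ t))) fun t ht => h.one _ (hγ.2 ht), h2] at h1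
  simp only [one_mul] at h1
  have h3 := congrArg (fun x => ci (r (γ 0)) * x * (ci (r (γ 1)))⁻¹) h1
  simp only [mul_assoc, mul_inv_cancel, mul_one, mul_inv_cancel_left] at h3
  rw [h3]
  group

theorem retract_pb (h : Retr S S' i r H) {φ : Co (Z × G) M (k + 1)} (hφ : Eqv φ)
    (hδ : Z0 μ S (cob φ)) :
    Cobd μ S (pb r (fun z => (μ.val fun s => H (z, s)) * (ci (r z))⁻¹) (pb i ci φ) - φ) := by
  have h0 : GM μ S μ S (fun z => H (z, 0)) fun _ => 1 :=
    ⟨continuousOn_id.congr fun z hz => h.zero z hz, fun z hz => by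
      simpa only [h.zero z hz] using hz, fun γ hγ => by
      rw [inv_one, one_mul, mul_one]
      exact μ.congr fun t ht => h.zero _ (hγ.2 ht)⟩
  obtain ⟨β, b1, b2⟩ := homotopy h.cont h.maps h0 hφ hδ
  refine ⟨β, b1, fun τ hτ => ?_⟩
  rw [← b2 τ hτ]
  simp only [Pi.sub_apply, pb, gm]
  congr 3
  · funext x
    rw [h.one _ (hτ.maps (mem_univ x))]
    simp only [mul_assoc, inv_mul_cancel, mul_one, one_mul]
  · funext x
    rw [h.zero _ (hτ.maps (mem_univ x)), mul_one]

theorem cobd_of_retract (hi : GM μ' S' μ S i ci) (h : Retr S S' i r H) {φ : Co (Z × G) M (k + 1)}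
    (hφ : Eqv φ) (hδ : Z0 μ S (cob φ)) (hc : Cobd μ' S' (pb i ci φ)) : Cobd μ S φ :=
  ((hc.pb (gm_retract hi h)).sub (retract_pb h hφ hδ)).of_eq (by abel)

theorem van_of_retract (hi : GM μ' S' μ S i ci) (h : Retr S S' i r H) (hv : Van M μ' S' k) :
    Van M μ S k := fun φ hφ hδ =>
  cobd_of_retract hi h hφ hδ (hv _ (hφ.pb i ci) (Z0.pb hi hδ))

theorem retr_const {a : Z} {n : ℕ} {τ : Δ n → Z × G} (h : Good μ {a} τ) :
    τ = fun _ => (a, (τ (v0 n)).2) := by
  funext x
  have hp := isPath_seg (convex_stdSimplex ℝ _) (v0 n).2 x.2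
  have h1 := (Lift.ext h).val _ hp
  rw [μ.congr (γ' := fun _ => a) fun t ht => (Lift.ext h).maps (hp.2 ht),
    μ.const _ (mem_univ _)] at h1
  simp only [seg_zero, seg_one, ext_val] at h1
  exact Prod.ext (h.maps (mem_univ x)) (eq_of_inv_mul_eq_one h1.symm).symm

theorem retr_cob_const {P : Type} {n : ℕ} (φ : Co P M n) (p : P) :
    cob φ (fun _ => p) = if Even n then 0 else φ fun _ => p := by
  simp only [cob]
  rw [← Finset.sum_smul, Fin.sum_univ_eq_sum_range (fun i => (-1 : ℤ) ^ i), neg_one_geom_sum]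
  by_cases hn : Even n
  · rw [if_pos hn, if_pos (by simpa [parity_simps] using hn), zero_smul]
  · rw [if_neg hn, if_neg (by simpa [parity_simps] using hn), one_smul]

theorem van_point (a : Z) : Van M μ {a} k := by
  intro φ hφ hδ
  by_cases hk : Even (k + 1)
  · refine ⟨fun τ => φ fun _ => τ (v0 k), fun g τ => hφ g fun _ => τ (v0 k), fun τ hτ => ?_⟩
    rw [retr_const hτ, Pi.sub_apply, retr_cob_const, if_neg (Nat.even_add_one.1 hk), sub_self]
  · refine Z0.cobd fun τ hτ => ?_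
    have := hδ _ (lift_const (mem_singleton a) (τ (v0 _)).2)
    rw [retr_cob_const, if_neg hk] at this
    rw [retr_const hτ, this]

theorem van_contractible {a : Z} (ha : a ∈ S) {H : Z × ℝ → Z}
    (hc : ContinuousOn H (S ×ˢ Icc 0 1)) (hm : MapsTo H (S ×ˢ Icc 0 1) S)
    (h0 : ∀ z ∈ S, H (z, 0) = z) (h1 : ∀ z ∈ S, H (z, 1) = a) : Van M μ S k := by
  exact van_of_retract (μ' := μ) (S' := {a}) (i := id) (r := fun _ => a) (H := H)
    (gm_id.mono (singleton_subset_iff.2 ha) (singleton_subset_iff.2 ha))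
    ⟨continuousOn_const, fun _ _ => mem_singleton a, hc, hm, h0, h1⟩ (van_point a)

/-- Star-shaped subsets of a normed space (`H (z, s) = seg z a s`). -/
theorem van_star {W : Type} [NormedAddCommGroup W] [NormedSpace ℝ W] {ν : PF (univ : Set W) G}
    {C : Set W} {a : W} (ha : a ∈ C) (hC : ∀ z ∈ C, ∀ s ∈ Icc (0 : ℝ) 1, seg z a s ∈ C) :
    Van M ν C k := by
  exact van_contractible ha (H := fun p => seg p.1 a p.2) (by unfold seg; fun_prop)
    (fun p hp => hC _ hp.1 _ hp.2) (fun z _ => seg_zero _ _) fun z _ => seg_one _ _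

end Crest.Agent.R251
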