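import Crest.Agent.R251.MV
import Crest.Agent.R251.Retr

/-! R251: the punctured cubes.

`Pn (n+1) = Up n ∪ Um n` with `Up n ∩ Um n = Mid n`.  Both `Up n`, `Um n` are open (`Fin.tail` is
continuous, `tail z ≠ 0` is an open condition) and star-shaped with centre `± Pi.single 0 (1/2)`:
`tail (seg z a s) = (1 - s) • tail z`, and the ball is convex.  `Mid n` deformation retracts onto
`Fin.cons 0 '' Pn n` by `H (z, s) = Fin.cons ((1 - s) * z 0) (tail z)` (sup norm: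
`pi_norm_lt_iff`, `Fin.cases`; continuity: `Continuous.finCons` or `continuous_pi` + `Fin.cases`).
`van_Pn`: induction on `n`; `Pn 0 = ∅` is not needed: for `n = 0`, `Mid 0 = ∅` (`Subsingleton`), use
`mv_van_empty`; for `n + 1 ≤ k` write `k = k' + 1` and use `mv_van`, `van_star`,
`van_of_retract` with `gm_cons`, `retr_Mid`. -/

set_option autoImplicit false

namespace Crest.Agent.R251

open Set Metric Topology Crest.Agent.R197

/-- The complement of the closed negative half axis. -/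
def Up (n : ℕ) : Set (Fin (n + 1) → ℝ) := ball 0 1 ∩ {z | Fin.tail z ≠ 0 ∨ 0 < z 0}

/-- The complement of the closed positive half axis. -/
def Um (n : ℕ) : Set (Fin (n + 1) → ℝ) := ball 0 1 ∩ {z | Fin.tail z ≠ 0 ∨ z 0 < 0}

/-- The complement of the axis. -/
def Mid (n : ℕ) : Set (Fin (n + 1) → ℝ) := ball 0 1 ∩ {z | Fin.tail z ≠ 0}

theorem Pn_two : Pn 2 = Punct := rfl

theorem isOpen_Pn (n : ℕ) : IsOpen (Pn n) := isOpen_ball.sdiff isClosed_singleton

theorem punc_cont_tail (n : ℕ) :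
    Continuous fun z : Fin (n + 1) → ℝ => (Fin.tail z : Fin n → ℝ) :=
  continuous_pi fun i => continuous_apply i.succ

theorem punc_ne_zero {n : ℕ} {z : Fin (n + 1) → ℝ} :
    z ≠ 0 ↔ (Fin.tail z : Fin n → ℝ) ≠ 0 ∨ z 0 ≠ 0 := by
  rw [← not_iff_not]
  push Not
  constructor
  · rintro rfl
    exact ⟨rfl, rfl⟩
  · rintro ⟨h1, h2⟩
    funext i
    exact Fin.cases h2 (fun j => congrFun h1 j) i

theorem punc_single_mem (n : ℕ) {c : ℝ} (hc : |c| < 1) :
    (Pi.single 0 c : Fin (n + 1) → ℝ) ∈ ball (0 : Fin (n + 1) → ℝ) 1 := by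
  rw [mem_ball_zero_iff, Pi.norm_single]
  exact hc

theorem punc_tail_seg {n : ℕ} (z : Fin (n + 1) → ℝ) (c s : ℝ) :
    (Fin.tail (seg z (Pi.single 0 c) s) : Fin n → ℝ) = (1 - s) • Fin.tail z := by
  funext i
  simp only [Fin.tail, seg, Pi.add_apply, Pi.smul_apply, Pi.sub_apply, smul_eq_mul,
    Pi.single_eq_of_ne (Fin.succ_ne_zero i)]
  ring

theorem punc_zero_seg {n : ℕ} (z : Fin (n + 1) → ℝ) (c s : ℝ) :
    seg z (Pi.single 0 c) s 0 = (1 - s) * z 0 + s * c := by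
  simp only [seg, Pi.add_apply, Pi.smul_apply, Pi.sub_apply, smul_eq_mul, Pi.single_eq_same]
  ring

theorem punc_cons_mem {n : ℕ} {a : ℝ} {w : Fin n → ℝ} (ha : |a| < 1)
    (hw : w ∈ ball (0 : Fin n → ℝ) 1) :
    (Fin.cons a w : Fin (n + 1) → ℝ) ∈ ball (0 : Fin (n + 1) → ℝ) 1 := by
  rw [mem_ball_zero_iff, pi_norm_lt_iff one_pos] at hw ⊢
  intro i
  exact Fin.cases (by simpa using ha) (fun j => by simpa using hw j) i

theorem punc_tail_mem {n : ℕ} {z : Fin (n + 1) → ℝ} (hz : z ∈ ball (0 : Fin (n + 1) → ℝ) 1) :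
    (Fin.tail z : Fin n → ℝ) ∈ ball (0 : Fin n → ℝ) 1 := by
  rw [mem_ball_zero_iff, pi_norm_lt_iff one_pos] at hz ⊢
  exact fun j => hz j.succ

theorem isOpen_Up (n : ℕ) : IsOpen (Up n) := by
  exact isOpen_ball.inter ((isOpen_ne_fun (punc_cont_tail n) continuous_const).union
    (isOpen_lt continuous_const (continuous_apply 0)))

theorem isOpen_Um (n : ℕ) : IsOpen (Um n) := by
  exact isOpen_ball.inter ((isOpen_ne_fun (punc_cont_tail n) continuous_const).union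
    (isOpen_lt (continuous_apply 0) continuous_const))

theorem Up_inter_Um (n : ℕ) : Up n ∩ Um n = Mid n := by
  ext z
  constructor
  · rintro ⟨⟨hz, h1 | h1⟩, -, h2 | h2⟩
    · exact ⟨hz, h1⟩
    · exact ⟨hz, h1⟩
    · exact ⟨hz, h2⟩
    · exact absurd h1 (not_lt.2 h2.le)
  · rintro ⟨hz, h⟩
    exact ⟨⟨hz, Or.inl h⟩, hz, Or.inl h⟩

theorem Up_union_Um (n : ℕ) : Up n ∪ Um n = Pn (n + 1) := by
  ext z
  constructor
  · rintro (⟨hz, h⟩ | ⟨hz, h⟩)
    · exact ⟨hz, punc_ne_zero.2 (h.imp_right ne_of_gt)⟩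
    · exact ⟨hz, punc_ne_zero.2 (h.imp_right ne_of_lt)⟩
  · rintro ⟨hz, h⟩
    rcases punc_ne_zero.1 h with h | h
    · exact Or.inl ⟨hz, Or.inl h⟩
    · rcases lt_or_gt_of_ne h with h | h
      · exact Or.inr ⟨hz, Or.inr h⟩
      · exact Or.inl ⟨hz, Or.inr h⟩

theorem cov_Pn (n : ℕ) : Cov (Pn (n + 1)) (Up n) fun _ : Unit => Um n := by
  rw [← Up_union_Um]
  refine ⟨subset_union_left, fun _ => subset_union_right, ?_, fun _ _ _ _ _ => rfl⟩
  rintro z (hz | hz)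
  · exact Or.inl (mem_nhdsWithin_of_mem_nhds ((isOpen_Up n).mem_nhds hz))
  · exact Or.inr ⟨(), mem_nhdsWithin_of_mem_nhds ((isOpen_Um n).mem_nhds hz)⟩

theorem single_mem_Up (n : ℕ) : (Pi.single 0 (1 / 2) : Fin (n + 1) → ℝ) ∈ Up n := by
  exact ⟨punc_single_mem n (by rw [abs_lt]; norm_num), Or.inr (by simp)⟩

theorem single_mem_Um (n : ℕ) : (Pi.single 0 (-1 / 2) : Fin (n + 1) → ℝ) ∈ Um n := by
  exact ⟨punc_single_mem n (by rw [abs_lt]; norm_num), Or.inr (by simp; norm_num)⟩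

theorem star_Up (n : ℕ) : ∀ z ∈ Up n, ∀ s ∈ Icc (0 : ℝ) 1,
    seg z (Pi.single 0 (1 / 2)) s ∈ Up n := by
  intro z hz s hs
  refine ⟨(convex_ball _ _).add_smul_sub_mem hz.1 (single_mem_Up n).1 hs, ?_⟩
  rw [mem_setOf_eq, punc_tail_seg, punc_zero_seg]
  rcases hs.2.eq_or_lt with rfl | h1
  · right; norm_num
  rcases hz.2 with h | h
  · exact Or.inl (smul_ne_zero (sub_pos.2 h1).ne' h)
  · right
    nlinarith [mul_pos (sub_pos.2 h1) h, hs.1]

theorem star_Um (n : ℕ) : ∀ z ∈ Um n, ∀ s ∈ Icc (0 : ℝ) 1,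
    seg z (Pi.single 0 (-1 / 2)) s ∈ Um n := by
  intro z hz s hs
  refine ⟨(convex_ball _ _).add_smul_sub_mem hz.1 (single_mem_Um n).1 hs, ?_⟩
  rw [mem_setOf_eq, punc_tail_seg, punc_zero_seg]
  rcases hs.2.eq_or_lt with rfl | h1
  · right; norm_num
  rcases hz.2 with h | h
  · exact Or.inl (smul_ne_zero (sub_pos.2 h1).ne' h)
  · right
    nlinarith [mul_pos (sub_pos.2 h1) (neg_pos.2 h), hs.1]

theorem continuous_cons0 (n : ℕ) :
    Continuous fun z : Fin n → ℝ => (Fin.cons 0 z : Fin (n + 1) → ℝ) := by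
  exact continuous_pi fun i => Fin.cases continuous_const (fun j => continuous_apply j) i

theorem mapsTo_cons0 (n : ℕ) :
    MapsTo (fun z : Fin n → ℝ => (Fin.cons 0 z : Fin (n + 1) → ℝ)) (Pn n) (Mid n) := by
  exact fun z hz => ⟨punc_cons_mem (by simp) hz.1, hz.2⟩

theorem retr_Mid (n : ℕ) : Retr (Mid n) (Pn n) (fun z => (Fin.cons 0 z : Fin (n + 1) → ℝ))
    (fun z => Fin.tail z) fun p => (Fin.cons ((1 - p.2) * p.1 0) (Fin.tail p.1) : Fin (n + 1) → ℝ) := by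
  refine ⟨(punc_cont_tail n).continuousOn, fun z hz => ⟨punc_tail_mem hz.1, hz.2⟩, ?_, ?_, ?_, ?_⟩
  · refine Continuous.continuousOn (continuous_pi fun i => Fin.cases ?_ (fun j => ?_) i)
    · simp only [Fin.cons_zero]
      fun_prop
    · simp only [Fin.cons_succ, Fin.tail]
      fun_prop
  · rintro ⟨z, s⟩ ⟨hz, hs⟩
    refine ⟨punc_cons_mem ?_ (punc_tail_mem hz.1), hz.2⟩
    have h1 : |z 0| < 1 := (pi_norm_lt_iff one_pos).1 (mem_ball_zero_iff.1 hz.1) 0
    have h2 : 0 ≤ 1 - s := sub_nonneg.2 hs.2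
    rw [abs_mul, abs_of_nonneg h2]
    nlinarith [hs.1, abs_nonneg (z 0)]
  · intro z _
    simp
  · intro z _
    simp

variable {G : Type} [Group G] {M : Type} [AddCommGroup M] [DistribMulAction G M]

theorem gm_cons (n : ℕ) : GM (triv (Fin n → ℝ) G) (Pn n) (triv (Fin (n + 1) → ℝ) G) (Mid n)
    (fun z => Fin.cons 0 z) fun _ => 1 :=
  ⟨(continuous_cons0 n).continuousOn, mapsTo_cons0 n, fun _ _ => by simp [triv, pfbTriv]⟩

theorem van_Up (n k : ℕ) : Van M (triv (Fin (n + 1) → ℝ) G) (Up n) k :=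
  van_star (single_mem_Up n) (star_Up n)

theorem van_Um (n k : ℕ) : Van M (triv (Fin (n + 1) → ℝ) G) (Um n) k :=
  van_star (single_mem_Um n) (star_Um n)

/-- `H^(k+1)` of the punctured `(n+1)`-cube vanishes for `k ≥ n`. -/
theorem van_Pn (n k : ℕ) (h : n ≤ k) : Van M (triv (Fin (n + 1) → ℝ) G) (Pn (n + 1)) k := by
  induction n generalizing k with
  | zero =>
    refine mv_van_empty (cov_Pn 0) (van_Up 0 k) (fun _ => van_Um 0 k) fun _ => ?_
    rw [Up_inter_Um]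
    exact eq_empty_of_forall_notMem fun z hz => hz.2 (Subsingleton.elim _ _)
  | succ n ih =>
    obtain ⟨k', rfl⟩ : ∃ k', k = k' + 1 := ⟨k - 1, by omega⟩
    refine mv_van (cov_Pn (n + 1)) (van_Up _ _) (fun _ => van_Um _ _) fun _ => ?_
    rw [Up_inter_Um]
    exact van_of_retract (gm_cons (n + 1)) (retr_Mid (n + 1)) (ih k' (by omega))

end Crest.Agent.R251
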