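import Crest.Agent.R251.Chain

/-! R251: barycentric subdivision of vertex chains.

`bd_Sd`: induction on `n`: `bd (cone b (Sd (bd v))) = Sd (bd v) - cone b (bd (Sd (bd v)))` and
`bd (Sd (bd v)) = Sd (bd (bd v)) = 0`; for `n = 0` use `bd_cone_zero`.  `bd_TT` is `bd_hty`,
`TT_mem_In` is `hty_mem_In`, `TT_nat` is `hty_nat` (`bary` commutes with linear maps and lies in every
convex set containing the vertices: `Convex.sum_mem`).
`Sd_mem_Dm`: induction on `n`, on a generator `v` (`supported_le`) with all `dist (v i) (v j) ≤ r`.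
The faces of `v` have the same properties, so `x = Sd n (bd v) ∈ Dm C ((n-1)/n * r) n`, a subset of
`Dm C (n/(n+1) * r) n` (`r ≥ 0`); also `dist (bary v) (v i) ≤ n/(n+1) * r`
(`bary v - v i = ∑ j, (n+1)⁻¹ • (v j - v i)`, the term `j = i` vanishes), so `x ∈ In B n` for the convex
set `B = closedBall (bary v) (n/(n+1) * r)` (`Sd_mem_In`).  A tuple `w` in the support of `x` has both
properties, hence `Fin.cons (bary v) w` has diameter `≤ n/(n+1) * r` (`Finsupp.supported_inter` or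
`mem_supported`).  It is convenient to prove the statement with a general `q`: if
`n/(n+1) ≤ q` then `Sd (n+1)` maps `Dm C r (n+1)` to `Dm C (q*r) (n+1)`.
`exists_pow_Sd`: `single (stdv k) 1 ∈ Dm _ 1 _` (sup norm), `(k/(k+1))^m → 0`. -/

set_option autoImplicit false

namespace Crest.Agent.R251

open Set Metric Topology Crest.Agent.R197 Finsupp

section alg

variable {W W' : Type} [AddCommGroup W] [Module ℝ W] [AddCommGroup W'] [Module ℝ W']

theorem Sd_single {n : ℕ} (v : Fin (n + 1) → W) :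
    Sd (n + 1) (single v 1) = cone (bary v) (Sd n (bd (single v 1))) := by
  rw [Sd, linearCombination_single, one_smul]

theorem bd_Sd (n : ℕ) (c : LC W (n + 1)) : bd (Sd (n + 1) c) = Sd n (bd c) := by
  induction n with
  | zero =>
    have h := lc_ext (f := (bd : LC W (0 + 1) →ₗ[ℤ] LC W 0) ∘ₗ Sd (0 + 1)) (g := Sd 0 ∘ₗ bd)
      (fun v => by rw [LinearMap.comp_apply, LinearMap.comp_apply, Sd_single, bd_cone_zero]) c
    rwa [LinearMap.comp_apply, LinearMap.comp_apply] at h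
  | succ n ih =>
    have h := lc_ext (f := (bd : LC W (n + 1 + 1) →ₗ[ℤ] LC W (n + 1)) ∘ₗ Sd (n + 1 + 1))
      (g := Sd (n + 1) ∘ₗ bd) (fun v => by
        rw [LinearMap.comp_apply, LinearMap.comp_apply, Sd_single, bd_cone, ih, bd_bd, map_zero,
          map_zero, sub_zero]) c
    rwa [LinearMap.comp_apply, LinearMap.comp_apply] at h

theorem bd_TT (n : ℕ) (c : LC W (n + 1)) :
    bd (TT (n + 1) c) + TT n (bd c) = c - Sd (n + 1) c := by
  exact bd_hty (D := fun n => LinearMap.id - Sd n) (fun _ => bary) (fun c => sub_self c)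
    (fun n c => by
      simp only [LinearMap.sub_apply, LinearMap.id_apply, map_sub, bd_Sd]) n c

theorem bary_mem {C : Set W} (hC : Convex ℝ C) {n : ℕ} {v : Fin (n + 1) → W} (hv : ∀ i, v i ∈ C) :
    bary v ∈ C := by
  refine hC.sum_mem (fun i _ => by positivity) ?_ fun i _ => hv i
  rw [Finset.sum_const, Finset.card_univ, Fintype.card_fin, nsmul_eq_mul]
  push_cast
  exact mul_inv_cancel₀ (by positivity)

theorem Sd_mem_In {C : Set W} (hC : Convex ℝ C) (n : ℕ) {c : LC W n} (hc : c ∈ In C n) :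
    Sd n c ∈ In C n := by
  induction n with
  | zero => exact mem_In_zero _ _
  | succ n ih =>
    refine In_le (Sd (n + 1)) _ (fun v hv => ?_) hc
    rw [Sd_single]
    exact cone_mem_In (bary_mem hC hv) (ih (bd_mem_In (single_mem_In hv)))

theorem TT_mem_In {C : Set W} (hC : Convex ℝ C) (n : ℕ) {c : LC W n} (hc : c ∈ In C n) :
    TT n c ∈ In C (n + 1) := by
  exact hty_mem_In (D := fun n => LinearMap.id - Sd n) (C := C)
    (fun n c hc => Submodule.sub_mem _ hc (Sd_mem_In hC n hc))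
    (fun _ _ hv => bary_mem hC hv) n hc

theorem sd_bary_nat (f : W →ₗ[ℝ] W') {n : ℕ} (v : Fin (n + 1) → W) :
    f (bary v) = bary fun i => f (v i) := by
  simp only [bary, map_sum, map_smul]

theorem Sd_nat (f : W →ₗ[ℝ] W') (n : ℕ) (c : LC W n) : lmap f (Sd n c) = Sd n (lmap f c) := by
  induction n with
  | zero => rfl
  | succ n ih =>
    refine lc_ext (f := lmap f ∘ₗ Sd (n + 1)) (g := Sd (n + 1) ∘ₗ lmap f) (fun v => ?_) c
    rw [LinearMap.comp_apply, LinearMap.comp_apply, Sd_single, lmap_cone, ih, lmap_bd,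
      lmap_single, Sd_single, sd_bary_nat]

theorem TT_nat (f : W →ₗ[ℝ] W') (n : ℕ) (c : LC W n) : lmap f (TT n c) = TT n (lmap f c) := by
  exact hty_nat (D := fun n => LinearMap.id - Sd n) (D₂ := fun n => LinearMap.id - Sd n) f f
    (fun n c => by
      simp only [LinearMap.sub_apply, LinearMap.id_apply, map_sub, Sd_nat])
    (fun _ v => sd_bary_nat f v) n c

/-- Iterated subdivision. -/
noncomputable def Sdp (n m : ℕ) : LC W n →ₗ[ℤ] LC W n := (Sd n : Module.End ℤ (LC W n)) ^ m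

theorem Sdp_zero (n : ℕ) (c : LC W n) : Sdp n 0 c = c := by simp [Sdp]

theorem Sdp_succ (n m : ℕ) (c : LC W n) : Sdp n (m + 1) c = Sd n (Sdp n m c) := by
  simp [Sdp, pow_succ']

theorem bd_Sdp (n m : ℕ) (c : LC W (n + 1)) : bd (Sdp (n + 1) m c) = Sdp n m (bd c) := by
  induction m with
  | zero => rw [Sdp_zero, Sdp_zero]
  | succ m ih => rw [Sdp_succ, Sdp_succ, bd_Sd, ih]

theorem Sdp_mem_In {C : Set W} (hC : Convex ℝ C) (n m : ℕ) {c : LC W n} (hc : c ∈ In C n) :
    Sdp n m c ∈ In C n := by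
  induction m with
  | zero => rwa [Sdp_zero]
  | succ m ih => rw [Sdp_succ]; exact Sd_mem_In hC n ih

theorem Sdp_nat (f : W →ₗ[ℝ] W') (n m : ℕ) (c : LC W n) :
    lmap f (Sdp n m c) = Sdp n m (lmap f c) := by
  induction m with
  | zero => rw [Sdp_zero, Sdp_zero]
  | succ m ih => rw [Sdp_succ, Sdp_succ, Sd_nat, ih]

end alg

variable {W : Type} [NormedAddCommGroup W] [NormedSpace ℝ W]

/-- Chains of simplices with vertices in `C` and diameter at most `r`. -/
def Dm (C : Set W) (r : ℝ) (n : ℕ) : Submodule ℤ (LC W n) :=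
  supported ℤ ℤ {v | (∀ i, v i ∈ C) ∧ ∀ i j, dist (v i) (v j) ≤ r}

theorem sd_dist_bary {n : ℕ} {v : Fin (n + 1) → W} {r : ℝ} (hv : ∀ i j, dist (v i) (v j) ≤ r)
    (i : Fin (n + 1)) : dist (v i) (bary v) ≤ (n : ℝ) / (n + 1) * r := by
  have hn : (0 : ℝ) < (n : ℝ) + 1 := by positivity
  have h1 : v i - bary v = ∑ j, ((n : ℝ) + 1)⁻¹ • (v i - v j) := by
    simp only [smul_sub, Finset.sum_sub_distrib, bary, Finset.sum_const, Finset.card_univ,
      Fintype.card_fin]
    rw [← Nat.cast_smul_eq_nsmul ℝ, smul_smul]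
    push_cast
    rw [mul_inv_cancel₀ hn.ne', one_smul]
  rw [dist_eq_norm, h1, Fin.sum_univ_succAbove _ i, sub_self, smul_zero, zero_add]
  refine (norm_sum_le _ _).trans ?_
  calc ∑ j : Fin n, ‖((n : ℝ) + 1)⁻¹ • (v i - v (i.succAbove j))‖
      ≤ ∑ _j : Fin n, ((n : ℝ) + 1)⁻¹ * r := by
        refine Finset.sum_le_sum fun j _ => ?_
        rw [norm_smul, Real.norm_eq_abs, abs_of_pos (inv_pos.2 hn), ← dist_eq_norm]
        exact mul_le_mul_of_nonneg_left (hv _ _) (inv_pos.2 hn).le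
    _ = _ := by
        rw [Finset.sum_const, Finset.card_univ, Fintype.card_fin, nsmul_eq_mul]
        ring

omit [NormedSpace ℝ W] in
theorem sd_bd_mem_Dm {C : Set W} {r : ℝ} {n : ℕ} {c : LC W (n + 1)} (hc : c ∈ Dm C r (n + 1)) :
    bd c ∈ Dm C r n := by
  refine supported_le bd _ (fun v hv => ?_) hc
  rw [bd_single]
  exact Submodule.sum_mem _ fun i _ => Submodule.smul_mem _ _
    (single_mem_supported ℤ 1 ⟨fun j => hv.1 _, fun j k => hv.2 _ _⟩)

omit [NormedSpace ℝ W] in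
theorem sd_cone_mem_Dm {C : Set W} {r : ℝ} (hr : 0 ≤ r) {n : ℕ} {a : W} (ha : a ∈ C) {c : LC W n}
    (hc : c ∈ Dm C r n) (hc' : c ∈ In (closedBall a r) n) : cone a c ∈ Dm C r (n + 1) := by
  have h : c ∈ supported ℤ ℤ ({v | (∀ i, v i ∈ C) ∧ ∀ i j, dist (v i) (v j) ≤ r} ∩
      {v : Fin n → W | ∀ i, v i ∈ closedBall a r}) := fun v hv => ⟨hc hv, hc' hv⟩
  refine supported_le (cone a) _ (fun v hv => ?_) h
  rw [cone_single]
  refine single_mem_supported ℤ 1 ⟨fun j => ?_, fun j k => ?_⟩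
  · exact Fin.cases (by simpa using ha) (fun j => by simpa using hv.1.1 j) j
  · refine Fin.cases ?_ (fun j => ?_) j <;> refine Fin.cases ?_ (fun k => ?_) k
    · simpa using hr
    · simpa [dist_comm] using hv.2 k
    · simpa using hv.2 j
    · simpa using hv.1.2 j k

theorem sd_mem_Dm_aux {C : Set W} (hC : Convex ℝ C) {r q : ℝ} (hr : 0 ≤ r) (n : ℕ)
    (hq : (n : ℝ) / (n + 1) ≤ q) {c : LC W (n + 1)} (hc : c ∈ Dm C r (n + 1)) :
    Sd (n + 1) c ∈ Dm C (q * r) (n + 1) := by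
  have hq0 : 0 ≤ q := le_trans (by positivity) hq
  have key : ∀ (n : ℕ), (n : ℝ) / (n + 1) ≤ q → ∀ v : Fin (n + 1) → W, (∀ i, v i ∈ C) →
      (∀ i j, dist (v i) (v j) ≤ r) → Sd n (bd (single v 1)) ∈ Dm C (q * r) n →
      Sd (n + 1) (single v 1) ∈ Dm C (q * r) (n + 1) := by
    intro n hq v h1 h2 h3
    rw [Sd_single]
    refine sd_cone_mem_Dm (mul_nonneg hq0 hr) (bary_mem hC h1) h3 ?_
    refine Sd_mem_In (convex_closedBall _ _) n (bd_mem_In (single_mem_In fun i => ?_))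
    exact (sd_dist_bary h2 i).trans (mul_le_mul_of_nonneg_right hq hr)
  induction n with
  | zero =>
    refine supported_le (Sd 1) _ (fun v hv => key 0 hq v hv.1 hv.2 ?_) hc
    exact fun w _ => ⟨fun i => i.elim0, fun i => i.elim0⟩
  | succ n ih =>
    refine supported_le (Sd (n + 2)) _ (fun v hv => key (n + 1) hq v hv.1 hv.2 ?_) hc
    refine ih (le_trans ?_ hq) (sd_bd_mem_Dm (single_mem_supported ℤ 1 hv))
    push_cast
    rw [div_le_div_iff₀ (by positivity) (by positivity)]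
    nlinarith

theorem Sd_mem_Dm {C : Set W} (hC : Convex ℝ C) {r : ℝ} (hr : 0 ≤ r) (n : ℕ) {c : LC W (n + 1)}
    (hc : c ∈ Dm C r (n + 1)) : Sd (n + 1) c ∈ Dm C ((n : ℝ) / (n + 1) * r) (n + 1) := by
  exact sd_mem_Dm_aux hC hr n le_rfl hc

theorem exists_pow_Sd (k : ℕ) {δ : ℝ} (hδ : 0 < δ) : ∃ m₀ : ℕ, ∀ m, m₀ ≤ m →
    Sdp (k + 1) m (single (stdv k) 1) ∈ Dm (stdSimplex ℝ (Fin (k + 1))) δ (k + 1) := by
  have hq0 : 0 ≤ (k : ℝ) / (k + 1) := by positivity
  have hq1 : (k : ℝ) / (k + 1) < 1 := by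
    rw [div_lt_one (by positivity)]
    linarith
  have h1 : ∀ m, Sdp (k + 1) m (single (stdv k) 1) ∈
      Dm (stdSimplex ℝ (Fin (k + 1))) (((k : ℝ) / (k + 1)) ^ m) (k + 1) := by
    intro m
    induction m with
    | zero =>
      rw [Sdp_zero, pow_zero]
      refine single_mem_supported ℤ 1 ⟨stdv_mem k, fun i j => ?_⟩
      refine (dist_pi_le_iff zero_le_one).2 fun l => ?_
      simp only [stdv, Pi.single_apply]
      split_ifs <;> simp
    | succ m ih =>
      rw [Sdp_succ, pow_succ']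
      exact Sd_mem_Dm (convex_stdSimplex ℝ _) (pow_nonneg hq0 m) k ih
  obtain ⟨m₀, hm₀⟩ := exists_pow_lt_of_lt_one hδ hq1
  refine ⟨m₀, fun m hm v hv => ⟨(h1 m hv).1, fun i j => ((h1 m hv).2 i j).trans ?_⟩⟩
  exact (pow_le_pow_of_le_one hq0 hq1.le hm).trans hm₀.le

end Crest.Agent.R251
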