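import Crest.Agent.R251.Sd

/-! R251: a cocycle that vanishes on small simplices is the coboundary of a cochain that vanishes on
small simplices.

Let `e k = single (stdv k) 1`, `T j = TT (k+1) (Sdp (k+1) j (e k))` and
`χ τ = ∑ᶠ j : ℕ, ev φ (ext τ) (T j)`.

* `small_lebesgue`: for a good `τ : Δ n → Z × G` over `S` there is `δ > 0` such that for every
  `y ∈ stdSimplex`, `ext τ` maps `stdSimplex ∩ closedBall y δ` over some `S ∩ U i` (Lebesgue number of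
  the open cover `interior ((fst ∘ τ) ⁻¹' U i)` of the compact space `Δ n`;
  `lebesgue_number_lemma_of_metric`; `U i ∈ 𝓝[S] z` pulls back to a neighbourhood because `fst ∘ τ`
  is continuous with values in `S`, `ContinuousWithinAt.tendsto_nhdsWithin`).
* Hence for `c ∈ Dm stdSimplex δ _` and a cochain `ψ` vanishing over all `S ∩ U i`:
  `ev ψ (ext τ) c = 0` and `ev ψ (ext τ) (TT _ c) = 0` (`supported_le` with `Q = ⊥` or the kernel; a
  generator `v` lies in `In B` for the convex set `B = stdSimplex ∩ closedBall (v 0) δ`; `TT_mem_In`,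
  `ev_eq_zero` with `(Lift.ext hτ).mono_left _ |>.of_maps _`).  So for good `τ` the terms of `χ τ`
  vanish for `j ≥ m₀` (`exists_pow_Sd`) and `χ τ = ∑ j ∈ range m, ..` for all `m ≥ m₀`
  (`finsum_eq_sum_of_support_subset`).
* `Eqv χ`: `ext (tl g τ) = tl g (ext τ)`, `ev_tl`, and `g • ·` is an additive equivalence
  (`AddEquiv.map_finsum` with `DistribMulAction.toAddEquiv`).
* If `τ` is good over `S ∩ U i`, all terms vanish (`T j ∈ In stdSimplex`).
* For good `σ : Δ (k+1) → Z × G` take `m` that works for `σ` and its faces.  For a face,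
  `ev φ (ext (σ ∘ face i)) (T j) = ev φ (ext σ) (lmap (fl i) (T j))` (`ev_congr` with `ext_face`,
  `ev_lmap` with `cmb_linear`), and `TT_nat`, `Sdp_nat`, `bd_stdv`, `bd_Sdp` give
  `cob χ σ = ∑ j < m, ev φ (ext σ) (TT _ (bd (Sdp _ j (e (k+1)))))`.  By `bd_TT` each term is
  `ev φ (ext σ) (Sdp j e) - ev φ (ext σ) (Sdp (j+1) e) - ev (cob φ) (ext σ) (TT (Sdp j e))`; the last
  vanishes (`ev_bd`, `ev_eq_zero`), the sum telescopes (`Finset.sum_range_sub'`) to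
  `φ σ - ev φ (ext σ) (Sdp m e) = φ σ` (`sx_ext_stdv`). -/

set_option autoImplicit false

namespace Crest.Agent.R251

open Set Metric Topology Crest.Agent.R197 Finsupp

variable {Z : Type} [TopologicalSpace Z] {G : Type} [Group G] {μ : PF (univ : Set Z) G}
  {M : Type} [AddCommGroup M] [DistribMulAction G M]

theorem small_lebesgue {S : Set Z} {ι : Type} {U : ι → Set Z} (hU : ∀ z ∈ S, ∃ i, U i ∈ 𝓝[S] z)
    {n : ℕ} {τ : Δ n → Z × G} (hτ : Good μ S τ) :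
    ∃ δ > 0, ∀ y ∈ stdSimplex ℝ (Fin (n + 1)), ∃ i,
      MapsTo (fun w => (ext τ w).1) (stdSimplex ℝ (Fin (n + 1)) ∩ closedBall y δ) (S ∩ U i) := by
  have hcont : Continuous fun x => (τ x).1 := continuousOn_univ.1 hτ.cont
  obtain ⟨δ, hδ, h⟩ := lebesgue_number_lemma_of_metric (s := (univ : Set (Δ n)))
    (c := fun i => interior {x | (τ x).1 ∈ U i}) isCompact_univ (fun _ => isOpen_interior) (by
      intro x _
      obtain ⟨i, hi⟩ := hU _ (hτ.maps (mem_univ x))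
      refine mem_iUnion.2 ⟨i, mem_interior_iff_mem_nhds.2 ?_⟩
      have h1 : Filter.Tendsto (fun x => (τ x).1) (𝓝 x) (𝓝[S] (τ x).1) :=
        tendsto_nhdsWithin_iff.2 ⟨hcont.tendsto x,
          Filter.Eventually.of_forall fun y => hτ.maps (mem_univ y)⟩
      exact h1 hi)
  refine ⟨δ / 2, half_pos hδ, fun y hy => ?_⟩
  obtain ⟨i, hi⟩ := h ⟨y, hy⟩ (mem_univ _)
  refine ⟨i, fun w hw => ?_⟩
  have e : ext τ w = τ ⟨w, hw.1⟩ := ext_val τ ⟨w, hw.1⟩
  simp only [e]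
  have h2 : (⟨w, hw.1⟩ : Δ n) ∈ ball (⟨y, hy⟩ : Δ n) δ :=
    lt_of_le_of_lt (mem_closedBall.1 hw.2) (half_lt_self hδ)
  have h3 := interior_subset (hi h2)
  exact ⟨hτ.maps (mem_univ _), h3⟩

omit [DistribMulAction G M] in
/-- A cochain vanishing on small simplices vanishes on the image of fine chains. -/
theorem small_ev_zero {S : Set Z} {ι : Type} {U : ι → Set Z} {n : ℕ} {τ : Δ n → Z × G}
    (hτ : Good μ S τ) {δ : ℝ}
    (hδ : ∀ y ∈ stdSimplex ℝ (Fin (n + 1)), ∃ i,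
      MapsTo (fun w => (ext τ w).1) (stdSimplex ℝ (Fin (n + 1)) ∩ closedBall y δ) (S ∩ U i))
    {l p : ℕ} {ψ : Co (Z × G) M l} (h0 : ∀ i, Z0 μ (S ∩ U i) ψ)
    (L : LC (Fin (n + 1) → ℝ) (p + 1) →ₗ[ℤ] LC (Fin (n + 1) → ℝ) (l + 1))
    (hL : ∀ B, Convex ℝ B → ∀ c ∈ In B (p + 1), L c ∈ In B (l + 1))
    {c : LC (Fin (n + 1) → ℝ) (p + 1)} (hc : c ∈ Dm (stdSimplex ℝ (Fin (n + 1))) δ (p + 1)) :
    ev ψ (ext τ) (L c) = 0 := by
  refine (Submodule.mem_bot ℤ).1 (supported_le (ev ψ (ext τ) ∘ₗ L) ⊥ (fun v hv => ?_) hc)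
  obtain ⟨i, hi⟩ := hδ (v 0) (hv.1 0)
  have hB : Convex ℝ (stdSimplex ℝ (Fin (n + 1)) ∩ closedBall (v 0) δ) :=
    (convex_stdSimplex ℝ _).inter (convex_closedBall _ _)
  rw [Submodule.mem_bot, LinearMap.comp_apply]
  exact ev_eq_zero (h0 i) hB (((Lift.ext hτ).mono_left inter_subset_left).of_maps hi)
    (hL _ hB _ (single_mem_In fun j => ⟨hv.1 j, hv.2 j 0⟩))

omit [DistribMulAction G M] in
theorem small_eventually {S : Set Z} {ι : Type} {U : ι → Set Z}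
    (hU : ∀ z ∈ S, ∃ i, U i ∈ 𝓝[S] z) {n : ℕ} {τ : Δ n → Z × G} (hτ : Good μ S τ)
    {l : ℕ} {ψ : Co (Z × G) M l} (h0 : ∀ i, Z0 μ (S ∩ U i) ψ)
    (L : LC (Fin (n + 1) → ℝ) (n + 1) →ₗ[ℤ] LC (Fin (n + 1) → ℝ) (l + 1))
    (hL : ∀ B, Convex ℝ B → ∀ c ∈ In B (n + 1), L c ∈ In B (l + 1)) :
    ∃ m₀, ∀ m, m₀ ≤ m → ev ψ (ext τ) (L (Sdp (n + 1) m (single (stdv n) 1))) = 0 := by
  obtain ⟨δ, hδ0, hδ⟩ := small_lebesgue hU hτ
  obtain ⟨m₀, h⟩ := exists_pow_Sd n hδ0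
  exact ⟨m₀, fun m hm => small_ev_zero hτ hδ h0 L hL (h m hm)⟩

theorem small_ext_tl {Z : Type} {n : ℕ} (g : G) (τ : Δ n → Z × G) :
    ext (tl g τ) = tl g (ext τ) := by
  funext y
  by_cases h : y ∈ stdSimplex ℝ (Fin (n + 1)) <;> simp [ext, tl, h]

theorem small {S : Set Z} {ι : Type} {U : ι → Set Z} (hU : ∀ z ∈ S, ∃ i, U i ∈ 𝓝[S] z) {k : ℕ}
    {φ : Co (Z × G) M (k + 1)} (hφ : Eqv φ) (hc : Z0 μ S (cob φ))
    (h0 : ∀ i, Z0 μ (S ∩ U i) φ) :
    ∃ χ : Co (Z × G) M k, Eqv χ ∧ Z0 μ S (φ - cob χ) ∧ ∀ i, Z0 μ (S ∩ U i) χ := by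
  have hcv : ∀ n, Convex ℝ (stdSimplex ℝ (Fin (n + 1))) := fun n => convex_stdSimplex ℝ _
  have hSd : ∀ n j, Sdp (n + 1) j (single (stdv n) (1 : ℤ)) ∈
      In (stdSimplex ℝ (Fin (n + 1))) (n + 1) := fun n j =>
    Sdp_mem_In (hcv n) _ _ (single_mem_In (stdv_mem n))
  set T : ℕ → LC (Fin (k + 1) → ℝ) (k + 1 + 1) :=
    fun j => TT (k + 1) (Sdp (k + 1) j (single (stdv k) 1)) with hT
  have hTin : ∀ j, T j ∈ In (stdSimplex ℝ (Fin (k + 1))) (k + 1 + 1) := fun j =>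
    TT_mem_In (hcv k) _ (hSd k j)
  refine ⟨fun τ => ∑ᶠ j : ℕ, ev φ (ext τ) (T j), fun g τ => ?_, fun σ hσ => ?_, fun i τ hτ => ?_⟩
  · simp only [small_ext_tl, ev_tl hφ]
    exact ((DistribMulAction.toAddEquiv M g).map_finsum _).symm
  · have hfin : ∀ τ : Δ k → Z × G, Good μ S τ → ∃ m₀, ∀ m, m₀ ≤ m →
        ∑ᶠ j : ℕ, ev φ (ext τ) (T j) = ∑ j ∈ Finset.range m, ev φ (ext τ) (T j) := by
      intro τ hτ
      obtain ⟨m₀, h⟩ := small_eventually hU hτ h0 (TT (k + 1)) fun B hB c hc => TT_mem_In hB _ hc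
      refine ⟨m₀, fun m hm => finsum_eq_sum_of_support_subset _ fun j hj => ?_⟩
      rw [Finset.coe_range, mem_Iio]
      by_contra hlt
      exact hj (h j (hm.trans (not_lt.1 hlt)))
    choose m₁ hm₁ using fun i : Fin (k + 2) => hfin _ (Lift.face hσ i)
    obtain ⟨m₂, hm₂⟩ := small_eventually hU hσ h0 LinearMap.id fun B _ c hc => hc
    set m := m₂ + ∑ i, m₁ i with hm
    have hle : ∀ i, m₁ i ≤ m := fun i =>
      (Finset.single_le_sum (f := m₁) (fun _ _ => Nat.zero_le _) (Finset.mem_univ i)).trans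
        (Nat.le_add_left _ _)
    have hface : ∀ (i : Fin (k + 2)) j, ev φ (ext fun x => σ (face i x)) (T j) =
        ev φ (ext σ) (TT (k + 1) (Sdp (k + 1) j (lmap (fl i) (single (stdv k) 1)))) := by
      intro i j
      rw [← Sdp_nat, ← TT_nat, ev_lmap φ (ext σ) (cmb_linear (fl i))]
      exact ev_congr φ (hcv k) (fun y hy => ext_face σ i hy) (hTin j)
    have hterm : ∀ j, ∑ i : Fin (k + 2), (-1 : ℤ) ^ (i : ℕ) •
        ev φ (ext fun x => σ (face i x)) (T j) =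
        ev φ (ext σ) (Sdp (k + 1 + 1) j (single (stdv (k + 1)) 1)) -
          ev φ (ext σ) (Sdp (k + 1 + 1) (j + 1) (single (stdv (k + 1)) 1)) := by
      intro j
      have h1 := congrArg (ev φ (ext σ)) (bd_TT (k + 1) (Sdp (k + 1 + 1) j
        (single (stdv (k + 1)) 1)))
      rw [map_add, ev_bd, ev_eq_zero hc (hcv _) (Lift.ext hσ) (TT_mem_In (hcv _) _ (hSd _ j)),
        zero_add, map_sub, ← Sdp_succ, bd_Sdp, bd_stdv] at h1
      rw [← h1]
      simp only [hface, map_sum, map_smul]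
    have h2 := hm₂ m (Nat.le_add_right _ _)
    rw [LinearMap.id_apply] at h2
    rw [Pi.sub_apply, sub_eq_zero]
    unfold cob
    simp only [fun i => hm₁ i m (hle i), Finset.smul_sum]
    rw [Finset.sum_comm, Finset.sum_congr rfl fun j _ => hterm j, Finset.sum_range_sub', h2,
      sub_zero, Sdp_zero, ev_single, sx_ext_stdv]
  · exact finsum_eq_zero_of_forall_eq_zero fun j =>
      ev_eq_zero (h0 i) (hcv k) (Lift.ext hτ) (hTin j)

end Crest.Agent.R251
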