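import Crest.Agent.R251.Three
import Crest.Agent.R251.Per
import Crest.Agent.R251.Model

/-! R251: the value of a pulled back relative cocycle on the boundary of the `3`-cell.

Let `ν₂ = cmp ν D.j D.cont` and `L z = gm D.r (cr ν) (gm (chr 3 r3) (clab ν r3 0) (z, 1))`; by definition the
left side is `oct θ L`.  `L` is a lift for `ν₂` on `Pn 3` (`Lift.gm` twice: `gm_chr` with `O = Pn 3`,
`D.inter`, `D.gm_r`; `z ↦ (z, 1)` is a lift for `triv`), and `(L z).1 = sph x₀ K z` on `Pn 3` (`r_chr`,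
`sph_smul`).  On `Um 2 ∩ {z 0 ≤ 0}` one has `sph x₀ K z = x₀ ∈ S` (for `z 0 = 0` one coordinate of the
argument of `K` is `0` or `1`), so `pyr θ L em = 0` (`pyr_zero_Um`, `Lift.of_maps`).
Let `ℓ (s, t) = ![1/2 - max |s - 1/2| |t - 1/2|, s - 1/2, t - 1/2]`; it is continuous, maps `Sq` to `Pn 3`,
and `sph x₀ K (ℓ p) = K p` on `Sq` (`N = 1/2`).  So `L ∘ ℓ` is a lift of `K` on `Sq` and equals
`lft ν₂ K (0,0) g₀` there, `g₀ = (L (ℓ (0,0))).2` (`Lift.eq_lft`; the definition of `lft` only uses values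
on `Sq`, `PF.congr`).  With `o = (1/2, 1/2)`: `ℓ (cmb ![o, (1,1), (0,1)] x) = cmb ![ep, up d0, up d1] x`, and
likewise for `(0,1),(0,0)` and `up d1, up d2`; `(0,0),(1,0)` and `up d2, up d3`; `(1,0),(1,1)` and
`up d3, up d0` (`cmb_two`; with `x₀ + x₁ + x₂ = 1`, `xᵢ ≥ 0` the maximum is `(x₁ + x₂)/2`).  Hence
`pyr θ L ep` is the right side of `per_pyr` for `g₀`; finish with `per_smul`. -/

set_option autoImplicit false

namespace Crest.Agent.R251

open Set Metric Topology Crest.Agent.R197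

/-- The parametrisation of the upper pyramid by the unit square. -/
noncomputable def sphL (p : ℝ × ℝ) : Fin 3 → ℝ :=
  ![1 / 2 - max |p.1 - 1 / 2| |p.2 - 1 / 2|, p.1 - 1 / 2, p.2 - 1 / 2]

theorem continuous_sphL : Continuous sphL := by
  refine continuous_pi fun i => ?_
  fin_cases i <;> simp only [sphL] <;> simp <;> fun_prop

theorem sphL_max {p : ℝ × ℝ} (hp : p ∈ Sq) : max |p.1 - 1 / 2| |p.2 - 1 / 2| ≤ 1 / 2 := by
  obtain ⟨⟨h1, h2⟩, h3, h4⟩ := hp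
  refine max_le ?_ ?_ <;> rw [abs_le] <;> constructor <;> linarith

theorem sphL_mem {p : ℝ × ℝ} (hp : p ∈ Sq) : sphL p ∈ Pn 3 := by
  have h := sphL_max hp
  have h0 : 0 ≤ max |p.1 - 1 / 2| |p.2 - 1 / 2| := le_max_of_le_left (abs_nonneg _)
  have h1 := le_max_left |p.1 - 1 / 2| |p.2 - 1 / 2|
  have h2 := le_max_right |p.1 - 1 / 2| |p.2 - 1 / 2|
  refine ⟨?_, fun h3 => ?_⟩
  · rw [mem_ball_zero_iff, pi_norm_lt_iff one_pos]
    intro i
    fin_cases i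
    · change ‖1 / 2 - max |p.1 - 1 / 2| |p.2 - 1 / 2|‖ < 1
      rw [Real.norm_eq_abs, abs_lt]; constructor <;> linarith
    · change ‖p.1 - 1 / 2‖ < 1
      rw [Real.norm_eq_abs]; linarith
    · change ‖p.2 - 1 / 2‖ < 1
      rw [Real.norm_eq_abs]; linarith
  · have e := mem_singleton_iff.1 h3
    have e0 : 1 / 2 - max |p.1 - 1 / 2| |p.2 - 1 / 2| = 0 := congrFun e 0
    have e1 : p.1 - 1 / 2 = 0 := congrFun e 1
    have e2 : p.2 - 1 / 2 = 0 := congrFun e 2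
    rw [e1, e2] at e0
    norm_num at e0

theorem sph_sphL {Z : Type} (x₀ : Z) (K : ℝ × ℝ → Z) {p : ℝ × ℝ} (hp : p ∈ Sq) :
    sph x₀ K (sphL p) = K p := by
  have h := sphL_max hp
  have e0 : sphL p 0 = 1 / 2 - max |p.1 - 1 / 2| |p.2 - 1 / 2| := rfl
  have e1 : sphL p 1 = p.1 - 1 / 2 := rfl
  have e2 : sphL p 2 = p.2 - 1 / 2 := rfl
  rw [sph, if_pos (by rw [e0]; linarith), e0, e1, e2, sub_add_cancel]
  congr 1
  ext <;> simp

theorem sph_low {Z : Type} [TopologicalSpace Z] {x₀ : Z} {K : ℝ × ℝ → Z}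
    (hK : Sqr x₀ (fun _ => x₀) (fun _ => x₀) K) {z : Fin 3 → ℝ} (hz : z ≠ 0) (h0 : z 0 ≤ 0) :
    sph x₀ K z = x₀ := by
  rw [sph]
  split_ifs with h
  swap
  · rfl
  have e : z 0 = 0 := le_antisymm h0 h
  rw [e, zero_add]
  set N := max |z 1| |z 2| with hN
  have h1 : |z 1| ≤ N := le_max_left _ _
  have h2 : |z 2| ≤ N := le_max_right _ _
  have hN0 : 0 < N := by
    by_contra hc
    have hc' : N ≤ 0 := not_lt.1 hc
    apply hz
    funext i
    fin_cases i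
    · exact e
    · exact abs_nonpos_iff.1 (h1.trans hc')
    · exact abs_nonpos_iff.1 (h2.trans hc')
  have hm : ∀ y : ℝ, |y| ≤ N → 1 / 2 + y / (2 * N) ∈ Icc (0 : ℝ) 1 := by
    intro y hy
    rw [abs_le] at hy
    have h3 : y / (2 * N) ≤ 1 / 2 := by rw [div_le_iff₀ (by positivity)]; linarith [hy.2]
    have h4 : -(1 / 2) ≤ y / (2 * N) := by rw [le_div_iff₀ (by positivity)]; linarith [hy.1]
    constructor <;> linarith
  have hp : 1 / 2 + N / (2 * N) = 1 := by field_simp; norm_num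
  have hq : 1 / 2 + -N / (2 * N) = 0 := by field_simp; norm_num
  rcases max_choice |z 1| |z 2| with h3 | h3
  · rcases abs_choice (z 1) with h4 | h4
    · rw [show z 1 = N by rw [hN, h3, h4], hp]
      exact hK.right _ (hm _ h2)
    · rw [show z 1 = -N by rw [hN, h3, h4, neg_neg], hq]
      exact hK.left _ (hm _ h2)
  · rcases abs_choice (z 2) with h4 | h4
    · rw [show z 2 = N by rw [hN, h3, h4], hp]
      exact hK.top _ (hm _ h1)
    · rw [show z 2 = -N by rw [hN, h3, h4, neg_neg], hq]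
      exact hK.bot _ (hm _ h1)

theorem sphL_cmb (a b a' b' : ℝ) (h : ∀ u v : ℝ, 0 ≤ u → 0 ≤ v →
      max |u * a + v * a'| |u * b + v * b'| = (u + v) / 2) (x : Δ 2) :
    sphL (cmb ![(1 / 2, 1 / 2), (a + 1 / 2, b + 1 / 2), (a' + 1 / 2, b' + 1 / 2)] x) =
      cmb ![ep, up ![a, b], up ![a', b']] x := by
  have hs := x.2.2
  rw [Fin.sum_univ_three] at hs
  have h1 := x.2.1 1
  have h2 := x.2.1 2
  rw [cmb_two, cmb_two]
  have e1 : (x.1 0 • ((1 / 2 : ℝ), (1 / 2 : ℝ)) + x.1 1 • (a + 1 / 2, b + 1 / 2) +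
      x.1 2 • (a' + 1 / 2, b' + 1 / 2)).1 - 1 / 2 = x.1 1 * a + x.1 2 * a' := by
    simp only [Prod.fst_add, Prod.smul_fst, smul_eq_mul]
    linear_combination (1 / 2) * hs
  have e2 : (x.1 0 • ((1 / 2 : ℝ), (1 / 2 : ℝ)) + x.1 1 • (a + 1 / 2, b + 1 / 2) +
      x.1 2 • (a' + 1 / 2, b' + 1 / 2)).2 - 1 / 2 = x.1 1 * b + x.1 2 * b' := by
    simp only [Prod.snd_add, Prod.smul_snd, smul_eq_mul]
    linear_combination (1 / 2) * hs
  rw [sphL, e1, e2, h _ _ h1 h2]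
  funext i
  fin_cases i
  · simp [ep, up]
    linear_combination (-1 / 2) * hs
  · simp [ep, up]
  · simp [ep, up]

theorem sph_max (u v : ℝ) (hu : 0 ≤ u) (hv : 0 ≤ v) {p q : ℝ} (hp : |p| = (u + v) / 2)
    (hq : |q| = |u - v| / 2) : max |p| |q| = (u + v) / 2 ∧ max |q| |p| = (u + v) / 2 := by
  have : |q| ≤ |p| := by
    rw [hp, hq]
    have : |u - v| ≤ u + v := abs_le.2 ⟨by linarith, by linarith⟩
    linarith
  exact ⟨by rw [max_eq_left this, hp], by rw [max_eq_right this, hp]⟩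

theorem sphere_formula {Z X : Type} [TopologicalSpace Z] [TopologicalSpace X]
    [CWComplex (univ : Set X)] [T2Space X] {x₀ : Z} {K : ℝ × ℝ → Z}
    (hK : Sqr x₀ (fun _ => x₀) (fun _ => x₀) K) (D : M3 Z X (sph x₀ K)) {S : Set Z} (hx : x₀ ∈ S)
    {H : Type} [Group H] (ν : PF (univ : Set X) H) :
    ∃ g₀ : H, ∀ (M : Type) [AddCommGroup M] [DistribMulAction H M] (θ : Co (Z × H) M 2),
      Rel (cmp ν D.j D.cont) S θ →
      oct (pb (chr 3 D.r3) (clab ν D.r3 0) (pb D.r (M3.cr ν) θ)) (fun z => (z, (1 : H))) =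
        g₀ • per (cmp ν D.j D.cont) θ K 1 := by
  have h0 : (0 : Fin 3 → ℝ) ∈ closedBall (0 : Fin 3 → ℝ) 1 := mem_closedBall_self zero_le_one
  set ν₂ := cmp ν D.j D.cont with hν₂
  set L : (Fin 3 → ℝ) → Z × H := fun z =>
    gm D.r (M3.cr ν) (gm (chr 3 D.r3) (clab ν D.r3 0) (z, 1)) with hL
  have hg : GM (triv (Fin 3 → ℝ) H) (Pn 3) ν (A3 X) (chr 3 D.r3) (clab ν D.r3 0) :=
    (gm_chr D.r3 h0 sdiff_subset).mono subset_rfl
      ((mapsTo_image _ _).mono_right (D.inter D.r3 ▸ inter_subset_left))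
  have hid : Lift (triv (Fin 3 → ℝ) H) (Pn 3) (Pn 3) fun z => (z, (1 : H)) :=
    ⟨continuousOn_id, mapsTo_id _, fun _ _ => by simp [triv, pfbTriv]⟩
  have hLl : Lift ν₂ univ (Pn 3) L := (hid.gm hg).gm (D.gm_r ν)
  have hL1 : ∀ z ∈ Pn 3, (L z).1 = sph x₀ K z := fun z hz =>
    D.r_chr (fun c hc z => sph_smul x₀ K hc z) hz
  have hLq : Lift ν₂ univ Sq fun p => L (sphL p) :=
    hLl.comp continuous_sphL.continuousOn fun p hp => sphL_mem hp
  have m00 : ((0 : ℝ), (0 : ℝ)) ∈ Sq := by simp [Sq]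
  have m01 : ((0 : ℝ), (1 : ℝ)) ∈ Sq := by simp [Sq]
  have m10 : ((1 : ℝ), (0 : ℝ)) ∈ Sq := by simp [Sq]
  have m11 : ((1 : ℝ), (1 : ℝ)) ∈ Sq := by simp [Sq]
  have mo : ((1 / 2 : ℝ), (1 / 2 : ℝ)) ∈ Sq := by simp only [Sq, mem_prod, mem_Icc]; norm_num
  have hq1 : ∀ p ∈ Sq, (L (sphL p)).1 = K p := fun p hp => by
    rw [hL1 _ (sphL_mem hp), sph_sphL x₀ K hp]
  have heq : EqOn (fun p => L (sphL p)) (lft ν₂ K (0, 0) (L (sphL (0, 0))).2) Sq := by
    intro p hp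
    rw [hLq.eq_lft convex_Sq m00 hp]
    simp only [lft]
    rw [hq1 p hp]
    congr 2
    exact ν₂.congr fun t ht => hq1 _ ((isPath_seg convex_Sq m00 hp).2 ht)
  refine ⟨(L (sphL (0, 0))).2, fun M _ _ θ hθ => ?_⟩
  have e0 : oct (pb (chr 3 D.r3) (clab ν D.r3 0) (pb D.r (M3.cr ν) θ)) (fun z => (z, (1 : H))) =
      oct θ L := rfl
  have hsub : Um 2 ∩ {z | z 0 ≤ 0} ⊆ Pn 3 :=
    inter_subset_left.trans (Up_union_Um 2 ▸ subset_union_right)
  have e1 : pyr θ L em = 0 :=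
    pyr_zero_Um ((hLl.mono_left hsub).of_maps (S' := S) fun z hz => by
      change (L z).1 ∈ S
      rw [hL1 z (hsub hz), sph_low hK (hsub hz).2 hz.2]
      exact hx) hθ.zero
  have key : ∀ a b a' b' : ℝ, (∀ u v : ℝ, 0 ≤ u → 0 ≤ v →
      max |u * a + v * a'| |u * b + v * b'| = (u + v) / 2) → (a + 1 / 2, b + 1 / 2) ∈ Sq →
      (a' + 1 / 2, b' + 1 / 2) ∈ Sq → tri θ L ep (up ![a, b]) (up ![a', b']) =
        tri θ (lft ν₂ K (0, 0) (L (sphL (0, 0))).2) (1 / 2, 1 / 2) (a + 1 / 2, b + 1 / 2)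
          (a' + 1 / 2, b' + 1 / 2) := by
    intro a b a' b' h ha hb
    rw [tri, tri, ← sx_congr convex_Sq heq (by intro i; fin_cases i <;> assumption)]
    congr 1
    funext x
    simp only [sx]
    rw [sphL_cmb a b a' b' h x]
  have a1 : (1 / 2 : ℝ) + 1 / 2 = 1 := by norm_num
  have a2 : (-1 / 2 : ℝ) + 1 / 2 = 0 := by norm_num
  have k0 := key (1 / 2) (1 / 2) (-1 / 2) (1 / 2) (fun u v hu hv => (sph_max u v hu hv
    (by rw [abs_of_nonneg (by positivity)]; ring)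
    (by rw [show u * (1 / 2) + v * (-1 / 2) = (u - v) / 2 by ring, abs_div]; norm_num)).2)
    (by rw [a1]; exact m11) (by rw [a1, a2]; exact m01)
  have k1 := key (-1 / 2) (1 / 2) (-1 / 2) (-1 / 2) (fun u v hu hv => (sph_max u v hu hv
    (by rw [abs_of_nonpos (by linarith)]; ring)
    (by rw [show u * (1 / 2) + v * (-1 / 2) = (u - v) / 2 by ring, abs_div]; norm_num)).1)
    (by rw [a1, a2]; exact m01) (by rw [a2]; exact m00)
  have k2 := key (-1 / 2) (-1 / 2) (1 / 2) (-1 / 2) (fun u v hu hv => (sph_max u v hu hv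
    (by rw [abs_of_nonpos (by linarith)]; ring)
    (by rw [show u * (-1 / 2) + v * (1 / 2) = -(u - v) / 2 by ring, abs_div, abs_neg]; norm_num)).2)
    (by rw [a2]; exact m00) (by rw [a1, a2]; exact m10)
  have k3 := key (1 / 2) (-1 / 2) (1 / 2) (1 / 2) (fun u v hu hv => (sph_max u v hu hv
    (by rw [abs_of_nonneg (by positivity)]; ring)
    (by rw [show u * (-1 / 2) + v * (1 / 2) = -(u - v) / 2 by ring, abs_div, abs_neg]; norm_num)).1)
    (by rw [a1, a2]; exact m10) (by rw [a1]; exact m11)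
  rw [a1, a2] at k0 k1 k2 k3
  rw [e0, oct, e1, sub_zero, ← per_smul hθ.eqv, per_pyr hθ hx hK, ← k0, ← k1, ← k2, ← k3]
  rfl

end Crest.Agent.R251
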