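import Crest.Agent.R251.CWVan
import Crest.Agent.R251.Punc3

/-! R251: a complex with one `3`-cell; extension of path functions over the `3`-cell.

`A_eq`: `Sk_eq_univ`.  `j_r`: `rad_one_mem`, `D.range`, `Function.invFun_eq`.  `retr`: `retr_rad 3`,
`D.emb.isInducing.continuousOn_iff` (`j ∘ r = rad 3 · 1` on `A3 X`).  `r_j`: `rad_of_mem_Sk`.
`r_chr`: `rad_chr`, `D.att` (`‖‖z‖⁻¹ • z‖ = 1`), injectivity of `j`.  `isOpen_cell`: `nhds_cell`,
`nhdsWithin_univ`.  `pathConnected`: `range j` is path connected, and a point `chr 3 r z` of the open cell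
(`mem_Sk_succ`) is joined to `chr 3 r (fun _ => 1) ∈ Sk X 3` inside the image of the closed ball.
`exists_mu3`: let `ω = μ₂.comap (A3 X) D.r ..`, and `g` a potential of `ω ∘ chr` on `Pn 3` (`pot_P3`).
Apply `exists_pf` on `univ` with index set `Option A₂.κ`: charts `A3 X ∩ D.r ⁻¹' U i` with `f i ∘ D.r`
(compatibility: `A₂.compat` and continuity of `D.r` at points of the open set `A3 X`), and the open
cell with `g ∘ (chr 3 r3).symm`; mixed compatibility as in `hol2_compat` (`R197/Hol2`): near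
`chr 3 r3 z` take a small ball round `z` in `Pn 3 ∩ chr ⁻¹' (chart)`; both potentials compute
`ω (chr ∘ seg z z')`.  Last clause: `PF.ext_of_cover` for `cmp μ D.j _` and `μ₂` with the cover `U`
(`r_j`).
`mu3_univ`: let `ν' = μ.map m`.  For any path function `κ` on `X`, `gm_retract (gm_cmp ..) D.retr` gives
`κ (j ∘ r ∘ γ) = (cr κ (γ 0))⁻¹ * κ γ * cr κ (γ 1)` for paths in `A3 X`, so on `A3 X` the gauge
`bA z = cr ν' z * b (r z) * (cr ν z)⁻¹` works.  On the open cell `ν`, `ν'` have the potentials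
`P = clab ν r3 0 ∘ chr.symm`, `P' = clab ν' r3 0 ∘ chr.symm` (`gm_chr`); `P' * bA * P⁻¹` is constant along
paths in the punctured cell, hence constant `= c` (`exists_path_P3`).  Put `b' = bA` on `A3 X` and
`b' = P'⁻¹ * c * P` at the centre; `PF.ext_of_cover` for `ν` and `ν'.gauge b'`. -/

set_option autoImplicit false

namespace Crest.Agent.R251

open Set Metric Topology Crest.Agent.R197

/-- The complement of the centres of the `3`-cells. -/
def A3 (X : Type) [TopologicalSpace X] [CWComplex (univ : Set X)] : Set X := (ctr X 3)ᶜ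

namespace M3

variable {Z X : Type} [TopologicalSpace Z] [TopologicalSpace X] [CWComplex (univ : Set X)]
  [T2Space X] {a : (Fin 3 → ℝ) → Z} (D : M3 Z X a)

/-- The retraction of `A3 X` onto `Z`. -/
noncomputable def r (x : X) : Z :=
  haveI : Nonempty Z := ⟨a 0⟩
  Function.invFun D.j (rad 3 x 1)

/-- The labels of the retraction. -/
noncomputable def cr {H : Type} [Group H] (ν : PF (univ : Set X) H) (x : X) : H :=
  (ν.val fun s => rad 3 x s) * (1 : H)⁻¹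

include D in
theorem Sk_four : Sk X (3 + 1) = univ := Sk_eq_univ fun m hm => D.top m hm

include D in
theorem A_eq : A3 X = Sk X (3 + 1) \ ctr X 3 := by
  rw [D.Sk_four, A3, compl_eq_univ_sdiff]

theorem isOpen_A3 : IsOpen (A3 X) := (isClosed_ctr 3).isOpen_compl

theorem mapsTo_j : MapsTo D.j univ (A3 X) := fun z _ =>
  h1_not_ctr (D.range ▸ mem_range_self z)

theorem j_r {x : X} (hx : x ∈ A3 X) : D.j (D.r x) = rad 3 x 1 := by
  have h : rad 3 x 1 ∈ Set.range D.j := by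
    rw [D.range]
    exact rad_one_mem (D.A_eq ▸ hx)
  exact @Function.invFun_eq _ _ ⟨a 0⟩ _ _ h

theorem retr : Retr (A3 X) univ D.j D.r fun p => rad 3 p.1 p.2 := by
  have h := retr_rad (Z := X) 3
  rw [← D.A_eq] at h
  refine ⟨?_, mapsTo_univ _ _, h.cont, h.maps, h.zero, fun z hz => (D.j_r hz).symm⟩
  rw [D.emb.isInducing.continuousOn_iff]
  exact h.contr.congr fun z hz => D.j_r hz

theorem r_j (z : Z) : D.r (D.j z) = z := by
  refine D.emb.injective ?_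
  rw [D.j_r (D.mapsTo_j (mem_univ z))]
  exact rad_of_mem_Sk (D.range ▸ mem_range_self z) 1

include D in
theorem inter' (r : Cell X 3) : A3 X ∩ chr 3 r '' ball 0 1 = chr 3 r '' Pn 3 := by
  rw [D.A_eq]
  exact Sk_diff_inter r

include D in
theorem th_maps : MapsTo (chr 3 D.r3) (Pn 3) (A3 X) := fun _ hz =>
  ((D.inter' D.r3).symm.subset (mem_image_of_mem _ hz)).1

theorem r_chr (ha : ∀ c : ℝ, 0 < c → ∀ z, a (c • z) = a z) {z : Fin 3 → ℝ} (hz : z ∈ Pn 3) :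
    D.r (chr 3 D.r3 z) = a z := by
  refine D.emb.injective ?_
  have h0 : 0 < ‖z‖ := norm_pos_iff.2 hz.2
  rw [D.j_r (D.th_maps hz), rad_chr 3 D.r3 hz.1, D.att, ha _ (by simpa using h0)]
  rw [mem_sphere_zero_iff_norm, cwrad_norm hz.2 (right_mem_Icc.2 zero_le_one)]
  ring

include D in
theorem cov : Cov univ (A3 X) fun r : Cell X 3 => chr 3 r '' ball 0 1 := by
  have := cov_Sk (Z := X) 3
  rwa [← D.A_eq, D.Sk_four] at this

include D in
theorem inter (r : Cell X 3) : A3 X ∩ chr 3 r '' ball 0 1 = chr 3 r '' Pn 3 := by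
  rw [D.A_eq]
  exact Sk_diff_inter r

include D in
theorem isOpen_cell (r : Cell X 3) {O : Set (Fin 3 → ℝ)} (hO : IsOpen O) (hOb : O ⊆ ball 0 1) :
    IsOpen (chr 3 r '' O) := by
  refine isOpen_iff_mem_nhds.2 ?_
  rintro _ ⟨z, hz, rfl⟩
  have h := nhds_cell r hO hOb hz
  rwa [D.Sk_four, nhdsWithin_univ] at h

include D in
theorem pathConnected [PathConnectedSpace Z] : PathConnectedSpace X := by
  have h1 : IsPathConnected (Sk X 3) := D.range ▸ isPathConnected_range D.cont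
  have h2 : IsPathConnected (chr 3 D.r3 '' closedBall 0 1) :=
    ((convex_closedBall (0 : Fin 3 → ℝ) 1).isPathConnected
      ⟨0, mem_closedBall_self zero_le_one⟩).image' (continuousOn_chr 3 D.r3)
  have h3 : (fun _ => 1 : Fin 3 → ℝ) ∈ sphere (0 : Fin 3 → ℝ) 1 := by
    rw [mem_sphere_zero_iff_norm, pi_norm_const, norm_one]
  have h4 := h1.union h2
    ⟨_, chr_mem_Sk_of_sphere 3 D.r3 h3, mem_image_of_mem _ (sphere_subset_closedBall h3)⟩
  rw [pathConnectedSpace_iff_univ]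
  convert h4
  refine (eq_univ_of_forall fun x => ?_).symm
  rcases mem_Sk_succ.1 (D.Sk_four ▸ mem_univ x : x ∈ Sk X (3 + 1)) with h | ⟨i, h⟩
  · exact Or.inl h
  · rw [D.all i] at h
    exact Or.inr (image_mono ball_subset_closedBall h)

variable {G : Type} [Group G]

theorem gm_j (ν : PF (univ : Set X) G) : GM (cmp ν D.j D.cont) univ ν (A3 X) D.j fun _ => 1 :=
  gm_cmp D.cont D.mapsTo_j

theorem gm_r (ν : PF (univ : Set X) G) : GM ν (A3 X) (cmp ν D.j D.cont) univ D.r (cr ν) :=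
  gm_retract (D.gm_j ν) D.retr

omit [T2Space X] in
theorem th_cont (r : Cell X 3) : ContinuousOn (chr 3 r) (ball 0 1) :=
  (continuousOn_chr 3 r).mono ball_subset_closedBall

theorem th_cover (y : X) : y ∈ A3 X ∨ y = chr 3 D.r3 0 := by
  by_cases hy : y ∈ A3 X
  · exact Or.inl hy
  · obtain ⟨r, rfl⟩ : y ∈ ctr X 3 := not_not.1 hy
    rw [D.all r]
    exact Or.inr rfl

theorem th_compat (η : PF (A3 X) G) {U : Set X} (hU : IsOpen U) (hUS : U ⊆ A3 X) {f : X → G}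
    (hf : η.Pot U f) {g : (Fin 3 → ℝ) → G}
    (hg : ∀ δ, IsPath (Pn 3) δ → η.val (fun t => chr 3 D.r3 (δ t)) = (g (δ 0))⁻¹ * g (δ 1))
    {y : X} (hy : y ∈ U) (hy' : y ∈ chr 3 D.r3 '' ball 0 1) :
    ∀ᶠ y' in 𝓝 y, f y' * (g ((chr 3 D.r3).symm y'))⁻¹ = f y * (g ((chr 3 D.r3).symm y))⁻¹ := by
  obtain ⟨z, hzp, rfl⟩ := (D.inter D.r3).subset ⟨hUS hy, hy'⟩
  have hsub : Pn 3 ⊆ ball (0 : Fin 3 → ℝ) 1 := fun _ h => h.1
  have ho : IsOpen (Pn 3 ∩ chr 3 D.r3 ⁻¹' U) :=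
    ((th_cont D.r3).mono hsub).isOpen_inter_preimage (isOpen_Pn 3) hU
  obtain ⟨ε, hε, hB⟩ := Metric.isOpen_iff.1 ho z ⟨hzp, hy⟩
  have hB1 : ball z ε ⊆ Pn 3 := fun w hw => (hB hw).1
  have ho' : IsOpen (chr 3 D.r3 '' ball z ε) := D.isOpen_cell D.r3 isOpen_ball (hB1.trans hsub)
  filter_upwards [ho'.mem_nhds ⟨z, mem_ball_self hε, rfl⟩]
  rintro _ ⟨z', hz', rfl⟩
  have hp : IsPath (ball z ε) (seg z z') := isPath_seg (convex_ball z ε) (mem_ball_self hε) hz'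
  have h1 := hg _ (hp.mono hB1)
  have h2 := hf _ (hp.comp ((th_cont D.r3).mono (hB1.trans hsub)) fun w hw => (hB hw).2)
  rw [h1] at h2
  simp only [seg_zero, seg_one] at h2
  rw [chr_symm_chr 3 D.r3 hzp.1, chr_symm_chr 3 D.r3 (hB1 hz').1,
    ← mul_inv_cancel_left (f (chr 3 D.r3 z)) (f (chr 3 D.r3 z')), ← h2]
  group

theorem exists_mu3 (μ₂ : PF (univ : Set Z) G) (A₂ : Atlas μ₂) :
    ∃ μ : PF (univ : Set X) G, Nonempty (Atlas μ) ∧
      ∀ γ, IsPath univ γ → (μ.val fun t => D.j (γ t)) = μ₂.val γ := by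
  have hr := D.retr.contr
  set ω : PF (A3 X) G := μ₂.comap (A3 X) D.r hr (mapsTo_univ _ _) with hω
  obtain ⟨g, hg⟩ := pot_P3 ω ((th_cont D.r3).mono fun _ h => h.1) D.th_maps
  have hO : ∀ i, IsOpen (A3 X ∩ D.r ⁻¹' A₂.U i) := fun i =>
    hr.isOpen_inter_preimage isOpen_A3 (A₂.isOpen i)
  have hP : ∀ i, ω.Pot (A3 X ∩ D.r ⁻¹' A₂.U i) fun x => A₂.f i (D.r x) := fun i γ hγ =>
    A₂.pot i _ (hγ.comp (hr.mono inter_subset_left) fun _ h => h.2)
  let U : Option A₂.κ → Set X := fun o =>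
    o.elim (chr 3 D.r3 '' ball 0 1) fun i => A3 X ∩ D.r ⁻¹' A₂.U i
  let f : Option A₂.κ → X → G := fun o =>
    o.elim (fun y => g ((chr 3 D.r3).symm y)) fun i x => A₂.f i (D.r x)
  have h1 : ∀ o, IsOpen (U o) := by
    rintro (_ | i)
    · exact D.isOpen_cell D.r3 isOpen_ball Subset.rfl
    · exact hO i
  have h2 : ∀ y, ∃ o, y ∈ U o := fun y => by
    rcases D.th_cover y with hy | rfl
    · obtain ⟨i, hi⟩ := A₂.cover (D.r y)
      exact ⟨some i, hy, hi⟩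
    · exact ⟨none, 0, mem_ball_self one_pos, rfl⟩
  have h3 : ∀ i j, ∀ y ∈ U i ∩ U j, ∀ᶠ y' in 𝓝 y, f i y' * (f j y')⁻¹ = f i y * (f j y)⁻¹ := by
    rintro (_ | i) (_ | j) y ⟨hy, hy'⟩
    · exact Filter.Eventually.of_forall fun y' => by simp
    · filter_upwards [D.th_compat ω (hO j) inter_subset_left (hP j) hg hy' hy] with y' h4
      have h5 := congrArg Inv.inv h4
      rw [mul_inv_rev, mul_inv_rev, inv_inv, inv_inv] at h5
      exact h5
    · exact D.th_compat ω (hO i) inter_subset_left (hP i) hg hy hy'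
    · exact (hr.continuousAt (isOpen_A3.mem_nhds hy.1)).eventually
        (A₂.compat i j (D.r y) ⟨hy.2, hy'.2⟩)
  obtain ⟨μ, hμ⟩ := exists_pf (univ : Set X) U f h1 (fun _ => subset_univ _) (fun y _ => h2 y) h3
  refine ⟨μ, ⟨⟨_, U, f, h1, h2, h3, hμ⟩⟩, fun γ hγ => ?_⟩
  refine PF.ext_of_cover (cmp μ D.j D.cont) μ₂ A₂.U (fun y _ => ?_) (fun i δ hδ => ?_) hγ
  · obtain ⟨i, hi⟩ := A₂.cover y
    exact ⟨i, mem_nhdsWithin_of_mem_nhds ((A₂.isOpen i).mem_nhds hi)⟩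
  · have h4 := hδ.mono inter_subset_right
    have h5 := hμ (some i) _ (h4.comp D.cont.continuousOn fun z hz =>
      ⟨D.mapsTo_j (mem_univ z), by rwa [mem_preimage, D.r_j]⟩)
    rw [A₂.pot i δ h4]
    change (μ.val fun t => D.j (δ t)) = _
    simpa only [f, Option.elim, D.r_j] using h5

theorem mu3_univ (μ : PF (univ : Set X) G) {H : Type} [Group H] (ν : PF (univ : Set X) H)
    (m : G →* H) (b : Z → H) (h : ∀ γ, IsPath univ γ → (ν.val fun t => D.j (γ t)) =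
      (b (γ 0))⁻¹ * m (μ.val fun t => D.j (γ t)) * b (γ 1)) :
    ∃ b' : X → H, ∀ γ, IsPath univ γ → ν.val γ = (b' (γ 0))⁻¹ * m (μ.val γ) * b' (γ 1) := by
  classical
  have hr := D.retr.contr
  set ν' := μ.map m with hν'
  set bA : X → H := fun z => cr ν' z * b (D.r z) * (cr ν z)⁻¹ with hbA
  have hA : ∀ γ, IsPath (A3 X) γ → ν.val γ = (bA (γ 0))⁻¹ * ν'.val γ * bA (γ 1) := by
    intro γ hγ
    have h1 : (ν.val fun t => D.j (D.r (γ t))) = _ := (D.gm_r ν).val γ hγ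
    have h2 : (ν'.val fun t => D.j (D.r (γ t))) = _ := (D.gm_r ν').val γ hγ
    have h3 : _ = _ * (ν'.val fun t => D.j (D.r (γ t))) * _ :=
      h _ (hγ.comp hr (mapsTo_univ _ _))
    rw [h1, h2] at h3
    calc ν.val γ = cr ν (γ 0) * ((cr ν (γ 0))⁻¹ * ν.val γ * cr ν (γ 1)) * (cr ν (γ 1))⁻¹ := by group
      _ = _ := by
        rw [h3]
        simp only [hbA]
        group
  have hpot : ∀ (κ : PF (univ : Set X) H) δ, IsPath (ball 0 1) δ →
      κ.val (fun t => chr 3 D.r3 (δ t)) = (κ.val fun t => chr 3 D.r3 (seg 0 (δ 0) t))⁻¹ *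
        κ.val fun t => chr 3 D.r3 (seg 0 (δ 1) t) := fun κ δ hδ =>
    κ.pot_of_convex (convex_ball 0 1) (th_cont D.r3) (mapsTo_univ _ _) (mem_ball_self one_pos) hδ
  set P : (Fin 3 → ℝ) → H := fun z => ν.val fun t => chr 3 D.r3 (seg 0 z t) with hP
  set P' : (Fin 3 → ℝ) → H := fun z => ν'.val fun t => chr 3 D.r3 (seg 0 z t) with hP'
  obtain ⟨z₀, hz₀⟩ : ∃ z₀, z₀ ∈ Pn (2 + 1) := ⟨_, (Up_union_Um 2).subset (Or.inl (single_mem_Up 2))⟩
  set c : H := P' z₀ * bA (chr 3 D.r3 z₀) * (P z₀)⁻¹ with hc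
  set b' : X → H := fun x => if x ∈ A3 X then bA x else (P' 0)⁻¹ * (c * P 0) with hb'
  have hb1 : ∀ x ∈ A3 X, b' x = bA x := fun x hx => if_pos hx
  have hb2 : ∀ z ∈ ball (0 : Fin 3 → ℝ) 1, P' z * b' (chr 3 D.r3 z) = c * P z := by
    intro z hz
    by_cases hz0 : z = 0
    · subst hz0
      have hx : chr 3 D.r3 0 ∉ A3 X := fun hx => hx ⟨D.r3, rfl⟩
      simp only [hb', if_neg hx, mul_inv_cancel_left]
    · obtain ⟨δ, hδ, h4, h5⟩ := exists_path_P3 hz₀ (show z ∈ Pn 3 from ⟨hz, hz0⟩)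
      have h6 := hA _ (hδ.comp ((th_cont D.r3).mono fun _ h => h.1) D.th_maps)
      rw [hpot ν δ (hδ.mono fun _ h => h.1), hpot ν' δ (hδ.mono fun _ h => h.1)] at h6
      simp only [h4, h5] at h6
      change (P z₀)⁻¹ * P z = _ * ((P' z₀)⁻¹ * P' z) * _ at h6
      rw [hb1 _ (D.th_maps ⟨hz, hz0⟩), hc, mul_assoc _ (P z₀)⁻¹, h6]
      group
  refine ⟨b', fun γ hγ => ?_⟩
  refine PF.ext_of_cover ν (ν'.gauge b')
    (fun o : Bool => if o then A3 X else chr 3 D.r3 '' ball 0 1) (fun y _ => ?_) ?_ hγ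
  · rcases D.th_cover y with hy | rfl
    · exact ⟨true, mem_nhdsWithin_of_mem_nhds (isOpen_A3.mem_nhds hy)⟩
    · exact ⟨false, mem_nhdsWithin_of_mem_nhds
        ((D.isOpen_cell D.r3 isOpen_ball Subset.rfl).mem_nhds ⟨0, mem_ball_self one_pos, rfl⟩)⟩
  rintro (_ | _) δ hδ
  · have h4 : IsPath (chr 3 D.r3 '' ball 0 1) δ := hδ.mono inter_subset_right
    have h5 : ∀ y ∈ chr 3 D.r3 '' ball 0 1, (chr 3 D.r3).symm y ∈ ball (0 : Fin 3 → ℝ) 1 ∧
        chr 3 D.r3 ((chr 3 D.r3).symm y) = y := by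
      rintro _ ⟨z, hz, rfl⟩
      rw [chr_symm_chr 3 D.r3 hz]
      exact ⟨hz, rfl⟩
    have h6 : IsPath (ball 0 1) fun t => (chr 3 D.r3).symm (δ t) :=
      h4.comp (continuousOn_chr_symm 3 D.r3) fun y hy => (h5 y hy).1
    have h7 : ∀ κ : PF (univ : Set X) H,
        κ.val δ = κ.val fun t => chr 3 D.r3 ((chr 3 D.r3).symm (δ t)) := fun κ =>
      κ.congr fun t ht => (h5 _ (h4.2 ht)).2.symm
    have h8 := hb2 _ h6.zero_mem
    have h9 := hb2 _ h6.one_mem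
    rw [(h5 _ h4.zero_mem).2] at h8
    rw [(h5 _ h4.one_mem).2] at h9
    rw [PF.gauge_val, h7 ν, h7 ν', hpot ν _ h6, hpot ν' _ h6]
    change (P _)⁻¹ * P _ = _ * ((P' _)⁻¹ * P' _) * _
    rw [← mul_assoc, ← mul_inv_rev, mul_assoc, h8, h9]
    group
  · have h4 : IsPath (A3 X) δ := hδ.mono inter_subset_right
    rw [PF.gauge_val, hb1 _ h4.zero_mem, hb1 _ h4.one_mem]
    exact hA δ h4

end M3

end Crest.Agent.R251
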