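import Crest.Agent.R251.Defs
import Crest.Agent.R197.Wr

/-! R251, the tower argument, part 1: twisted Fox calculus on `F`-sets and two dimension counts.

`F = FreeGroup E` acts on `Ω`; reading the word `g` from the vertex `v` ends at `g⁻¹ • v`, and
`(e, v)` is the edge from `v` to `(of e)⁻¹ • v`.  `itg ψ f w v` is the `ψ`-twisted integral of the
`1`-cochain `f` along `w` from `v`.

`itg_mul`: `fox_mul`, `fox_translate` (`FreeGroup.lift FreeGroup.of = id`), and `chain_ext` for
`linearCombination _ ∘ₗ tr g`.  `itg_inv` from `itg_mul` for `g⁻¹ * g`.  `itg_stokes`, `itg_SD`: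
`FreeGroup.induction_on`.  `itg_mem`: `Finsupp.linearCombination_apply`, `Submodule.sum_mem`.
`exists_closed`: unions of closed pairs are closed, so it suffices to treat one `g`; induct with
`FreeGroup.induction_on`-like right multiplication by letters (e.g. `Subgroup.closure_induction_right`
with `FreeGroup.closure_range_of`): from `(Vt, T) ∋ g` pass to `(insert (g * of e) Vt, insert (e, g) T)`
because `fox (g * of e) 1 = fox g 1 + single (e, g) 1`, and to
`(insert (g * (of e)⁻¹) Vt, insert (e, g * (of e)⁻¹) T)`.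
`count_low`: let `C₁ = supported k k Ed`, `C₀ = supported k k Vx` (dimensions `card`:
`Finsupp.supportedEquivFinsupp`, `Module.finrank_finsupp_self`).  `bdy ψ` maps `C₁` into `C₀`, and onto:
`bdy (chn u v₀) = (ψ u - 1) • single v₀ 1`, and `bdy (chn g v₀) = ψ g • single (g⁻¹ • v₀) 1 - single v₀ 1`
with `chn g v₀ ∈ C₁` for `g ∈ Vt` (`chn_mem`).  The kernel of `(bdy ψ).domRestrict C₁` contains the
independent family indexed by `Fc` (`LinearIndependent.fintype_card_le_finrank` after restricting the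
codomain).  Rank–nullity (`LinearMap.finrank_range_add_finrank_ker`).
`count_up`: a cycle `z ∈ C₁` lies in the span `Q` of the chains of `Fc`: otherwise some functional `L`
vanishes on `Q` with `L z ≠ 0` (`Submodule.exists_le_ker_of_notMem`); `α p = L (single p 1)` has
`itg 1 α w v = L (chn 1 w v)` (`itg_map`), so `α = δ y` on `Ed` and
`L z = linearCombination ℚ y (bdy 1 z) = 0`.  So the kernel has dimension `≤ card Fc`
(`finrank_span_finset_le_card`), and the image lies in the kernel of the augmentation on `C₀`, a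
proper subspace (`single v₀ 1`), of dimension `≤ card Vx - 1` (`Submodule.finrank_lt_finrank_of_lt`). -/

set_option autoImplicit false

namespace Crest.Agent.R251

open Crest.Agent.R197 Finsupp

variable {E Ω : Type} [MulAction (FreeGroup E) Ω] {k : Type} [Field k] (ψ : FreeGroup E →* kˣ)

section itg

variable {N : Type} [AddCommGroup N] [Module k N]

/-- The twisted integral of `f` along `w` from `v`. -/
noncomputable def itg (f : E × Ω → N) (w : FreeGroup E) (v : Ω) : N :=
  linearCombination ℤ (fun p : E × FreeGroup E => (ψ p.2 : k) • f (p.1, p.2⁻¹ • v))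
    (fox FreeGroup.of w 1)

variable (f : E × Ω → N)

theorem itg_one (v : Ω) : itg ψ f 1 v = 0 := by simp [itg]

theorem itg_of (e : E) (v : Ω) : itg ψ f (FreeGroup.of e) v = f (e, v) := by simp [itg]

theorem itg_mul (g h : FreeGroup E) (v : Ω) :
    itg ψ f (g * h) v = itg ψ f g v + (ψ g : k) • itg ψ f h (g⁻¹ • v) := by
  have h1 : ∀ c : E × FreeGroup E →₀ ℤ,
      linearCombination ℤ (fun p : E × FreeGroup E => (ψ p.2 : k) • f (p.1, p.2⁻¹ • v)) (tr g c) =
      (ψ g : k) • linearCombination ℤ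
        (fun p : E × FreeGroup E => (ψ p.2 : k) • f (p.1, p.2⁻¹ • g⁻¹ • v)) c := fun c =>
    chain_ext (f := linearCombination ℤ _ ∘ₗ tr g)
      (g := (DistribSMul.toAddMonoidHom N (ψ g : k)).toIntLinearMap ∘ₗ linearCombination ℤ _)
      (fun b => by simp [mul_smul]) c
  unfold itg
  rw [fox_mul, map_add, FreeGroup.lift_of_apply, one_mul, fox_eq_tr _ h g, h1]

theorem itg_inv (g : FreeGroup E) (v : Ω) :
    itg ψ f g⁻¹ v = -(((ψ g)⁻¹ : kˣ) : k) • itg ψ f g (g • v) := by
  have h := itg_mul ψ f g⁻¹ g v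
  rw [inv_mul_cancel, itg_one, inv_inv, map_inv] at h
  rw [neg_smul]
  exact eq_neg_of_add_eq_zero_left h.symm

theorem itg_map {N' : Type} [AddCommGroup N'] [Module k N'] (L : N →ₗ[k] N') (w : FreeGroup E)
    (v : Ω) : L (itg ψ f w v) = itg ψ (fun p => L (f p)) w v := by
  exact chain_ext (f := L.toAddMonoidHom.toIntLinearMap ∘ₗ linearCombination ℤ _)
    (g := linearCombination ℤ _) (fun b => by simp) _

theorem itg_stokes (y : Ω → N)
    (h : ∀ e v, f (e, v) = (ψ (FreeGroup.of e) : k) • y ((FreeGroup.of e)⁻¹ • v) - y v)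
    (w : FreeGroup E) (v : Ω) : itg ψ f w v = (ψ w : k) • y (w⁻¹ • v) - y v := by
  induction w using FreeGroup.induction_on generalizing v with
  | C1 => simp [itg_one]
  | of e => rw [itg_of, h]
  | inv_of e ih =>
    rw [itg_inv, ih, inv_smul_smul, inv_inv, map_inv, smul_sub, smul_smul, neg_mul, Units.inv_mul,
      neg_smul, neg_smul, one_smul]
    abel
  | mul a b iha ihb =>
    rw [itg_mul, iha, ihb, smul_sub, smul_smul, mul_inv_rev, mul_smul b⁻¹, map_mul, Units.val_mul]
    abel

theorem itg_mem (Q : Submodule k N) {w : FreeGroup E} {v : Ω}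
    (h : ∀ p ∈ (fox FreeGroup.of w (1 : FreeGroup E)).support, f (p.1, p.2⁻¹ • v) ∈ Q) :
    itg ψ f w v ∈ Q := by
  rw [itg, linearCombination_apply, Finsupp.sum]
  exact Q.sum_mem fun p hp => zsmul_mem (Q.smul_mem _ (h p hp)) _

/-- Naturality for equivariant maps of `F`-sets. -/
theorem itg_comp {Ω' : Type} [MulAction (FreeGroup E) Ω'] (q : Ω' → Ω)
    (hq : ∀ (g : FreeGroup E) x, q (g • x) = g • q x) (w : FreeGroup E) (x : Ω') :
    itg ψ (fun p : E × Ω' => f (p.1, q p.2)) w x = itg ψ f w (q x) := by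
  simp only [itg, hq]

end itg

theorem itg_SD (a : E → k) (w : FreeGroup E) (v : Ω) :
    itg ψ (fun p : E × Ω => a p.1) w v =
      (FreeGroup.lift (fun e => (⟨a e, ψ (FreeGroup.of e)⟩ : SD kˣ k)) w).m := by
  have hg : ∀ w : FreeGroup E,
      (FreeGroup.lift (fun e => (⟨a e, ψ (FreeGroup.of e)⟩ : SD kˣ k)) w).g = ψ w := fun w => by
    have : SD.proj.comp (FreeGroup.lift fun e => (⟨a e, ψ (FreeGroup.of e)⟩ : SD kˣ k)) = ψ := by
      ext e; simp
    exact DFunLike.congr_fun this w
  induction w using FreeGroup.induction_on generalizing v with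
  | C1 => simp [itg_one]
  | of e => simp [itg_of]
  | inv_of e ih => rw [itg_inv, ih, map_inv, SD.inv_m, hg, neg_smul, Units.smul_def]
  | mul a b iha ihb => rw [itg_mul, iha, ihb, map_mul, SD.mul_m, hg, Units.smul_def]

/-- The twisted chain of the edge path `w` from `v`. -/
noncomputable def chn (w : FreeGroup E) (v : Ω) : E × Ω →₀ k :=
  itg ψ (fun p => single p (1 : k)) w v

/-- The twisted boundary. -/
noncomputable def bdy : (E × Ω →₀ k) →ₗ[k] (Ω →₀ k) :=
  linearCombination k fun p =>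
    (ψ (FreeGroup.of p.1) : k) • single ((FreeGroup.of p.1)⁻¹ • p.2) (1 : k) - single p.2 1

theorem bdy_chn (w : FreeGroup E) (v : Ω) :
    bdy ψ (chn ψ w v) = (ψ w : k) • single (w⁻¹ • v) (1 : k) - single v 1 := by
  rw [chn, itg_map]
  exact itg_stokes ψ _ (fun v => single v (1 : k)) (fun e v => by simp [bdy]) w v

/-- A finite connected piece of the Cayley tree. -/
structure Closed (Vt : Finset (FreeGroup E)) (T : Finset (E × FreeGroup E)) : Prop where
  one : 1 ∈ Vt
  src : ∀ p ∈ T, p.2 ∈ Vt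
  tgt : ∀ p ∈ T, p.2 * FreeGroup.of p.1 ∈ Vt
  supp : ∀ g ∈ Vt, (fox FreeGroup.of g (1 : FreeGroup E)).support ⊆ T

theorem Closed.union [DecidableEq E] {V V' : Finset (FreeGroup E)} {T T' : Finset (E × FreeGroup E)}
    (h : Closed V T) (h' : Closed V' T') : Closed (V ∪ V') (T ∪ T') where
  one := Finset.mem_union_left _ h.one
  src := fun p hp => (Finset.mem_union.1 hp).elim (fun hp => Finset.mem_union_left _ (h.src p hp))
    fun hp => Finset.mem_union_right _ (h'.src p hp)
  tgt := fun p hp => (Finset.mem_union.1 hp).elim (fun hp => Finset.mem_union_left _ (h.tgt p hp))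
    fun hp => Finset.mem_union_right _ (h'.tgt p hp)
  supp := fun g hg => (Finset.mem_union.1 hg).elim
    (fun hg => (h.supp g hg).trans Finset.subset_union_left)
    fun hg => (h'.supp g hg).trans Finset.subset_union_right

theorem Closed.step [DecidableEq E] {V : Finset (FreeGroup E)} {T : Finset (E × FreeGroup E)}
    (h : Closed V T) {g g' : FreeGroup E} (hg : g ∈ V) (p : E × FreeGroup E) (n : ℤ)
    (h1 : p.2 = g ∨ p.2 = g') (h2 : p.2 * FreeGroup.of p.1 = g ∨ p.2 * FreeGroup.of p.1 = g')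
    (h3 : fox FreeGroup.of g' (1 : FreeGroup E) = fox FreeGroup.of g 1 + single p n) :
    Closed (insert g' V) (insert p T) where
  one := Finset.mem_insert_of_mem h.one
  src := fun q hq => by
    rcases Finset.mem_insert.1 hq with rfl | hq
    · rcases h1 with h1 | h1 <;> rw [h1]
      · exact Finset.mem_insert_of_mem hg
      · exact Finset.mem_insert_self _ _
    · exact Finset.mem_insert_of_mem (h.src q hq)
  tgt := fun q hq => by
    rcases Finset.mem_insert.1 hq with rfl | hq
    · rcases h2 with h2 | h2 <;> rw [h2]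
      · exact Finset.mem_insert_of_mem hg
      · exact Finset.mem_insert_self _ _
    · exact Finset.mem_insert_of_mem (h.tgt q hq)
  supp := fun x hx => by
    rcases Finset.mem_insert.1 hx with rfl | hx
    · rw [h3]
      refine support_add.trans (Finset.union_subset
        ((h.supp g hg).trans (Finset.subset_insert _ _)) (support_single_subset.trans ?_))
      exact Finset.singleton_subset_iff.2 (Finset.mem_insert_self _ _)
    · exact (h.supp x hx).trans (Finset.subset_insert _ _)

theorem exists_closed_one (g : FreeGroup E) :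
    ∃ (Vt : Finset (FreeGroup E)) (T : Finset (E × FreeGroup E)), Closed Vt T ∧ g ∈ Vt := by
  classical
  have hg : g ∈ Subgroup.closure (Set.range (FreeGroup.of : E → FreeGroup E)) := by
    rw [FreeGroup.closure_range_of]
    trivial
  induction hg using Subgroup.closure_induction_right with
  | one => exact ⟨{1}, ∅, ⟨by simp, by simp, by simp, by simp⟩, by simp⟩
  | mul_right x _ y hy ih =>
    obtain ⟨V, T, h, hx⟩ := ih
    obtain ⟨e, rfl⟩ := hy
    exact ⟨_, _, h.step hx (e, x) 1 (Or.inl rfl) (Or.inr rfl) (by simp [fox_mul, FreeGroup.lift_of_apply]),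
      Finset.mem_insert_self _ _⟩
  | mul_inv_cancel x _ y hy ih =>
    obtain ⟨V, T, h, hx⟩ := ih
    obtain ⟨e, rfl⟩ := hy
    exact ⟨_, _, h.step hx (e, x * (FreeGroup.of e)⁻¹) (-1) (Or.inr rfl) (Or.inl (by simp))
      (by simp [fox_mul, fox_inv, FreeGroup.lift_of_apply]), Finset.mem_insert_self _ _⟩

theorem exists_closed (s : Finset (FreeGroup E)) :
    ∃ (Vt : Finset (FreeGroup E)) (T : Finset (E × FreeGroup E)), Closed Vt T ∧ s ⊆ Vt := by
  classical
  induction s using Finset.induction_on with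
  | empty =>
    obtain ⟨V, T, h, -⟩ := exists_closed_one (1 : FreeGroup E)
    exact ⟨V, T, h, Finset.empty_subset _⟩
  | insert g s _ ih =>
    obtain ⟨V, T, h, hg⟩ := exists_closed_one g
    obtain ⟨V', T', h', hs⟩ := ih
    exact ⟨_, _, h.union h', Finset.insert_subset (Finset.mem_union_left _ hg)
      (hs.trans Finset.subset_union_right)⟩

open Classical in
/-- The vertices of the image in `Ω`. -/
noncomputable def Vx (Vt : Finset (FreeGroup E)) (v₀ : Ω) : Finset Ω := Vt.image fun g => g⁻¹ • v₀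

open Classical in
/-- The edges of the image in `Ω`. -/
noncomputable def Ed (T : Finset (E × FreeGroup E)) (v₀ : Ω) : Finset (E × Ω) :=
  T.image fun p => (p.1, p.2⁻¹ • v₀)

variable {Vt : Finset (FreeGroup E)} {T : Finset (E × FreeGroup E)} {v₀ : Ω}

theorem chn_mem (h : Closed Vt T) {g : FreeGroup E} (hg : g ∈ Vt) :
    chn ψ g v₀ ∈ supported k k (Ed T v₀ : Set (E × Ω)) := by
  classical
  refine itg_mem ψ _ _ fun p hp => single_mem_supported k 1 ?_
  exact Finset.mem_coe.2 (Finset.mem_image.2 ⟨p, h.supp g hg hp, rfl⟩)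

theorem chn_mem' (h : Closed Vt T) {g w : FreeGroup E} (hg : g ∈ Vt) (hw : g * w ∈ Vt) :
    chn ψ w (g⁻¹ • v₀) ∈ supported k k (Ed T v₀ : Set (E × Ω)) := by
  have h1 : chn ψ (g * w) v₀ = chn ψ g v₀ + (ψ g : k) • chn ψ w (g⁻¹ • v₀) := itg_mul ψ _ g w v₀
  have h2 : (ψ g : k) • chn ψ w (g⁻¹ • v₀) ∈ supported k k (Ed T v₀ : Set (E × Ω)) := by
    rw [← sub_eq_iff_eq_add'.2 h1]
    exact sub_mem (chn_mem ψ h hw) (chn_mem ψ h hg)
  exact (Submodule.smul_mem_iff _ (ψ g).ne_zero).1 h2

theorem tw1_finrank {α : Type} (s : Finset α) :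
    Module.finrank k (supported k k (s : Set α)) = s.card := by
  rw [(supportedEquivFinsupp (M := k) (R := k) (s : Set α)).finrank_eq,
    Module.finrank_finsupp_self]
  simp

instance tw1_finite {α : Type} (s : Finset α) : Module.Finite k (supported k k (s : Set α)) :=
  Module.Finite.equiv (supportedEquivFinsupp (M := k) (R := k) (s : Set α)).symm

theorem tw1_v0 (h : Closed Vt T) : v₀ ∈ Vx Vt v₀ := by
  classical
  exact Finset.mem_image.2 ⟨1, h.one, by simp⟩

theorem tw1_bdy_mem (h : Closed Vt T) {z : E × Ω →₀ k}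
    (hz : z ∈ supported k k (Ed T v₀ : Set (E × Ω))) :
    bdy ψ z ∈ supported k k (Vx Vt v₀ : Set Ω) := by
  classical
  rw [supported_eq_span_single] at hz
  refine (Submodule.span_le (p := (supported k k (Vx Vt v₀ : Set Ω)).comap (bdy ψ))).2 ?_ hz
  rintro _ ⟨_, hp, rfl⟩
  obtain ⟨p, hq, rfl⟩ := Finset.mem_image.1 (Finset.mem_coe.1 hp)
  simp only [SetLike.mem_coe, Submodule.mem_comap, bdy, linearCombination_single, one_smul]
  refine sub_mem (Submodule.smul_mem _ _ (single_mem_supported k 1 ?_)) (single_mem_supported k 1 ?_)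
  · exact Finset.mem_coe.2 (Finset.mem_image.2 ⟨_, h.tgt p hq, by rw [mul_inv_rev, mul_smul]⟩)
  · exact Finset.mem_coe.2 (Finset.mem_image.2 ⟨_, h.src p hq, rfl⟩)

theorem count_low (h : Closed Vt T) {u : FreeGroup E} (hu : u ∈ Vt) (hu1 : u • v₀ = v₀)
    (hψ : ψ u ≠ 1) {J : Type} (Fc : Finset J) (c : J → (E × Ω →₀ k))
    (hc : ∀ j ∈ Fc, c j ∈ supported k k (Ed T v₀ : Set (E × Ω)) ∧ bdy ψ (c j) = 0)
    (hi : LinearIndepOn k c (Fc : Set J)) :
    (Vx Vt v₀).card + Fc.card ≤ (Ed T v₀).card := by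
  classical
  set C₁ := supported k k (Ed T v₀ : Set (E × Ω)) with hC₁
  have hrk := LinearMap.finrank_range_add_finrank_ker (K := k) (V := C₁) (V₂ := Ω →₀ k)
    ((bdy ψ).domRestrict C₁)
  rw [tw1_finrank] at hrk
  have hb : ∀ g ∈ Vt, (ψ g : k) • single (g⁻¹ • v₀) (1 : k) - single v₀ 1 ∈
      LinearMap.range ((bdy ψ).domRestrict C₁) := fun g hg =>
    ⟨⟨chn ψ g v₀, chn_mem ψ h hg⟩, bdy_chn ψ g v₀⟩
  have h0 : single v₀ (1 : k) ∈ LinearMap.range ((bdy ψ).domRestrict C₁) := by
    have h1 := hb u hu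
    rw [inv_smul_eq_iff.2 hu1.symm] at h1
    have h2 : (ψ u : k) - 1 ≠ 0 := fun h => hψ (Units.ext (sub_eq_zero.1 h))
    refine (Submodule.smul_mem_iff _ h2).1 ?_
    rwa [sub_smul, one_smul]
  have h1 : supported k k (Vx Vt v₀ : Set Ω) ≤ LinearMap.range ((bdy ψ).domRestrict C₁) := by
    rw [supported_eq_span_single, Submodule.span_le]
    rintro _ ⟨_, hp, rfl⟩
    obtain ⟨g, hg, rfl⟩ := Finset.mem_image.1 (Finset.mem_coe.1 hp)
    refine (Submodule.smul_mem_iff _ (ψ g).ne_zero).1 ?_
    simpa using add_mem (hb g hg) h0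
  have h2 := Submodule.finrank_mono h1
  rw [tw1_finrank] at h2
  have h3 : LinearIndependent k fun j : Fc =>
      (⟨⟨c j, (hc j j.2).1⟩, (hc j j.2).2⟩ : LinearMap.ker ((bdy ψ).domRestrict C₁)) :=
    LinearIndependent.of_comp (C₁.subtype ∘ₗ (LinearMap.ker ((bdy ψ).domRestrict C₁)).subtype) hi
  have : Module.Finite k (LinearMap.ker ((bdy ψ).domRestrict C₁)) :=
    FiniteDimensional.finiteDimensional_submodule (K := k) (V := C₁) _
  have h4 := h3.fintype_card_le_finrank
  rw [Fintype.card_coe] at h4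
  omega

theorem count_up (h : Closed Vt T) {J : Type} (Fc : Finset J) (w : J → FreeGroup E) (v : J → Ω)
    (H : ∀ α : E × Ω → ℚ, (∀ j ∈ Fc, itg (1 : FreeGroup E →* ℚˣ) α (w j) (v j) = 0) →
      ∃ y : Ω → ℚ, ∀ p ∈ Ed T v₀, α p = y ((FreeGroup.of p.1)⁻¹ • p.2) - y p.2) :
    (Ed T v₀).card + 1 ≤ (Vx Vt v₀).card + Fc.card := by
  classical
  set C₁ := supported ℚ ℚ (Ed T v₀ : Set (E × Ω)) with hC₁
  set B := (bdy (Ω := Ω) (1 : FreeGroup E →* ℚˣ)).domRestrict C₁ with hB
  have hrk := LinearMap.finrank_range_add_finrank_ker B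
  rw [tw1_finrank] at hrk
  have h1 : LinearMap.range B < supported ℚ ℚ (Vx Vt v₀ : Set Ω) := by
    refine lt_of_le_of_ne ?_ fun he => ?_
    · rintro _ ⟨z, rfl⟩
      exact tw1_bdy_mem _ h z.2
    · have h2 : single v₀ (1 : ℚ) ∈ LinearMap.range B := by
        rw [he]
        exact single_mem_supported ℚ 1 (Finset.mem_coe.2 (tw1_v0 h))
      obtain ⟨z, hz⟩ := h2
      have h3 : linearCombination ℚ (fun _ : Ω => (1 : ℚ)) ∘ₗ bdy (1 : FreeGroup E →* ℚˣ) = 0 := by
        ext p
        simp [bdy]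
      have h4 := LinearMap.congr_fun h3 z.1
      rw [LinearMap.comp_apply, ← LinearMap.domRestrict_apply, ← hB, hz] at h4
      simp at h4
  have h2 := Submodule.finrank_lt_finrank_of_lt h1
  rw [tw1_finrank] at h2
  have h3 : (LinearMap.ker B).map C₁.subtype ≤
      Submodule.span ℚ (Fc.image fun j => chn (1 : FreeGroup E →* ℚˣ) (w j) (v j) :
        Finset (E × Ω →₀ ℚ)) := by
    rintro _ ⟨z, hz, rfl⟩
    by_contra hn
    obtain ⟨L, hL1, hL2⟩ := Submodule.exists_le_ker_of_notMem hn
    obtain ⟨y, hy⟩ := H (fun p => L (single p 1)) fun j hj => by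
      rw [← itg_map]
      exact hL2 (Submodule.subset_span (Finset.mem_coe.2 (Finset.mem_image_of_mem _ hj)))
    have h4 : ∀ x ∈ C₁, L x = (linearCombination ℚ y ∘ₗ bdy (1 : FreeGroup E →* ℚˣ)) x := by
      intro x hx
      rw [hC₁, supported_eq_span_single] at hx
      refine LinearMap.eqOn_span' ?_ hx
      rintro _ ⟨p, hp, rfl⟩
      simp [bdy, hy p hp]
    refine hL1 ?_
    rw [Submodule.subtype_apply, h4 _ z.2, LinearMap.comp_apply, ← LinearMap.domRestrict_apply,
      ← hB, LinearMap.mem_ker.1 hz, map_zero]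
  have h4 := (Submodule.finrank_mono h3).trans (finrank_span_finset_le_card _)
  rw [Submodule.finrank_map_subtype_eq] at h4
  have h5 := h4.trans Finset.card_image_le
  omega

end Crest.Agent.R251
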