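import Crest.Agent.R251.Tower1

/-! R251, the tower argument, part 2: the `ℚ`-cover defined by a cochain.

`indep_lift`: by independence over `k` there is a linear left inverse `L : (B →₀ k) →ₗ[k] (ι → k)` (or one
functional `L i` for each `i`, `LinearMap.exists_leftInverse_of_injective` for
`Fintype.linearCombination`) with `L i (mapRange ε (c i')) = δ i i'`.  Let
`L' i : (B →₀ R) →ₗ[R] R = linearCombination R fun b => algebraMap k R (L i (single b 1))` and
`A i i' = L' i (c i')`.  Then `ε (A i i') = δ i i'`, so `ε (det A) = 1` (`RingHom.map_det`), `det A ≠ 0`,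
and `∑ g i' • c i' = 0` gives `A *ᵥ g = 0`, hence `g = 0` (`Matrix.eq_zero_of_mulVec_eq_zero`,
`Fintype.linearIndependent_iff`).
`cover_indep`: let `R = AddMonoidAlgebra k ℚ` (a domain), `ε` the augmentation
(`AddMonoidAlgebra.lift k k ℚ 1`), `T n = AddMonoidAlgebra.single n 1`, and
`Θ : (E × Cv α →₀ k) →ₗ[k] (E × Ω →₀ R)`, `single (e, (v, n)) 1 ↦ single (e, v) (T n)`.  By `itg_map`,
`Θ (chn ψ w (v, n)) = T n • ct w v` with `ct w v = Θ (chn ψ w (v, 0))` (heights are translated:
`g • (v, n) = (g • v, n + ..)`), and `mapRange ε (ct w v) = chn ψ w v` (`itg_map`, `itg_comp`).  So the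
family `ct (w φ.2) φ.1`, `φ ∈ s`, is independent over `R` (`indep_lift`).  A `k`-linear relation
`∑ z (v, n, r) • chn ψ (w r) (v, n) = 0` gives `∑_{(v,r)} (∑_n single n (z (v, n, r))) • ct (w r) v = 0`,
so all coefficients vanish.  (`LinearIndepOn.of_comp`-style: it suffices to show independence after
applying `Θ`; `linearIndependent_smul` for the basis `T n` of `R` over `k` does the last step:
`LinearIndependent k T → LinearIndependent R ct → LinearIndependent k fun p => T p.1 • ct p.2`.)
`cover_card`: `Prod.fst` maps `Vx Vt (v₀, 0)` onto `Vx Vt v₀`; if the cardinalities agree it is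
injective there (`Finset.card_image_iff`), so there is `y : Ω → ℚ` with `y (g⁻¹ • v₀) = itg 1 α g v₀` for all
`g ∈ Vt`, and for `(e, g) ∈ T`, `itg_mul` for `g * of e` gives the claim. -/

set_option autoImplicit false

namespace Crest.Agent.R251

open Crest.Agent.R197 Finsupp

theorem indep_lift {k R B ι : Type} [Field k] [CommRing R] [IsDomain R] [Algebra k R] [Finite ι]
    (ε : R →ₐ[k] k) (c : ι → (B →₀ R))
    (h : LinearIndependent k fun i => mapRange ε (map_zero ε) (c i)) : LinearIndependent R c := by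
  classical
  have := Fintype.ofFinite ι
  obtain ⟨L, hL⟩ := LinearMap.exists_leftInverse_of_injective _ (LinearMap.ker_eq_bot.2
    (linearIndependent_iff_injective_fintypeLinearCombination.1 h))
  let L' : ι → (B →₀ R) →ₗ[R] R := fun i =>
    linearCombination R fun b => algebraMap k R (L (single b 1) i)
  have hε : ∀ i x, ε (L' i x) = L (mapRange ε (map_zero ε) x) i := by
    intro i x
    induction x using Finsupp.induction_linear with
    | zero => simp
    | add x y hx hy => rw [map_add, map_add, hx, hy, mapRange_add (map_add ε), map_add, Pi.add_apply]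
    | single b r =>
      rw [mapRange_single, ← smul_single_one b (ε r), map_smul]
      simp [L']
  let A : Matrix ι ι R := Matrix.of fun i i' => L' i (c i')
  have hA : ε.toRingHom.mapMatrix A = 1 := by
    ext i i'
    have h1 := congrFun (LinearMap.congr_fun hL (Pi.single i' 1)) i
    rw [LinearMap.comp_apply, Fintype.linearCombination_apply_single, one_smul] at h1
    refine ((hε i _).trans h1).trans ?_
    simp [Matrix.one_apply, Pi.single_apply]
  have hdet : A.det ≠ 0 := fun h0 => by
    have := ε.toRingHom.map_det A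
    rw [h0, map_zero, hA, Matrix.det_one] at this
    exact zero_ne_one this
  refine Fintype.linearIndependent_iff.2 fun g hg =>
    congrFun (Matrix.eq_zero_of_mulVec_eq_zero hdet (v := g) ?_)
  funext i
  simpa [A, Matrix.mulVec, dotProduct, mul_comm] using congrArg (L' i) hg

variable {E Ω : Type} [MulAction (FreeGroup E) Ω] {k : Type} [Field k] (ψ : FreeGroup E →* kˣ)

/-- The `ℚ`-cover defined by `α`. -/
def Cv (_α : E × Ω → ℚ) : Type := Ω × ℚ

noncomputable instance (α : E × Ω → ℚ) : MulAction (FreeGroup E) (Cv α) where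
  smul g x := (g • x.1, x.2 + itg (1 : FreeGroup E →* ℚˣ) α g⁻¹ x.1)
  one_smul x := Prod.ext (one_smul _ x.1) (by
    change x.2 + itg (1 : FreeGroup E →* ℚˣ) α 1⁻¹ x.1 = x.2
    rw [inv_one, itg_one, add_zero])
  mul_smul g h x := Prod.ext (mul_smul g h x.1) (by
    change x.2 + itg (1 : FreeGroup E →* ℚˣ) α (g * h)⁻¹ x.1 =
      x.2 + itg (1 : FreeGroup E →* ℚˣ) α h⁻¹ x.1 + itg (1 : FreeGroup E →* ℚˣ) α g⁻¹ (h • x.1)
    rw [mul_inv_rev, itg_mul, inv_inv]
    simp [add_assoc])

theorem cv_smul (α : E × Ω → ℚ) (g : FreeGroup E) (x : Cv α) :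
    g • x = ((g • x.1, x.2 + itg (1 : FreeGroup E →* ℚˣ) α g⁻¹ x.1) : Ω × ℚ) := rfl

theorem cover_indep (α : E × Ω → ℚ) {R : Type} (w : R → FreeGroup E) {s : Set (Ω × R)}
    (hs : s.Finite) (h : LinearIndepOn k (fun φ : Ω × R => chn ψ (w φ.2) φ.1) s) :
    LinearIndepOn k (fun φ : Cv α × R => chn ψ (w φ.2) φ.1) {φ | (φ.1.1, φ.2) ∈ s} := by
  have := hs.to_subtype
  let ε : AddMonoidAlgebra k ℚ →ₐ[k] k := AddMonoidAlgebra.lift k k ℚ 1
  let f : E × Cv α → (E × Ω →₀ AddMonoidAlgebra k ℚ) := fun p =>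
    single (p.1, p.2.1) (AddMonoidAlgebra.single p.2.2 1)
  have h1 : ∀ (x : Cv α) (g : FreeGroup E), linearCombination k f (chn ψ g x) =
      (AddMonoidAlgebra.single x.2 1 : AddMonoidAlgebra k ℚ) •
        itg ψ f g (show Cv α from (x.1, 0)) := by
    intro x g
    have h2 := itg_map ψ f ((LinearMap.lsmul (AddMonoidAlgebra k ℚ) _
      (AddMonoidAlgebra.single x.2 1)).restrictScalars k) g (show Cv α from (x.1, 0))
    have h3 := itg_comp ψ f (fun y : Cv α => show Cv α from (y.1, x.2 + y.2))
      (fun g y => Prod.ext rfl (add_assoc _ _ _).symm) g (show Cv α from (x.1, 0))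
    rw [chn, itg_map]
    simp only [linearCombination_single, one_smul]
    refine (Eq.trans ?_ (h3.symm.trans ?_)).trans h2.symm
    · congr 1
      exact Prod.ext rfl (add_zero _).symm
    · congr 1
      funext p
      simp [f, AddMonoidAlgebra.single_mul_single]
  have h2 : ∀ (v : Ω) (g : FreeGroup E),
      mapRange ε (map_zero ε) (itg ψ f g (show Cv α from (v, 0))) = chn ψ g v := by
    intro v g
    refine (itg_map ψ f (mapRange.linearMap ε.toLinearMap) g _).trans
      (Eq.trans ?_ (itg_comp ψ (fun p => single p (1 : k)) (fun y : Cv α => y.1) (fun _ _ => rfl) g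
        (show Cv α from (v, 0))))
    congr 1
    funext p
    simp [f, ε]
  have h3 : LinearIndependent (AddMonoidAlgebra k ℚ)
      fun φ : s => itg ψ f (w φ.1.2) (show Cv α from (φ.1.1, 0)) :=
    indep_lift ε _ (by simp only [h2]; exact h)
  have h4 := (linearIndependent_smul (AddMonoidAlgebra.basis ℚ k).linearIndependent h3).comp
    (fun φ : {φ : Cv α × R | (φ.1.1, φ.2) ∈ s} => (φ.1.1.2, (⟨(φ.1.1.1, φ.1.2), φ.2⟩ : s)))
    fun a b hab => by
      obtain ⟨h5, h6⟩ := Prod.mk.inj hab
      obtain ⟨h7, h8⟩ := Prod.mk.inj (Subtype.mk.inj h6)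
      exact Subtype.ext (Prod.ext (Prod.ext h7 h5) h8)
  refine LinearIndependent.of_comp (linearCombination k f) ?_
  convert h4 using 1
  funext φ
  exact h1 _ _

theorem cover_card (α : E × Ω → ℚ) {Vt : Finset (FreeGroup E)} {T : Finset (E × FreeGroup E)}
    (h : Closed Vt T) (v₀ : Ω)
    (hα : ¬∃ y : Ω → ℚ, ∀ p ∈ Ed T v₀, α p = y ((FreeGroup.of p.1)⁻¹ • p.2) - y p.2) :
    (Vx Vt v₀).card < (Vx Vt (show Cv α from (v₀, 0))).card := by
  classical
  have h1 : (Vx Vt (show Cv α from (v₀, 0))).image (fun x : Cv α => x.1) = Vx Vt v₀ := by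
    rw [Vx, Vx, Finset.image_image]
    congr
  refine lt_of_le_of_ne (h1 ▸ Finset.card_image_le) fun he => hα ?_
  rw [← h1, Finset.card_image_iff] at he
  have : Nonempty (Cv α) := ⟨(v₀, 0)⟩
  have h2 : ∀ g ∈ Vt, (Function.invFunOn (fun x : Cv α => x.1) (Vx Vt (show Cv α from (v₀, 0)))
      (g⁻¹ • v₀)).2 = itg (1 : FreeGroup E →* ℚˣ) α g v₀ := by
    intro g hg
    have h3 := he.leftInvOn_invFunOn (x := g⁻¹ • (show Cv α from (v₀, 0)))
      (Finset.mem_coe.2 (Finset.mem_image_of_mem _ hg))
    refine (congrArg Prod.snd h3).trans ?_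
    rw [cv_smul, inv_inv, zero_add]
  refine ⟨fun z => (Function.invFunOn (fun x : Cv α => x.1) (Vx Vt (show Cv α from (v₀, 0))) z).2,
    fun p hp => ?_⟩
  obtain ⟨q, hq, rfl⟩ := Finset.mem_image.1 hp
  simp only
  rw [← mul_smul, ← mul_inv_rev, h2 _ (h.tgt q hq), h2 _ (h.src q hq), itg_mul, itg_of]
  simp

end Crest.Agent.R251
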