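import Crest.Agent.R251.Per
import Crest.Agent.R251.Dim2
import Crest.Agent.R197.Hol2

/-! R251: the big square and the small square in a `2`-cell; atlases on `2`-complexes.

Let `D i = 2 • d i` be the corners of the closed cell.  `cq r (s,t) = chr 2 r (A (s,t))` with the affine
map `A (s,t) = ![2s-1, 2t-1]`, `A 00 = D2`, `A 10 = D3`, `A 11 = D0`, `A 01 = D1`; `A` maps `Sq` into
`closedBall 0 1` and the sides of `Sq` into the sphere, which `chr 2 r` maps to `Sk Z 2 ⊆ Sp Z`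
(`chr_mem_Sk_of_sphere`, `Sk_two_subset_Sp`); `chr 2 r` maps `closedBall 0 1 \ {0}` to `Sp Z`
(`cwrad_chr_mem_diff`).
`vq_eq_val`: let `L = lft μ (chr 2 r) d0 1` on `closedBall 0 1`, `c = (L D2).2`.  `per_affine`, `per_smul`:
`c • vq μ θ r = tri θ L D2 D3 D0 - tri θ L D2 D1 D0`; take `g = c⁻¹`.  With `s a b = tri θ L 0 a b`
(`tri_four`) both this and `val μ θ r` are sums of `s` round the big and the small square (`side_neg`),
and in each of the four convex sets `closedBall 0 1 ∩ {z | 0 < e * z i}` (`e = ±1`) `side_add` gives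
`s Di Dj = s Di di + s di dj + s dj Dj`, `s dj Dj = - s Dj dj`.
`loopVal_conj`: with `ρ i = ω.val (chr 2 r ∘ seg di Di)`, `PF.tri` in the same convex sets gives
`ω (side di dj) = ρ i * ω (side Di Dj) * (ρ j)⁻¹`; three of the big sides are constant (`ω.congr`,
`ω.const`), and the side `D2 D3` is `s ↦ cq r (s, 0)`.
`atlas_dim2`: take `η` from `exists_hol1`, `μ' = μ.mono (subset_univ (Sp Z))`,
`l = FreeGroup.lift fun e => μ.val (ed e)`; charts `U1 i` with `fun x => l (f1 i x) * gau μ' x` (potentials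
by `det1`; compatible by `f1_compat`), and the open cells (`isOpen_chr_image`) with
`fun y => clab μ r d0 ((chr 2 r).symm y)` (`PF.pot_of_convex`, `continuousOn_chr_symm`); mixed
compatibility is `hol2_compat` (compare the proof of `hol2_glue` in `R197/Hol2`). -/

set_option autoImplicit false

namespace Crest.Agent.R251

open Set Metric Topology Crest.Agent.R197

/-- The closed half squares without their inner side. -/
def vqH (i : Fin 2) (e : ℝ) : Set (Fin 2 → ℝ) := closedBall 0 1 ∩ {z | 0 < e * z i}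

theorem vq_convex (i : Fin 2) (e : ℝ) : Convex ℝ (vqH i e) :=
  (convex_closedBall 0 1).inter (convex_halfSpace_gt (f := fun z : Fin 2 → ℝ => e * z i)
    ⟨fun x y => by simp [mul_add], fun c x => by simp [mul_left_comm]⟩ 0)

theorem vq_cb {a b : ℝ} (ha : |a| ≤ 1) (hb : |b| ≤ 1) :
    ![a, b] ∈ closedBall (0 : Fin 2 → ℝ) 1 := by
  rw [mem_closedBall_zero_iff, pi_norm_le_iff_of_nonneg zero_le_one]
  intro i
  fin_cases i
  · exact ha
  · exact hb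

theorem vq_mem0 : d0 ∈ vqH 1 1 ∧ d1 ∈ vqH 1 1 ∧ ![1, 1] ∈ vqH 1 1 ∧ ![-1, 1] ∈ vqH 1 1 := by
  refine ⟨⟨vq_cb ?_ ?_, ?_⟩, ⟨vq_cb ?_ ?_, ?_⟩, ⟨vq_cb ?_ ?_, ?_⟩, ⟨vq_cb ?_ ?_, ?_⟩⟩ <;>
    norm_num [abs_le, d0, d1]

theorem vq_mem1 :
    d1 ∈ vqH 0 (-1) ∧ d2 ∈ vqH 0 (-1) ∧ ![-1, 1] ∈ vqH 0 (-1) ∧ ![-1, -1] ∈ vqH 0 (-1) := by
  refine ⟨⟨vq_cb ?_ ?_, ?_⟩, ⟨vq_cb ?_ ?_, ?_⟩, ⟨vq_cb ?_ ?_, ?_⟩, ⟨vq_cb ?_ ?_, ?_⟩⟩ <;>
    norm_num [abs_le, d1, d2]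

theorem vq_mem2 :
    d2 ∈ vqH 1 (-1) ∧ d3 ∈ vqH 1 (-1) ∧ ![-1, -1] ∈ vqH 1 (-1) ∧ ![1, -1] ∈ vqH 1 (-1) := by
  refine ⟨⟨vq_cb ?_ ?_, ?_⟩, ⟨vq_cb ?_ ?_, ?_⟩, ⟨vq_cb ?_ ?_, ?_⟩, ⟨vq_cb ?_ ?_, ?_⟩⟩ <;>
    norm_num [abs_le, d2, d3]

theorem vq_mem3 : d3 ∈ vqH 0 1 ∧ d0 ∈ vqH 0 1 ∧ ![1, -1] ∈ vqH 0 1 ∧ ![1, 1] ∈ vqH 0 1 := by
  refine ⟨⟨vq_cb ?_ ?_, ?_⟩, ⟨vq_cb ?_ ?_, ?_⟩, ⟨vq_cb ?_ ?_, ?_⟩, ⟨vq_cb ?_ ?_, ?_⟩⟩ <;>
    norm_num [abs_le, d3, d0]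

variable {Z : Type} [TopologicalSpace Z] [CWComplex (univ : Set Z)] [T2Space Z]

theorem vq_maps (r : Cell Z 2) (i : Fin 2) (e : ℝ) : MapsTo (chr 2 r) (vqH i e) (Sp Z) :=
  fun z hz => (cwrad_chr_mem_diff r ⟨hz.1, by rintro rfl; simpa using hz.2⟩).2

omit [T2Space Z] in
theorem vq_cont (r : Cell Z 2) (i : Fin 2) (e : ℝ) : ContinuousOn (chr 2 r) (vqH i e) :=
  (continuousOn_chr 2 r).mono inter_subset_left

omit [T2Space Z] in
theorem vq_seg (r : Cell Z 2) {a b : Fin 2 → ℝ} {t : ℝ} {p : ℝ × ℝ}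
    (h0 : a 0 + t * (b 0 - a 0) = 2 * p.1 - 1) (h1 : a 1 + t * (b 1 - a 1) = 2 * p.2 - 1) :
    chr 2 r (seg a b t) = cq r p := by
  rw [cq]
  congr 1
  funext i
  fin_cases i
  · exact h0
  · exact h1

omit [T2Space Z] in
theorem vq_bot (r : Cell Z 2) :
    (fun s => cq r (s, 0)) = fun s => chr 2 r (seg ![-1, -1] ![1, -1] s) :=
  funext fun s => (vq_seg r (by simp; ring) (by simp)).symm

theorem isPath_bot (r : Cell Z 2) : IsPath (Sp Z) fun s => cq r (s, 0) := by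
  rw [vq_bot]
  exact (isPath_seg (vq_convex 1 (-1)) vq_mem2.2.2.1 vq_mem2.2.2.2).comp (vq_cont r _ _)
    (vq_maps r _ _)

theorem loopVal_conj {x₀ : Z} {r : Cell Z 2}
    (h : Sqr x₀ (fun s => cq r (s, 0)) (fun _ => x₀) (cq r)) {H : Type} [Group H]
    (ω : PF (Sp Z) H) : ∃ b, loopVal ω (chr 2 r) = b * ω.val (fun s => cq r (s, 0)) * b⁻¹ := by
  have key : ∀ {i : Fin 2} {e : ℝ} {a b A B : Fin 2 → ℝ},
      a ∈ vqH i e ∧ b ∈ vqH i e ∧ A ∈ vqH i e ∧ B ∈ vqH i e →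
      (ω.val fun t => chr 2 r (seg a b t)) = (ω.val fun t => chr 2 r (seg a A t)) *
        (ω.val fun t => chr 2 r (seg A B t)) * (ω.val fun t => chr 2 r (seg b B t))⁻¹ := by
    rintro i e a b A B ⟨ha, hb, hA, hB⟩
    rw [ω.tri (vq_convex i e) (vq_cont r i e) (vq_maps r i e) ha hA hB,
      ← ω.tri (vq_convex i e) (vq_cont r i e) (vq_maps r i e) ha hb hB, mul_inv_cancel_right]
  have hx : x₀ ∈ Sp Z := h.left 0 per_I0 ▸ (isPath_bot r).zero_mem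
  have hI : ∀ t ∈ Icc (0 : ℝ) 1, 1 - t ∈ Icc (0 : ℝ) 1 := fun t ht =>
    ⟨sub_nonneg.2 ht.2, sub_le_self _ ht.1⟩
  have h0 : (ω.val fun t => chr 2 r (seg ![1, 1] ![-1, 1] t)) = 1 :=
    (ω.congr fun t ht => (vq_seg r (p := (1 - t, 1)) (by simp; ring) (by norm_num)).trans
      (h.top _ (hI t ht))).trans (ω.const x₀ hx)
  have h1 : (ω.val fun t => chr 2 r (seg ![-1, 1] ![-1, -1] t)) = 1 :=
    (ω.congr fun t ht => (vq_seg r (p := (0, 1 - t)) (by simp) (by simp; ring)).trans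
      (h.left _ (hI t ht))).trans (ω.const x₀ hx)
  have h3 : (ω.val fun t => chr 2 r (seg ![1, -1] ![1, 1] t)) = 1 :=
    (ω.congr fun t ht => (vq_seg r (p := (1, t)) (by norm_num) (by simp; ring)).trans
      (h.right _ ht)).trans (ω.const x₀ hx)
  refine ⟨ω.val fun t => chr 2 r (seg d0 ![1, 1] t), ?_⟩
  rw [loopVal, key vq_mem0, key vq_mem1, key vq_mem2, key vq_mem3, h0, h1, h3, vq_bot]
  group

variable {G : Type} [Group G] {μ : PF (univ : Set Z) G}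

theorem atlas_dim2 (h : Dim2 Z) (μ : PF (univ : Set Z) G) : Nonempty (Atlas μ) := by
  obtain ⟨η, hη, -⟩ := exists_hol1 h
  let l : FreeGroup (Cell Z 1) →* G := FreeGroup.lift fun e => μ.val (ed e)
  let g : Cell Z 2 → (Fin 2 → ℝ) → G := fun r z => μ.val fun t => chr 2 r (seg d0 z t)
  have hg : ∀ r δ, IsPath (ball 0 1) δ →
      μ.val (fun t => chr 2 r (δ t)) = (g r (δ 0))⁻¹ * g r (δ 1) := fun r δ hδ =>
    μ.pot_of_convex (convex_ball 0 1) (hol2_cont r) (mapsTo_univ _ _) hol2_d0.1 hδ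
  have hf : ∀ i, μ.Pot (U1 i) fun x => l (f1 i x) * gau μ x := fun i γ hγ => by
    have h1 : μ.val γ = (gau μ (γ 0))⁻¹ * l (η.val γ) * gau μ (γ 1) :=
      det1 h η hη (μ.mono (subset_univ _)) (hγ.mono (U1_subset i))
    rw [h1, hη i γ hγ, map_mul, map_inv]
    group
  have hc := fun i r => @hol2_compat Z _ _ _ h G _ (μ.mono (subset_univ _)) _ (isOpen_U1 h i)
    (U1_subset i) (fun x => l (f1 i x) * gau μ x) (hf i) r (g r)
    fun δ hδ => hg r δ (hδ.mono hol2_punct_sub)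
  refine ⟨⟨Option (Cell Z 1) ⊕ Cell Z 2, Sum.elim U1 fun r => chr 2 r '' ball 0 1,
    Sum.elim (fun i x => l (f1 i x) * gau μ x) fun r y => g r ((chr 2 r).symm y), ?_, ?_, ?_, ?_⟩⟩
  · rintro (i | r)
    · exact isOpen_U1 h i
    · exact isOpen_chr_image h r isOpen_ball Subset.rfl
  · intro y
    by_cases hy : y ∈ Sp Z
    · obtain ⟨i, hi⟩ := U1_cover y hy
      exact ⟨Sum.inl i, hi⟩
    · obtain ⟨r, rfl⟩ : y ∈ ctr Z 2 := not_not.1 hy
      exact ⟨Sum.inr r, 0, mem_ball_self one_pos, rfl⟩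
  · rintro (i | r) (j | r') y ⟨hy, hy'⟩
    · filter_upwards [f1_compat h i j y ⟨hy, hy'⟩] with y' h1
      have h2 := congrArg l h1
      simp only [map_mul, map_inv] at h2
      simpa [mul_assoc] using h2
    · exact hc i r' hy hy'
    · filter_upwards [hc j r hy' hy] with y' h1
      have h3 := congrArg Inv.inv h1
      rw [mul_inv_rev, mul_inv_rev _ _⁻¹, inv_inv, inv_inv] at h3
      exact h3
    · obtain ⟨z, hz, rfl⟩ := hy
      obtain ⟨z', hz', h1⟩ := hy'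
      obtain rfl := (cell_eq_of_chr_eq hz' hz h1).1
      exact Filter.Eventually.of_forall fun y' => by simp
  · rintro (i | r)
    · exact hf i
    · intro δ h4
      have h5 : ∀ y ∈ chr 2 r '' ball 0 1, (chr 2 r).symm y ∈ ball (0 : Fin 2 → ℝ) 1 ∧
          chr 2 r ((chr 2 r).symm y) = y := by
        rintro _ ⟨z, hz, rfl⟩
        rw [chr_symm_chr 2 r hz]
        exact ⟨hz, rfl⟩
      exact (μ.congr fun t ht => (h5 _ (h4.2 ht)).2.symm).trans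
        (hg r _ (h4.comp (continuousOn_chr_symm 2 r) fun y hy => (h5 y hy).1))

theorem vq_eq_val (μ : PF (univ : Set Z) G) (r : Cell Z 2) : ∃ g : G, ∀ (M : Type) [AddCommGroup M]
    [DistribMulAction G M] (θ : Co (Z × G) M 2), Rel μ (Sp Z) θ → vq μ θ r = g • val μ θ r := by
  have hL : Lift μ univ (closedBall 0 1) (lft μ (chr 2 r) d0 1) :=
    lift_lft (convex_closedBall 0 1) (continuousOn_chr 2 r) (mapsTo_univ _ _) vq_mem0.1.1 1
  set L := lft μ (chr 2 r) d0 1 with hLd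
  refine ⟨(L ![-1, -1]).2⁻¹, fun M _ _ θ hθ => ?_⟩
  let f : ℝ × ℝ →L[ℝ] (Fin 2 → ℝ) := ContinuousLinearMap.pi
    ![(2 : ℝ) • ContinuousLinearMap.fst ℝ ℝ ℝ, (2 : ℝ) • ContinuousLinearMap.snd ℝ ℝ ℝ]
  have hf : ∀ z : ℝ × ℝ, f z + ![-1, -1] = ![2 * z.1 - 1, 2 * z.2 - 1] := fun z => by
    funext i
    fin_cases i <;> simp [f, sub_eq_add_neg]
  have h1 := per_affine (θ := θ) hL f ![-1, -1] fun z hz => by
    simp only [hf]
    exact vq_cb (abs_le.2 ⟨by linarith [hz.1.1], by linarith [hz.1.2]⟩)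
      (abs_le.2 ⟨by linarith [hz.2.1], by linarith [hz.2.2]⟩)
  simp only [hf] at h1
  norm_num at h1
  have h0 : (0 : Fin 2 → ℝ) ∈ closedBall (0 : Fin 2 → ℝ) 1 := mem_closedBall_self zero_le_one
  have key : ∀ {i : Fin 2} {e : ℝ} {a b A B : Fin 2 → ℝ},
      a ∈ vqH i e ∧ b ∈ vqH i e ∧ A ∈ vqH i e ∧ B ∈ vqH i e →
      tri θ L 0 A B = tri θ L 0 a b + tri θ L 0 b B - tri θ L 0 a A ∧
        tri θ L 0 B A = -tri θ L 0 A B ∧ tri θ L 0 b a = -tri θ L 0 a b := by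
    rintro i e a b A B ⟨ha, hb, hA, hB⟩
    have hc := convex_closedBall (0 : Fin 2 → ℝ) 1
    refine ⟨?_, side_neg hθ hc (vq_convex i e) inter_subset_left hL (vq_maps r i e) h0 hA hB,
      side_neg hθ hc (vq_convex i e) inter_subset_left hL (vq_maps r i e) h0 ha hb⟩
    rw [← side_add hθ hc (vq_convex i e) inter_subset_left hL (vq_maps r i e) h0 ha hb hB,
      side_add hθ hc (vq_convex i e) inter_subset_left hL (vq_maps r i e) h0 ha hA hB]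
    abel
  have h4 := fun {a b c} => @tri_four Z _ G _ μ univ M _ _ _ _ _ _ (convex_closedBall 0 1) L hL θ
    hθ.coc 0 a b c h0
  rw [eq_inv_smul_iff, vq, ← per_smul hθ.eqv]
  refine h1.trans ?_
  rw [val, ← hLd, h4 vq_mem1.2.2.2.1 vq_mem3.2.2.1.1 vq_mem0.2.2.1.1,
    h4 vq_mem1.2.2.2.1 vq_mem0.2.2.2.1 vq_mem0.2.2.1.1, h4 vq_mem0.1.1 vq_mem1.1.1 vq_mem2.1.1,
    h4 vq_mem0.1.1 vq_mem2.1.1 vq_mem3.1.1, (key vq_mem0).2.1, (key vq_mem1).2.1,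
    (key vq_mem3).2.2, (key vq_mem0).1, (key vq_mem1).1, (key vq_mem2).1, (key vq_mem3).1]
  abel

variable {M : Type} [AddCommGroup M] [DistribMulAction G M]

theorem exists_rel_vq (h : Dim2 Z) (m : Cell Z 2 → M) :
    ∃ θ : Co (Z × G) M 2, Rel μ (Sp Z) θ ∧ ∀ r, vq μ θ r = m r := by
  choose g hg using fun r => vq_eq_val μ r
  obtain ⟨θ, h1, h2⟩ := exists_rel_val (μ := μ) h fun r => (g r)⁻¹ • m r
  exact ⟨θ, h1, fun r => by rw [hg r M θ h1, h2, smul_inv_smul]⟩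

theorem cobd_of_vq (h : Dim2 Z) {θ : Co (Z × G) M 2} (hθ : Rel μ (Sp Z) θ)
    (h0 : ∀ r, vq μ θ r = 0) : Cobd μ univ θ := by
  refine cobd_of_val h hθ fun r => ?_
  obtain ⟨g, hg⟩ := vq_eq_val μ r
  have := h0 r
  rwa [hg M θ hθ, smul_eq_zero_iff_eq] at this

end Crest.Agent.R251
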